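import Vale.Agent.P363.H.CryD

/-!
# P363 H/Cry

The crystal field estimates.
-/

open MeasureTheory Filter Topology Set
open scoped ContDiff

set_option linter.unusedSectionVars false

noncomputable section

namespace Vale.Agent.P363

theorem cry_pot (R : ℝ) (i j : Fin 5) :
    pot (dV R) (orb i) (orb j) = nrm i * nrm j * ∫ x, dV R x * (raw i x * raw j x) := by
  unfold pot
  rw [← integral_const_mul]
  refine integral_congr_ae (Eventually.of_forall fun x => ?_)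
  simp only [orb_f]
  ring

theorem cry_pot_lim {i j : Fin 5} {ρ : E3 → ℝ} (h : ∀ x, raw i x * raw j x = ρ x) {L : ℝ}
    (hL : Tendsto (fun R : ℝ => (∫ x, dV R x * ρ x) / R ^ 2) (𝓝[>] 0) (𝓝 L)) :
    Tendsto (fun R : ℝ => pot (dV R) (orb i) (orb j) / R ^ 2) (𝓝[>] 0) (𝓝 (nrm i * nrm j * L)) := by
  refine (hL.const_mul (nrm i * nrm j)).congr fun R => ?_
  rw [cry_pot]
  simp only [h]
  ring

theorem cry_exp (a b r : ℝ) : Real.exp (a * r) * Real.exp (b * r) = Real.exp ((a + b) * r) := by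
  rw [← Real.exp_add]; congr 1; ring

theorem cry_half (r : ℝ) : Real.exp (-r / 2) * Real.exp (-r / 2) = Real.exp (-r) := by
  rw [← Real.exp_add]; congr 1; ring

theorem cry_raw_pp (k : Fin 3) (x : E3) :
    raw (k.addNat 2) x * raw (k.addNat 2) x = x k ^ 2 * Real.exp (-‖x‖) := by
  rw [raw_p, ← cry_half]; ring

theorem cry_int_p (R : ℝ) (k : Fin 3) :
    Integrable fun x : E3 => dV R x * (x k ^ 2 * Real.exp (-‖x‖)) := by
  have h := ((fb_dV R).int (orb (k.addNat 2)) (orb (k.addNat 2))).const_mul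
    ((nrm (k.addNat 2))⁻¹ ^ 2)
  refine h.congr (Eventually.of_forall fun x => ?_)
  have := (nrm_pos (k.addNat 2)).ne'
  simp only [orb_f, ← cry_raw_pp]
  field_simp

theorem cry_lim_z : Tendsto (fun R : ℝ => (∫ x, dV R x * (x 2 ^ 2 * Real.exp (-‖x‖))) / R ^ 2)
    (𝓝[>] 0) (𝓝 (-(8 * Real.pi / 15))) := by
  have h := ((cry_lim_rad (a := 1) le_rfl 0 0 1).sub (cry_lim_p (k := 0) (by decide))).sub
    (cry_lim_p (k := 1) (by decide))
  have e : 2 * Real.pi / 3 * 0 - 4 * Real.pi / 15 - 4 * Real.pi / 15 = -(8 * Real.pi / 15) := by ring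
  rw [e] at h
  refine h.congr fun R => ?_
  have e2 : ∫ x : E3, dV R x * cryG 1 0 0 1 ‖x‖ = (∫ x : E3, dV R x * (x 0 ^ 2 * Real.exp (-‖x‖))) +
      (∫ x : E3, dV R x * (x 1 ^ 2 * Real.exp (-‖x‖))) +
      ∫ x : E3, dV R x * (x 2 ^ 2 * Real.exp (-‖x‖)) := by
    have i01 : Integrable fun x : E3 => dV R x * (x 0 ^ 2 * Real.exp (-‖x‖)) +
        dV R x * (x 1 ^ 2 * Real.exp (-‖x‖)) := (cry_int_p R 0).add (cry_int_p R 1)
    rw [← integral_add (cry_int_p R 0) (cry_int_p R 1), ← integral_add i01 (cry_int_p R 2)]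
    refine integral_congr_ae (Eventually.of_forall fun x => ?_)
    have := sum_sq_coord x
    rw [Fin.sum_univ_three] at this
    simp only [cryG, ← this, neg_mul, one_mul]
    ring
  rw [e2]
  ring

theorem cry_off (R : ℝ) {i j : Fin 5} (hij : i ≠ j) (k : Fin 3) (hj : j = k.addNat 2) :
    pot (dV R) (orb i) (orb j) = 0 := by
  obtain ⟨T, hT⟩ := exists_sym_rf k
  refine (hT.qf_odd (U := dV R) (fun x => ?_) (Eventually.of_forall fun x => ?_)
    (Eventually.of_forall fun x => ?_)).2.2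
  · simp only [dV, V0, VR_rf, norm_rf]
  · rw [orb_rf, if_neg (hj ▸ hij), one_mul]
  · rw [orb_rf, if_pos hj]; ring

theorem cry_off' (R : ℝ) {i j : Fin 5} (hij : i ≠ j) (h : 2 ≤ i ∨ 2 ≤ j) :
    pot (dV R) (orb i) (orb j) = 0 := by
  have key : ∀ i j : Fin 5, i ≠ j → 2 ≤ j → pot (dV R) (orb i) (orb j) = 0 := by
    intro i j hij hj
    have : ∃ k : Fin 3, j = k.addNat 2 := by
      revert hj
      revert j
      intro j _
      fin_cases j <;> decide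
    obtain ⟨k, hk⟩ := this
    exact cry_off R hij k hk
  rcases h with h | h
  · rw [(fb_dV R).bil_pot.symm]
    exact key j i hij.symm h
  · exact key i j hij h

theorem cry_all (i j : Fin 5) : ∃ L : ℝ,
    Tendsto (fun R : ℝ => pot (dV R) (orb i) (orb j) / R ^ 2) (𝓝[>] 0) (𝓝 L) := by
  have h01 : ∀ x : E3, raw 0 x * raw 1 x = cryG (3 / 2) 1 (-1 / 2) 0 ‖x‖ := by
    intro x
    rw [raw_zero, raw_one, cryG, show -(3 / 2) * ‖x‖ = -‖x‖ + -‖x‖ / 2 by ring, Real.exp_add]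
    ring
  by_cases hij : i = j
  · subst hij
    fin_cases i
    · refine ⟨_, cry_pot_lim (fun x => ?_) (cry_lim_rad (a := 2) (by norm_num) 1 0 0)⟩
      show raw 0 x * raw 0 x = _
      rw [raw_zero, cryG, show -2 * ‖x‖ = -‖x‖ + -‖x‖ by ring, Real.exp_add]
      ring
    · refine ⟨_, cry_pot_lim (fun x => ?_) (cry_lim_rad (a := 1) le_rfl 1 (-1) (1 / 4))⟩
      show raw 1 x * raw 1 x = _
      rw [raw_one, cryG, neg_one_mul, ← cry_half]
      ring
    · exact ⟨_, cry_pot_lim (cry_raw_pp 0) (cry_lim_p (k := 0) (by decide))⟩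
    · exact ⟨_, cry_pot_lim (cry_raw_pp 1) (cry_lim_p (k := 1) (by decide))⟩
    · exact ⟨_, cry_pot_lim (cry_raw_pp 2) cry_lim_z⟩
  · by_cases h2 : 2 ≤ i ∨ 2 ≤ j
    · exact ⟨0, by simp only [cry_off' _ hij h2, zero_div]; exact tendsto_const_nhds⟩
    · have : (i = 0 ∧ j = 1) ∨ (i = 1 ∧ j = 0) := by
        revert hij h2
        revert i j
        decide
      rcases this with ⟨rfl, rfl⟩ | ⟨rfl, rfl⟩
      · exact ⟨_, cry_pot_lim h01 (cry_lim_rad (a := 3 / 2) (by norm_num) 1 (-1 / 2) 0)⟩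
      · exact ⟨_, cry_pot_lim (fun x => by rw [mul_comm]; exact h01 x)
          (cry_lim_rad (a := 3 / 2) (by norm_num) 1 (-1 / 2) 0)⟩

theorem crystal_main : ∃ c C R₀ : ℝ, 0 < c ∧ 0 < C ∧ 0 < R₀ ∧ ∀ R : ℝ, 0 < R → R ≤ R₀ →
    (∀ i j, |pot (dV R) (orb i) (orb j)| ≤ C * R ^ 2) ∧
    (∀ j : Fin 5, j = 1 ∨ j = 2 ∨ j = 3 →
      pot (dV R) (orb 4) (orb 4) + c * R ^ 2 ≤ pot (dV R) (orb j) (orb j)) ∧
    (∀ i j : Fin 5, i ≠ j → 2 ≤ i ∨ 2 ≤ j → pot (dV R) (orb i) (orb j) = 0) ∧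
    (∀ j b, pot (dV R) (orb j) b ^ 2 ≤ C * R ^ 3 * hn b) ∧
    ∀ b : S e3, |pot (dV R) b b| ≤ C * R * hn b := by
  choose L hL using cry_all
  obtain ⟨C₁, hC₁, hx⟩ := cry_cross
  obtain ⟨C₂, hC₂⟩ : ∃ C₂ : ℝ, ∀ i j, |L i j| < C₂ := by
    refine ⟨∑ i, ∑ j, |L i j| + 1, fun i j => ?_⟩
    have a : |L i j| ≤ ∑ j, |L i j| :=
      Finset.single_le_sum (f := fun j => |L i j|) (fun _ _ => abs_nonneg _) (Finset.mem_univ j)
    have b : ∑ j, |L i j| ≤ ∑ i, ∑ j, |L i j| :=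
      Finset.single_le_sum (f := fun i => ∑ j, |L i j|)
        (fun _ _ => Finset.sum_nonneg fun _ _ => abs_nonneg _) (Finset.mem_univ i)
    linarith
  have hpi := Real.pi_pos
  have n1 := nrm_pos 1
  have n2 := nrm_pos 2
  have n3 := nrm_pos 3
  have n4 := nrm_pos 4
  have e1 : ∀ᶠ R : ℝ in 𝓝[>] 0, ∀ i j, |pot (dV R) (orb i) (orb j) / R ^ 2| < C₂ := by
    simp only [eventually_all]
    exact fun i j => (hL i j).abs.eventually (gt_mem_nhds (hC₂ i j))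
  have e4 : ∀ᶠ R : ℝ in 𝓝[>] 0, pot (dV R) (orb 4) (orb 4) / R ^ 2 <
      -(nrm 4 * nrm 4 * (4 * Real.pi / 15)) := by
    refine (cry_pot_lim (cry_raw_pp 2) cry_lim_z).eventually (gt_mem_nhds ?_)
    show nrm 4 * nrm 4 * _ < _
    nlinarith [mul_pos (mul_pos n4 n4) hpi]
  have e11 : ∀ᶠ R : ℝ in 𝓝[>] 0, 0 < pot (dV R) (orb 1) (orb 1) / R ^ 2 := by
    refine (cry_pot_lim (i := 1) (j := 1) (fun x => ?_)
      (cry_lim_rad (a := 1) le_rfl 1 (-1) (1 / 4))).eventually (lt_mem_nhds (by positivity))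
    rw [raw_one, cryG, neg_one_mul, ← cry_half]
    ring
  have e22 : ∀ᶠ R : ℝ in 𝓝[>] 0, 0 < pot (dV R) (orb 2) (orb 2) / R ^ 2 :=
    (cry_pot_lim (cry_raw_pp 0) (cry_lim_p (k := 0) (by decide))).eventually
      (lt_mem_nhds (mul_pos (mul_pos n2 n2) (by positivity)))
  have e33 : ∀ᶠ R : ℝ in 𝓝[>] 0, 0 < pot (dV R) (orb 3) (orb 3) / R ^ 2 :=
    (cry_pot_lim (cry_raw_pp 1) (cry_lim_p (k := 1) (by decide))).eventually
      (lt_mem_nhds (mul_pos (mul_pos n3 n3) (by positivity)))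
  obtain ⟨R₀, hR₀, hall⟩ := (mem_nhdsGT_iff_exists_Ioc_subset).1
    (e1.and (e4.and (e11.and (e22.and e33))))
  refine ⟨nrm 4 * nrm 4 * (4 * Real.pi / 15), |C₂| + C₁ + 8, R₀, by positivity, by positivity, hR₀,
    fun R h0 h1 => ?_⟩
  obtain ⟨a1, a4, a11, a22, a33⟩ := hall ⟨h0, h1⟩
  have hR2 : 0 < R ^ 2 := by positivity
  refine ⟨fun i j => ?_, fun j hj => ?_, fun i j hij h => cry_off' R hij h, fun j b => ?_,
    fun b => ?_⟩
  · have a := a1 i j
    rw [abs_div, abs_of_pos hR2, div_lt_iff₀ hR2] at a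
    have := le_abs_self C₂
    nlinarith
  · rw [div_lt_iff₀ hR2] at a4
    rw [lt_div_iff₀ hR2] at a11 a22 a33
    rcases hj with rfl | rfl | rfl <;> linarith
  · refine (hx R h0 j b).trans ?_
    have := hn_nonneg b
    have := abs_nonneg C₂
    gcongr
    linarith
  · refine (cry_hardy h0 b).trans ?_
    have := hn_nonneg b
    have := abs_nonneg C₂
    gcongr
    linarith

end Vale.Agent.P363
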