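import Vale.Agent.P363.H.Orb

/-!
# P363 H/CryA  (TASK)

`cry_mvt2`: `exists_ratio_hasDerivAt_eq_ratio_slope` for `t ↦ f t + f (-t)` and `t ↦ t²` on `[0, R]`, then `exists_hasDerivAt_eq_slope` for `f'` on `[-t, t]`.
`cry_rad2`: `s t = ‖x + t • e3 2‖ = √(‖x‖² + 2 t x₂ + t²) > 0`, `s' = (x₂ + t)/s`; `f = g ∘ s`, `f' = g' (s) (x₂ + t)/s`.
`cry_dV_far`: `cry_rad2` with `g r = 1/r`, `‖x + s e‖ ≥ ‖x‖/2`.  `cry_dV_le`: for `‖x‖ ≥ 2R` use `1 + ‖x‖/R ≤ 3‖x‖/(2R)`, otherwise `1 + ‖x‖/R ≤ 3` and the triangle inequality.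
`cry_hardy`: off the three singular points `|1/‖x‖ - 1/‖x-p‖| ≤ ‖p‖/(‖x‖ ‖x-p‖) ≤ ‖p‖/2 (1/‖x‖² + 1/‖x-p‖²)`; `hardy`.
`cry_cross`: `|orb j| ≤ C` (`abs_orb_le`), `cry_dV_le`, Cauchy-Schwarz with `m x = (1 + ‖x‖/R)⁻¹^2` and `b/‖x-c‖` (`memLp_coul`, `hardy`); `∫ m² = R³ ∫ (1+‖x‖)^(-4)` (`Measure.integral_comp_smul`, `integrable_one_add_norm`).
-/

open MeasureTheory Filter Topology Set
open scoped ContDiff

set_option linter.unusedSectionVars false

noncomputable section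

namespace Vale.Agent.P363

theorem cry_mvt2 {f f' f'' : ℝ → ℝ} {R : ℝ} (hR : 0 < R)
    (h1 : ∀ t ∈ Icc (-R) R, HasDerivAt f (f' t) t) (h2 : ∀ t ∈ Icc (-R) R, HasDerivAt f' (f'' t) t) :
    ∃ s ∈ Icc (-R) R, f R + f (-R) - 2 * f 0 = R ^ 2 * f'' s := by
  have a1 : ∀ t ∈ Icc 0 R, HasDerivAt (fun t => f t + f (-t)) (f' t - f' (-t)) t := fun t ht =>
    ((h1 t ⟨by linarith [ht.1], ht.2⟩).add ((h1 (-t) ⟨by linarith [ht.2], by linarith [ht.1]⟩).comp t
      (hasDerivAt_neg t))).congr_deriv (by ring)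
  obtain ⟨c, hc, e⟩ := exists_ratio_hasDerivAt_eq_ratio_slope _ _ hR
    (fun t ht => (a1 t ht).continuousAt.continuousWithinAt) (fun t ht => a1 t (Ioo_subset_Icc_self ht))
    (fun t => t ^ 2) (fun t => 2 * t) (by fun_prop) fun t _ => by simpa using hasDerivAt_pow 2 t
  have hI : Icc (-c) c ⊆ Icc (-R) R := Icc_subset_Icc (by linarith [hc.2]) hc.2.le
  obtain ⟨s, hs, e'⟩ := exists_hasDerivAt_eq_slope f' f'' (by linarith [hc.1] : -c < c)
    (fun t ht => (h2 t (hI ht)).continuousAt.continuousWithinAt)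
    fun t ht => h2 t (hI (Ioo_subset_Icc_self ht))
  refine ⟨s, hI (Ioo_subset_Icc_self hs), mul_right_cancel₀ (b := 2 * c) (by linarith [hc.1]) ?_⟩
  rw [eq_div_iff (by linarith [hc.1])] at e'
  rw [neg_zero] at e
  linear_combination -e - R ^ 2 * e'

/-- The second derivative of a radial function in the direction of the last axis. -/
def cryD (g' g'' : ℝ → ℝ) (y : E3) : ℝ :=
  g'' ‖y‖ * (y 2 ^ 2 / ‖y‖ ^ 2) + g' ‖y‖ * ((‖y‖ ^ 2 - y 2 ^ 2) / ‖y‖ ^ 3)

theorem cryA_lb {R t : ℝ} (ht : t ∈ Icc (-R) R) (x : E3) : ‖x‖ - R ≤ ‖x + t • e3 2‖ := by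
  have := norm_sub_le (x + t • e3 2) (t • e3 2)
  rw [add_sub_cancel_right, norm_smul, norm_e3, mul_one, Real.norm_eq_abs] at this
  linarith [abs_le.2 ht]

theorem cryA_d {x : E3} {t : ℝ} (h : 0 < ‖x + t • e3 2‖) :
    HasDerivAt (fun t : ℝ => ‖x + t • e3 2‖) ((x 2 + t) / ‖x + t • e3 2‖) t := by
  have e : ∀ t : ℝ, ‖x + t • e3 2‖ ^ 2 = ‖x‖ ^ 2 + 2 * (t * x 2) + t ^ 2 := fun t => by
    rw [norm_add_sq_real, norm_smul, norm_e3, mul_one, Real.norm_eq_abs, sq_abs,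
      inner_smul_right, e3, EuclideanSpace.inner_single_right]
    simp
  have d : HasDerivAt (fun t : ℝ => ‖x + t • e3 2‖ ^ 2) (2 * (x 2 + t)) t := by
    rw [funext e]
    exact (((((hasDerivAt_id t).mul_const (x 2)).const_mul 2).const_add _).add
      (hasDerivAt_pow 2 t)).congr_deriv (by simp; ring)
  have := d.sqrt (pow_pos h 2).ne'
  simp only [Real.sqrt_sq (norm_nonneg _)] at this
  rwa [mul_div_mul_left _ _ two_ne_zero] at this

theorem cry_rad2 {g g' g'' : ℝ → ℝ} (h1 : ∀ r, 0 < r → HasDerivAt g (g' r) r)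
    (h2 : ∀ r, 0 < r → HasDerivAt g' (g'' r) r) {R : ℝ} (hR : 0 < R) {x : E3} (hx : R < ‖x‖) :
    ∃ s ∈ Icc (-R) R, g ‖x + R • e3 2‖ + g ‖x - R • e3 2‖ - 2 * g ‖x‖ =
      R ^ 2 * cryD g' g'' (x + s • e3 2) := by
  have p : ∀ t ∈ Icc (-R) R, 0 < ‖x + t • e3 2‖ := fun t ht => by linarith [cryA_lb ht x]
  have := cry_mvt2 (f := fun t => g ‖x + t • e3 2‖) (f'' := fun t => cryD g' g'' (x + t • e3 2)) hR
    (fun t ht => (h1 _ (p t ht)).comp t (cryA_d (p t ht))) fun t ht => by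
      refine (((h2 _ (p t ht)).comp t (cryA_d (p t ht))).mul (((hasDerivAt_id t).const_add
        (x 2)).div (cryA_d (p t ht)) (p t ht).ne')).congr_deriv ?_
      have := (p t ht).ne'
      simp only [cryD, PiLp.add_apply, PiLp.smul_apply, e3_apply, if_true, smul_eq_mul, mul_one,
        Function.comp, id, Pi.div_apply]
      field_simp
  simpa only [neg_smul, ← sub_eq_add_neg, zero_smul, add_zero] using this

theorem abs_cryD_le (g' g'' : ℝ → ℝ) (y : E3) :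
    |cryD g' g'' y| ≤ |g'' ‖y‖| + |g' ‖y‖| / ‖y‖ := by
  have a : y 2 ^ 2 ≤ ‖y‖ ^ 2 := by
    rw [← sq_abs]
    exact pow_le_pow_left₀ (abs_nonneg _) (PiLp.norm_apply_le y 2) 2
  refine (abs_add_le _ _).trans (add_le_add ?_ ?_)
  · rw [abs_mul, abs_of_nonneg (a := _ / _) (by positivity)]
    exact mul_le_of_le_one_right (abs_nonneg _) (div_le_one_of_le₀ a (sq_nonneg _))
  · rw [abs_mul, abs_of_nonneg (a := _ / _) (div_nonneg (sub_nonneg.2 a) (by positivity)),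
      div_eq_mul_inv |g' _|]
    refine mul_le_mul_of_nonneg_left ((div_le_div_of_nonneg_right (sub_le_self _ (sq_nonneg _))
      (by positivity)).trans_eq ?_) (abs_nonneg _)
    rcases eq_or_ne ‖y‖ 0 with h | h
    · simp [h]
    · field_simp

theorem cry_dV_far {R : ℝ} (hR : 0 < R) {x : E3} (hx : 2 * R ≤ ‖x‖) :
    |dV R x| ≤ 12 * R ^ 2 / ‖x‖ ^ 3 := by
  obtain ⟨s, hs, e⟩ := cry_rad2 (g := fun r => r⁻¹) (g' := fun r => -(r ^ 2)⁻¹)
    (g'' := fun r => 2 / r ^ 3) (fun r hr => hasDerivAt_inv hr.ne') (fun r hr =>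
      ((hasDerivAt_pow 2 r).inv (pow_pos hr 2).ne').neg.congr_deriv (by
        simp only [Nat.cast_ofNat, Nat.add_one_sub_one, pow_one]
        field_simp)) hR (x := x) (by linarith)
  have a := abs_cryD_le (fun r => -(r ^ 2)⁻¹) (fun r => 2 / r ^ 3) (x + s • e3 2)
  have b := cryA_lb hs x
  generalize cryD _ _ _ = D at e a
  generalize ‖x + s • e3 2‖ = r at a b
  have x0 : 0 < ‖x‖ := by linarith
  have r0 : 0 < r := by linarith
  have e' : dV R x = -(R ^ 2 / 2 * D) := by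
    simp only [dV, VR, V0, div_eq_mul_inv]
    linear_combination -(1 / 2) * e
  rw [abs_neg, abs_of_pos (a := 2 / _) (by positivity), abs_of_pos (a := _⁻¹) (by positivity)] at a
  rw [e', abs_neg, abs_mul, abs_of_pos (by positivity)]
  calc _ ≤ R ^ 2 / 2 * (3 / r ^ 3) := by
        gcongr
        exact a.trans_eq (by field_simp; ring)
    _ ≤ R ^ 2 / 2 * (3 / (‖x‖ / 2) ^ 3) := by
        gcongr
        linarith
    _ = _ := by
        field_simp
        ring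

theorem cry_dV_le {R : ℝ} (hR : 0 < R) (x : E3) : |dV R x| ≤ 27 * (1 + ‖x‖ / R)⁻¹ ^ 2 *
    (1 / ‖x‖ + 1 / ‖x - R • e3 2‖ + 1 / ‖x + R • e3 2‖) := by
  have a1 : 0 ≤ 1 / ‖x‖ := by positivity
  have a2 : 0 ≤ 1 / ‖x - R • e3 2‖ := by positivity
  have a3 : 0 ≤ 1 / ‖x + R • e3 2‖ := by positivity
  rcases le_total (2 * R) ‖x‖ with h | h
  · have x0 : 0 < ‖x‖ := by linarith
    calc _ ≤ _ := cry_dV_far hR h
      _ = 27 * (3 / 2 * (‖x‖ / R))⁻¹ ^ 2 * (1 / ‖x‖) := by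
          field_simp
          ring
      _ ≤ _ := by
          gcongr
          · linarith [(le_div_iff₀ hR).2 h]
          · linarith
  · calc _ ≤ 27 * (3 : ℝ)⁻¹ ^ 2 * (1 / ‖x‖ + 1 / ‖x - R • e3 2‖ + 1 / ‖x + R • e3 2‖) := by
          simp only [dV, VR, V0, div_eq_mul_inv, one_mul] at a1 a2 a3 ⊢
          exact abs_le.2 ⟨by linarith, by linarith⟩
      _ ≤ _ := by
          gcongr
          linarith [(div_le_iff₀ hR).2 h]

theorem cryA_inv {a b R : ℝ} (ha : 0 < a) (hb : 0 < b) (h : |a - b| ≤ R) :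
    |1 / a - 1 / b| ≤ R / 2 * (1 / a ^ 2 + 1 / b ^ 2) := by
  have e : 1 / a - 1 / b = -((a - b) * (1 / a * (1 / b))) := by
    field_simp
    ring
  rw [e, abs_neg, abs_mul, abs_of_pos (a := _ * _) (by positivity), ← one_div_pow, ← one_div_pow]
  refine (mul_le_mul h (?_ : _ ≤ ((1 / a) ^ 2 + (1 / b) ^ 2) / 2) (by positivity)
    ((abs_nonneg _).trans h)).trans_eq (by ring)
  nlinarith [sq_nonneg (1 / a - 1 / b)]

theorem cryA_three (R : ℝ) (b : S e3) : (Integrable fun x => 1 / ‖x‖ ^ 2 * b.f x ^ 2) ∧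
    (Integrable fun x => 1 / ‖x - R • e3 2‖ ^ 2 * b.f x ^ 2) ∧
    (Integrable fun x => 1 / ‖x + R • e3 2‖ ^ 2 * b.f x ^ 2) ∧
    ∫ x, 1 / ‖x‖ ^ 2 * b.f x ^ 2 ≤ 8 * hn b ∧ ∫ x, 1 / ‖x - R • e3 2‖ ^ 2 * b.f x ^ 2 ≤ 8 * hn b ∧
    ∫ x, 1 / ‖x + R • e3 2‖ ^ 2 * b.f x ^ 2 ≤ 8 * hn b := by
  have h0 := hardy b 0
  have h1 := hardy b (R • e3 2)
  have h2 := hardy b (-(R • e3 2))
  simp only [sub_zero, sub_neg_eq_add] at h0 h2
  have := kin_le_hn b
  exact ⟨h0.1, h1.1, h2.1, by linarith [h0.2], by linarith [h1.2], by linarith [h2.2]⟩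

theorem cry_hardy {R : ℝ} (hR : 0 < R) (b : S e3) : |pot (dV R) b b| ≤ 8 * R * hn b := by
  obtain ⟨i0, i1, i2, j0, j1, j2⟩ := cryA_three R b
  have k0 := i0.const_mul (R / 2)
  have k1 := i1.const_mul (R / 4)
  have k2 := i2.const_mul (R / 4)
  rw [pot, ← Real.norm_eq_abs]
  refine (norm_integral_le_of_norm_le ((k0.add k1).add k2) ?_).trans ?_
  · filter_upwards [Measure.ae_ne volume (0 : E3), Measure.ae_ne volume (R • e3 2),
      Measure.ae_ne volume (-(R • e3 2))] with x a0 a1 a2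
    have n : ‖R • e3 2‖ = R := by rw [norm_smul, norm_e3, mul_one, Real.norm_of_nonneg hR.le]
    have b1 := cryA_inv (R := R) (norm_pos_iff.2 a0) (norm_sub_pos_iff.2 a1)
      ((abs_norm_sub_norm_le _ _).trans_eq (by rw [sub_sub_cancel, n]))
    have b2 := cryA_inv (R := R) (norm_pos_iff.2 a0) (norm_sub_pos_iff.2 a2)
      ((abs_norm_sub_norm_le _ _).trans_eq (by rw [sub_sub_cancel, norm_neg, n]))
    rw [sub_neg_eq_add] at b2
    have b3 : |dV R x| ≤ R / 2 * (1 / ‖x‖ ^ 2) + R / 4 * (1 / ‖x - R • e3 2‖ ^ 2) +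
        R / 4 * (1 / ‖x + R • e3 2‖ ^ 2) := by
      rw [abs_le] at b1 b2 ⊢
      simp only [dV, VR, V0, div_eq_mul_inv, one_mul] at b1 b2 ⊢
      constructor <;> linarith [b1.1, b1.2, b2.1, b2.2]
    rw [Real.norm_eq_abs, abs_mul, abs_mul_self, ← sq]
    refine (mul_le_mul_of_nonneg_right b3 (sq_nonneg _)).trans_eq ?_
    simp only [Pi.add_apply]
    ring
  · rw [integral_add' (k0.add k1) k2, integral_add' k0 k1, integral_const_mul, integral_const_mul,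
      integral_const_mul]
    nlinarith

theorem cryA_opt {P A B : ℝ} (hA : 0 < A) (hB : 0 ≤ B) (h : ∀ δ, 0 < δ → |P| ≤ δ * A + B / δ) :
    P ^ 2 ≤ 4 * A * B := by
  rcases eq_or_ne P 0 with rfl | h0
  · simpa using by positivity
  have p := abs_pos.2 h0
  have := mul_le_mul_of_nonneg_right (h (|P| / (2 * A)) (by positivity)) p.le
  rw [show (|P| / (2 * A) * A + B / (|P| / (2 * A))) * |P| = |P| * |P| / 2 + 2 * A * B by
    field_simp, abs_mul_abs_self] at this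
  linarith

theorem cry_cross : ∃ C : ℝ, 0 < C ∧ ∀ R : ℝ, 0 < R → ∀ (j : Fin 5) (b : S e3),
    pot (dV R) (orb j) b ^ 2 ≤ C * R ^ 3 * hn b := by
  obtain ⟨C, hC, h⟩ := abs_orb_le
  have i : Integrable fun y : E3 => ((1 + ‖y‖)⁻¹ ^ 2) ^ 2 := by
    refine (integrable_one_add_norm (μ := volume) (r := (4 : ℕ)) (by simp; norm_num)).congr
      (ae_of_all _ fun y => ?_)
    simp only [Real.rpow_neg (add_nonneg zero_le_one (norm_nonneg y)), Real.rpow_natCast,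
      ← inv_pow]
    ring
  obtain ⟨I, hI⟩ : ∃ I, I = ∫ y : E3, ((1 + ‖y‖)⁻¹ ^ 2) ^ 2 := ⟨_, rfl⟩
  have I0 : 0 ≤ I := hI ▸ integral_nonneg fun _ => sq_nonneg _
  refine ⟨4 * (81 * C * (I + 1)) * (162 * C), by positivity, fun R hR j b => ?_⟩
  obtain ⟨i0, i1, i2, j0, j1, j2⟩ := cryA_three R b
  have hb := hn_nonneg b
  refine (cryA_opt (A := 81 * C * (I + 1) * R ^ 3) (B := 162 * C * hn b) (by positivity)
    (by positivity) fun δ hδ => ?_).trans_eq (by ring)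
  have k := (i.comp_smul (inv_pos.2 hR).ne').const_mul (81 * C * δ)
  have k' := ((i0.add i1).add i2).const_mul (27 * C / (4 * δ))
  rw [pot, ← Real.norm_eq_abs]
  refine (norm_integral_le_of_norm_le (k.add k') (ae_of_all _ fun x => ?_)).trans ?_
  · have a1 : |(orb j).f x| ≤ C := (h j x).1.trans (mul_le_of_le_one_right hC.le
      (Real.exp_le_one_iff.2 (by linarith [norm_nonneg x])))
    rw [Real.norm_eq_abs, abs_mul, abs_mul]
    refine (mul_le_mul (cry_dV_le hR x) (mul_le_mul_of_nonneg_right a1 (abs_nonneg _))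
      (by positivity) (by positivity)).trans ?_
    simp only [Pi.add_apply, norm_smul, Real.norm_of_nonneg (inv_pos.2 hR).le, ← one_div_pow,
      ← sq_abs (b.f x), inv_mul_eq_div]
    generalize (1 + ‖x‖ / R)⁻¹ ^ 2 = m
    generalize |b.f x| = β
    have q : ∀ u : ℝ, m * (u * β) ≤ δ * m ^ 2 + 1 / (4 * δ) * (u ^ 2 * β ^ 2) := fun u => by
      rw [← sub_nonneg, show δ * m ^ 2 + 1 / (4 * δ) * (u ^ 2 * β ^ 2) - m * (u * β) =
        (2 * δ * m - u * β) ^ 2 / (4 * δ) by field_simp; ring]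
      positivity
    refine le_of_eq_of_le ?_ ((mul_le_mul_of_nonneg_left (add_le_add (add_le_add (q (1 / ‖x‖))
      (q (1 / ‖x - R • e3 2‖))) (q (1 / ‖x + R • e3 2‖))) (by positivity : 0 ≤ 27 * C)).trans_eq ?_)
    · ring
    · ring
  · rw [integral_add' k k', integral_const_mul, integral_const_mul,
      Measure.integral_comp_inv_smul_of_nonneg volume (fun y : E3 => ((1 + ‖y‖)⁻¹ ^ 2) ^ 2) hR.le,
      ← hI, integral_add' (i0.add i1) i2, integral_add' i0 i1, finrank_euclideanSpace_fin,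
      smul_eq_mul]
    refine add_le_add ((mul_le_mul_of_nonneg_left (mul_le_mul_of_nonneg_left
      (le_add_of_nonneg_right zero_le_one) (by positivity)) (by positivity)).trans_eq (by ring))
      ((mul_le_mul_of_nonneg_left (add_le_add (add_le_add j0 j1) j2) (by positivity)).trans_eq ?_)
    field_simp
    ring

end Vale.Agent.P363
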