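import Vale.Agent.P363.A.Cut

/-!
# P363 H/CryB  (TASK)

Angular averages.  `cry_rot`: the reflection in `(ℝ ∙ (a - b))ᗮ` (`Submodule.reflection_sub`) is a `LinearIsometryEquiv` mapping `a` to `b`; `LinearIsometryEquiv.measurePreserving`,
`MeasurePreserving.integral_comp`, `LinearIsometryEquiv.inner_map_map`.  `cry_avg2`: the three integrals agree and add up (`sum_sq_coord`).
`cry_avg22`: `A = ∫ ⟪a, x⟫⁴ H` is the same for all unit `a`; with `a = (e_k ± e_l)/√2` and adding, `2A = (2A + 2A + 12 B_kl)/4`, so `A = 3 B_kl`; `‖x‖⁴ = ∑ x_k⁴ + 2 (x₀²x₁² + x₀²x₂² + x₁²x₂²)` gives `∫ ‖x‖⁴ H = 5 A`.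
-/

open MeasureTheory Filter Topology Set
open scoped ContDiff

set_option linter.unusedSectionVars false

noncomputable section

namespace Vale.Agent.P363

theorem cry_rot {a b : E3} (h : ‖a‖ = ‖b‖) (F : ℝ → ℝ → ℝ) :
    ∫ x : E3, F (inner ℝ a x) ‖x‖ = ∫ x : E3, F (inner ℝ b x) ‖x‖ := by
  obtain ⟨L, hL⟩ : ∃ L : E3 ≃ₗᵢ[ℝ] E3, L a = b := ⟨_, Submodule.reflection_sub h⟩
  have := L.measurePreserving.integral_comp L.toHomeomorph.measurableEmbedding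
    fun x : E3 => F (inner ℝ b x) ‖x‖
  rw [← this]
  refine integral_congr_ae (ae_of_all _ fun x => ?_)
  simp only [← hL, L.inner_map_map, L.norm_map]

theorem cryB_inner (k : Fin 3) (x : E3) : inner ℝ (e3 k) x = x k := by
  simp [e3, EuclideanSpace.inner_single_left]

theorem cryB_int {H : ℝ → ℝ} (hm : Measurable H) {n : ℕ}
    (hH : Integrable fun x : E3 => ‖x‖ ^ n * H ‖x‖) {P : E3 → ℝ} (hP : Continuous P) (K : ℝ)
    (hb : ∀ x, |P x| ≤ K * ‖x‖ ^ n) : Integrable fun x : E3 => P x * H ‖x‖ := by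
  refine (hH.norm.const_mul K).mono'
    (hP.measurable.mul (hm.comp measurable_norm)).aestronglyMeasurable (ae_of_all _ fun x => ?_)
  rw [Real.norm_eq_abs, Real.norm_eq_abs, abs_mul, abs_mul, ← mul_assoc,
    abs_of_nonneg (pow_nonneg (norm_nonneg x) n)]
  exact mul_le_mul_of_nonneg_right (hb x) (abs_nonneg _)

theorem cryB_pow (H : ℝ → ℝ) (n : ℕ) (k l : Fin 3) :
    ∫ x : E3, x k ^ n * H ‖x‖ = ∫ x : E3, x l ^ n * H ‖x‖ := by
  simpa only [cryB_inner] using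
    cry_rot ((norm_e3 k).trans (norm_e3 l).symm) fun t r => t ^ n * H r

theorem cryB_sq (x : E3) (k : Fin 3) : x k ^ 2 ≤ ‖x‖ ^ 2 := by
  rw [← sq_abs]
  exact pow_le_pow_left₀ (abs_nonneg _) (abs_coord_le x k) 2

theorem cry_avg2 {H : ℝ → ℝ} (hm : Measurable H) (hH : Integrable fun x : E3 => ‖x‖ ^ 2 * H ‖x‖)
    (k : Fin 3) : Integrable (fun x : E3 => x k ^ 2 * H ‖x‖) ∧
      ∫ x : E3, x k ^ 2 * H ‖x‖ = 1 / 3 * ∫ x : E3, ‖x‖ ^ 2 * H ‖x‖ := by
  have hi : ∀ j : Fin 3, Integrable fun x : E3 => x j ^ 2 * H ‖x‖ := fun j =>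
    cryB_int hm hH (by fun_prop) 1 fun x => by
      rw [one_mul, abs_of_nonneg (sq_nonneg _)]
      exact cryB_sq x j
  refine ⟨hi k, ?_⟩
  have e : ∫ x : E3, ‖x‖ ^ 2 * H ‖x‖ = ∑ j : Fin 3, ∫ x : E3, x j ^ 2 * H ‖x‖ := by
    rw [← integral_finsetSum _ fun j _ => hi j]
    refine integral_congr_ae (ae_of_all _ fun x => ?_)
    simp only [← Finset.sum_mul, sum_sq_coord]
  rw [e, Fin.sum_univ_three, cryB_pow H 2 0 k, cryB_pow H 2 1 k, cryB_pow H 2 2 k]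
  ring

theorem cryB_int22 {H : ℝ → ℝ} (hm : Measurable H)
    (hH : Integrable fun x : E3 => ‖x‖ ^ 4 * H ‖x‖) (k l : Fin 3) :
    Integrable fun x : E3 => x k ^ 2 * x l ^ 2 * H ‖x‖ :=
  cryB_int hm hH (by fun_prop) 1 fun x => by
    rw [one_mul, abs_of_nonneg (by positivity), show ‖x‖ ^ 4 = ‖x‖ ^ 2 * ‖x‖ ^ 2 by ring]
    exact mul_le_mul (cryB_sq x k) (cryB_sq x l) (sq_nonneg _) (sq_nonneg _)

theorem cryB_int4 {H : ℝ → ℝ} (hm : Measurable H)
    (hH : Integrable fun x : E3 => ‖x‖ ^ 4 * H ‖x‖) (k : Fin 3) :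
    Integrable fun x : E3 => x k ^ 4 * H ‖x‖ :=
  (cryB_int22 hm hH k k).congr (ae_of_all _ fun x => by ring)

theorem cryB_tilt {H : ℝ → ℝ} (hm : Measurable H)
    (hH : Integrable fun x : E3 => ‖x‖ ^ 4 * H ‖x‖) {k l : Fin 3} (hkl : k ≠ l) {s : ℝ}
    (hs : s ^ 2 = 16) : Integrable (fun x : E3 => (3 * x k + s * x l) ^ 4 * H ‖x‖) ∧
      ∫ x : E3, (3 * x k + s * x l) ^ 4 * H ‖x‖ = 625 * ∫ x : E3, x k ^ 4 * H ‖x‖ := by
  constructor
  · refine cryB_int hm hH (by fun_prop) 2500 fun x => ?_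
    have h1 := cryB_sq x k
    have h2 := cryB_sq x l
    have h3 : (3 * x k + s * x l) ^ 2 ≤ 50 * ‖x‖ ^ 2 := by
      have : (s * x l) ^ 2 = 16 * x l ^ 2 := by rw [mul_pow, hs]
      nlinarith [sq_nonneg (3 * x k - s * x l)]
    rw [abs_of_nonneg (by positivity)]
    calc (3 * x k + s * x l) ^ 4 = ((3 * x k + s * x l) ^ 2) ^ 2 := by ring
      _ ≤ (50 * ‖x‖ ^ 2) ^ 2 := pow_le_pow_left₀ (sq_nonneg _) h3 2
      _ = _ := by ring
  · have i1 : ∀ x : E3, inner ℝ ((3 : ℝ) • e3 k + s • e3 l) x = 3 * x k + s * x l := fun x => by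
      rw [inner_add_left, real_inner_smul_left, real_inner_smul_left, cryB_inner, cryB_inner]
    have i2 : ∀ x : E3, inner ℝ ((5 : ℝ) • e3 k) x = 5 * x k := fun x => by
      rw [real_inner_smul_left, cryB_inner]
    have hn : ‖(3 : ℝ) • e3 k + s • e3 l‖ = ‖(5 : ℝ) • e3 k‖ := by
      refine (sq_eq_sq₀ (norm_nonneg _) (norm_nonneg _)).1 ?_
      rw [← real_inner_self_eq_norm_sq, ← real_inner_self_eq_norm_sq, i1, i2]
      simp [e3, hkl, hkl.symm]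
      linarith
    have := cry_rot hn fun t r => t ^ 4 * H r
    simp only [i1, i2] at this
    rw [this, ← integral_const_mul]
    exact integral_congr_ae (ae_of_all _ fun x => by ring)

theorem cryB_three {H : ℝ → ℝ} (hm : Measurable H)
    (hH : Integrable fun x : E3 => ‖x‖ ^ 4 * H ‖x‖) {k l : Fin 3} (hkl : k ≠ l) :
    3 * ∫ x : E3, x k ^ 2 * x l ^ 2 * H ‖x‖ = ∫ x : E3, x 0 ^ 4 * H ‖x‖ := by
  obtain ⟨a1, a2⟩ := cryB_tilt hm hH hkl (s := 4) (by norm_num)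
  obtain ⟨b1, b2⟩ := cryB_tilt hm hH hkl (s := -4) (by norm_num)
  have c1 := (cryB_int4 hm hH k).const_mul 162
  have c2 := (cryB_int4 hm hH l).const_mul 512
  have c3 := (cryB_int22 hm hH k l).const_mul 1728
  have c4 : Integrable fun x : E3 => 162 * (x k ^ 4 * H ‖x‖) + 512 * (x l ^ 4 * H ‖x‖) := c1.add c2
  have e : ∫ x : E3, (3 * x k + 4 * x l) ^ 4 * H ‖x‖ + (3 * x k + -4 * x l) ^ 4 * H ‖x‖ =
      ∫ x : E3, 162 * (x k ^ 4 * H ‖x‖) + 512 * (x l ^ 4 * H ‖x‖) +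
        1728 * (x k ^ 2 * x l ^ 2 * H ‖x‖) := integral_congr_ae (ae_of_all _ fun x => by ring)
  rw [integral_add a1 b1, integral_add c4 c3, integral_add c1 c2, a2, b2, integral_const_mul,
    integral_const_mul, integral_const_mul, cryB_pow H 4 k 0, cryB_pow H 4 l 0] at e
  linarith

theorem cry_avg22 {H : ℝ → ℝ} (hm : Measurable H) (hH : Integrable fun x : E3 => ‖x‖ ^ 4 * H ‖x‖)
    {k l : Fin 3} (hkl : k ≠ l) : Integrable (fun x : E3 => x k ^ 2 * x l ^ 2 * H ‖x‖) ∧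
      ∫ x : E3, x k ^ 2 * x l ^ 2 * H ‖x‖ = 1 / 15 * ∫ x : E3, ‖x‖ ^ 4 * H ‖x‖ := by
  refine ⟨cryB_int22 hm hH k l, ?_⟩
  have e : ∫ x : E3, ‖x‖ ^ 4 * H ‖x‖ =
      ∑ i : Fin 3, ∑ j : Fin 3, ∫ x : E3, x i ^ 2 * x j ^ 2 * H ‖x‖ := by
    rw [← Finset.sum_congr rfl fun i _ => integral_finsetSum _ fun j _ => cryB_int22 hm hH i j,
      ← integral_finsetSum _ fun i _ => integrable_finsetSum _ fun j _ => cryB_int22 hm hH i j]
    refine integral_congr_ae (ae_of_all _ fun x => ?_)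
    simp only [← Finset.sum_mul, ← Finset.mul_sum, sum_sq_coord]
    ring
  have d : ∀ i : Fin 3, ∫ x : E3, x i ^ 2 * x i ^ 2 * H ‖x‖ = ∫ x : E3, x 0 ^ 4 * H ‖x‖ := fun i =>
    (integral_congr_ae (ae_of_all _ fun x => by ring)).trans (cryB_pow H 4 i 0)
  have t01 := cryB_three hm hH (show (0 : Fin 3) ≠ 1 by decide)
  have t02 := cryB_three hm hH (show (0 : Fin 3) ≠ 2 by decide)
  have t10 := cryB_three hm hH (show (1 : Fin 3) ≠ 0 by decide)
  have t12 := cryB_three hm hH (show (1 : Fin 3) ≠ 2 by decide)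
  have t20 := cryB_three hm hH (show (2 : Fin 3) ≠ 0 by decide)
  have t21 := cryB_three hm hH (show (2 : Fin 3) ≠ 1 by decide)
  have tkl := cryB_three hm hH hkl
  rw [e]
  simp only [Fin.sum_univ_three, d]
  linarith

end Vale.Agent.P363
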