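import Vale.Agent.P363.H.CryA

/-!
# P363 H/CryC  (TASK)

`cry_shift`: `integral_add_right_eq_self`, `integral_sub_right_eq_self`.  `cry_lim`: `cry_shift` (integrability: `1/‖x-c‖ ≤ 1 + 1/‖x-c‖²`, `(1+r²) e^(-r/2) ≤ K e^(-r/4)`, `integrable_inv_exp`, `integrable_pow_exp 0`), then
`tendsto_integral_filter_of_dominated_convergence` for `F R x = 1/‖x‖ * (P x * (g ‖x+Re‖ + g ‖x-Re‖ - 2 g ‖x‖)) / R²`, `0 < R ≤ 1/2`, bound `K (1 + 1/‖x‖²) e^(-‖x‖/4)`: for `‖x‖ ≥ 2R` by `cry_rad2`, `abs_cryD_le`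
(`‖x + s e‖ ≥ ‖x‖/2` and `≥ ‖x‖ - 1`); for `‖x‖ < 2R ≤ 1` by the Lipschitz bound `|g r - g r'| ≤ C |r - r'|` on `[0, ∞)` (`Convex.norm_image_sub_le_of_norm_hasDerivWithin_le`), so `|F| ≤ 2 * 2C/(R‖x‖) ≤ 8C/‖x‖²`.
Pointwise limit for `x ≠ 0`: `cry_rad2` and continuity of `cryD g' g''` at `x`.
-/

open MeasureTheory Filter Topology Set
open scoped ContDiff

set_option linter.unusedSectionVars false

noncomputable section

namespace Vale.Agent.P363

theorem cryc_int (c : E3) (K : ℝ) :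
    Integrable fun x : E3 => K * ((1 + 1 / ‖x - c‖ ^ 2) * Real.exp (-(1 / 4) * ‖x‖)) := by
  have h1 := integrable_pow_exp 0 (show (0 : ℝ) < 1 / 4 by norm_num)
  have h2 := integrable_inv_exp (show (0 : ℝ) < 1 / 4 by norm_num) c
  simp only [pow_zero] at h1
  simp only [add_mul]
  exact (h1.add h2).const_mul K

theorem cryc_exp {r : ℝ} (hr : 0 ≤ r) :
    (1 + r ^ 2) * Real.exp (-r / 2) ≤ 32 * Real.exp (-(1 / 4) * r) := by
  have h1 := Real.quadratic_le_exp_of_nonneg (show 0 ≤ r / 4 by positivity)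
  rw [show -(1 / 4) * r = r / 4 + -r / 2 by ring, Real.exp_add, ← mul_assoc]
  exact mul_le_mul_of_nonneg_right (by nlinarith) (Real.exp_pos _).le

theorem cryc_inv (r : ℝ) : 1 / r ≤ 1 + 1 / r ^ 2 := by
  rw [← one_div_pow]
  nlinarith [sq_nonneg (1 / r - 1)]

theorem cryc_sub (x : E3) (s : ℝ) : ‖x + s • e3 2 - x‖ = |s| := by
  rw [add_sub_cancel_left, norm_smul, norm_e3, mul_one, Real.norm_eq_abs]

theorem cryc_bound {g g' g'' : ℝ → ℝ} (h1 : ∀ r, HasDerivAt g (g' r) r)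
    (h2 : ∀ r, HasDerivAt g' (g'' r) r) {C : ℝ} (hC : 0 ≤ C)
    (hb : ∀ r, 0 ≤ r → |g r| ≤ C * Real.exp (-r / 2) ∧ |g' r| ≤ C * Real.exp (-r / 2) ∧
      |g'' r| ≤ C * Real.exp (-r / 2)) {R : ℝ} (hR : 0 < R) (hR1 : R ≤ 1 / 2) {x : E3}
    (hx : 0 < ‖x‖) :
    1 / ‖x‖ * |(g ‖x + R • e3 2‖ + g ‖x - R • e3 2‖ - 2 * g ‖x‖) / R ^ 2| ≤
      4 * C * Real.exp 1 * (1 + 1 / ‖x‖ ^ 2) * Real.exp (-‖x‖ / 2) := by
  have hE : ∀ t, -‖x‖ / 2 + 1 ≥ t → C * Real.exp t ≤ C * (Real.exp 1 * Real.exp (-‖x‖ / 2)) :=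
    fun t ht => mul_le_mul_of_nonneg_left (by
      rw [← Real.exp_add]
      exact Real.exp_le_exp.2 (by linarith)) hC
  have hE0 : 0 ≤ C * (Real.exp 1 * Real.exp (-‖x‖ / 2)) := by positivity
  have hu := cryc_inv ‖x‖
  have hv : 0 ≤ 1 / ‖x‖ := by positivity
  rw [← one_div_pow] at hu ⊢
  rw [show 4 * C * Real.exp 1 * (1 + (1 / ‖x‖) ^ 2) * Real.exp (-‖x‖ / 2) =
    C * (Real.exp 1 * Real.exp (-‖x‖ / 2)) * (4 * (1 + (1 / ‖x‖) ^ 2)) by ring]
  rcases le_or_gt (2 * R) ‖x‖ with h | h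
  · obtain ⟨s, hs, e⟩ := cry_rad2 (fun r _ => h1 r) (fun r _ => h2 r) hR
      (show R < ‖x‖ by linarith)
    rw [e, mul_div_cancel_left₀ _ (by positivity)]
    have h3 := abs_norm_sub_norm_le (x + s • e3 2) x
    rw [cryc_sub] at h3
    have h4 := (abs_le.1 (h3.trans (abs_le.2 hs))).1
    have h5 := abs_cryD_le g' g'' (x + s • e3 2)
    generalize x + s • e3 2 = y at h4 h5
    obtain ⟨-, b1, b2⟩ := hb ‖y‖ (norm_nonneg _)
    have h6 := hE (-‖y‖ / 2) (by linarith)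
    have h7 : |g' ‖y‖| / ‖y‖ ≤ C * (Real.exp 1 * Real.exp (-‖x‖ / 2)) * (2 * (1 / ‖x‖)) := by
      rw [div_eq_mul_one_div]
      refine mul_le_mul (b1.trans h6) ?_ (by positivity) hE0
      rw [mul_one_div, div_le_div_iff₀ (by linarith) hx]
      linarith
    refine (mul_le_mul_of_nonneg_left (h5.trans (add_le_add (b2.trans h6) h7)) hv).trans ?_
    rw [← mul_one_add, mul_left_comm]
    exact mul_le_mul_of_nonneg_left (by nlinarith) hE0
  · have lip : ∀ s : ℝ, |s| = R → |g ‖x + s • e3 2‖ - g ‖x‖| ≤ C * R := fun s hs => by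
      have h3 := (convex_Ici (0 : ℝ)).norm_image_sub_le_of_norm_hasDerivWithin_le (C := C)
        (fun r _ => (h1 r).hasDerivWithinAt) (fun r hr => (hb r hr).2.1.trans
          (mul_le_of_le_one_right hC (Real.exp_le_one_iff.2 (by linarith [mem_Ici.1 hr]))))
        (norm_nonneg x) (norm_nonneg (x + s • e3 2))
      refine h3.trans (mul_le_mul_of_nonneg_left ?_ hC)
      rw [← hs, ← cryc_sub x s]
      exact abs_norm_sub_norm_le _ _
    have l1 := abs_le.1 (lip R (abs_of_pos hR))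
    have l2 := abs_le.1 (lip (-R) (by rw [abs_neg, abs_of_pos hR]))
    rw [neg_smul, ← sub_eq_add_neg] at l2
    have h3 : |(g ‖x + R • e3 2‖ + g ‖x - R • e3 2‖ - 2 * g ‖x‖) / R ^ 2| ≤ C * (4 * (1 / ‖x‖)) := by
      rw [abs_div, abs_sq, div_le_iff₀ (by positivity)]
      have h4 : 1 ≤ 2 * R * (1 / ‖x‖) := by
        rw [mul_one_div, le_div_iff₀ hx]
        linarith
      have h5 := mul_le_mul_of_nonneg_left h4 (show 0 ≤ 2 * (C * R) by positivity)
      refine abs_le.2 ⟨?_, ?_⟩ <;> nlinarith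
    have h6 := hE 0 (by linarith)
    rw [Real.exp_zero, mul_one] at h6
    refine (mul_le_mul_of_nonneg_left h3 hv).trans ?_
    rw [mul_left_comm]
    exact mul_le_mul h6 (by nlinarith) (by positivity) hE0

theorem cry_shift {ρ : E3 → ℝ} (hρ : ∀ c : E3, Integrable fun x => 1 / ‖x - c‖ * ρ x) (R : ℝ) :
    ∫ x, dV R x * ρ x =
      -(1 / 2) * ∫ x : E3, 1 / ‖x‖ * (ρ (x + R • e3 2) + ρ (x - R • e3 2) - 2 * ρ x) := by
  have h0 : Integrable fun x : E3 => 1 / ‖x‖ * ρ x := by simpa only [sub_zero] using hρ 0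
  have h1 := hρ (R • e3 2)
  have h2 : Integrable fun x : E3 => 1 / ‖x + R • e3 2‖ * ρ x := by
    simpa only [sub_neg_eq_add] using hρ (-(R • e3 2))
  have i1 := h1.comp_add_right (R • e3 2)
  have i2 := h2.comp_sub_right (R • e3 2)
  have e1 := integral_add_right_eq_self (μ := volume) (fun x => 1 / ‖x - R • e3 2‖ * ρ x) (R • e3 2)
  have e2 := integral_sub_right_eq_self (μ := volume) (fun x => 1 / ‖x + R • e3 2‖ * ρ x) (R • e3 2)
  simp only [add_sub_cancel_right, sub_add_cancel] at i1 i2 e1 e2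
  have a1 : ∀ x, dV R x * ρ x = -(1 / 2) * ((1 / ‖x - R • e3 2‖ * ρ x + 1 / ‖x + R • e3 2‖ * ρ x) -
      2 * (1 / ‖x‖ * ρ x)) := fun x => by
    rw [dV, VR, V0]
    ring
  have a2 : ∀ x : E3, 1 / ‖x‖ * (ρ (x + R • e3 2) + ρ (x - R • e3 2) - 2 * ρ x) =
      (1 / ‖x‖ * ρ (x + R • e3 2) + 1 / ‖x‖ * ρ (x - R • e3 2)) - 2 * (1 / ‖x‖ * ρ x) :=
    fun x => by ring
  simp only [a1, a2]
  rw [integral_const_mul, integral_sub (by exact h1.add h2) (h0.const_mul 2),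
    integral_sub (by exact i1.add i2) (h0.const_mul 2), integral_add h1 h2, integral_add i1 i2,
    e1, e2]
theorem cry_lim {P : E3 → ℝ} (hP : Continuous P) (hP1 : ∀ x, |P x| ≤ 1 + ‖x‖ ^ 2)
    (hP2 : ∀ (x : E3) (t : ℝ), P (x + t • e3 2) = P x) {g g' g'' : ℝ → ℝ}
    (h1 : ∀ r, HasDerivAt g (g' r) r) (h2 : ∀ r, HasDerivAt g' (g'' r) r) (h3 : Continuous g'') {C : ℝ}
    (hb : ∀ r, 0 ≤ r → |g r| ≤ C * Real.exp (-r / 2) ∧ |g' r| ≤ C * Real.exp (-r / 2) ∧
      |g'' r| ≤ C * Real.exp (-r / 2)) :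
    Tendsto (fun R : ℝ => (∫ x, dV R x * (P x * g ‖x‖)) / R ^ 2) (𝓝[>] 0)
      (𝓝 (-(1 / 2) * ∫ x : E3, 1 / ‖x‖ * (P x * cryD g' g'' x))) := by
  have hC : 0 ≤ C := by
    have := (abs_nonneg _).trans (hb 0 le_rfl).1
    exact nonneg_of_mul_nonneg_left this (Real.exp_pos _)
  have cg : Continuous g := continuous_iff_continuousAt.2 fun r => (h1 r).continuousAt
  have cg' : Continuous g' := continuous_iff_continuousAt.2 fun r => (h2 r).continuousAt
  have hρ : ∀ c : E3, Integrable fun x => 1 / ‖x - c‖ * (P x * g ‖x‖) := fun c => by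
    refine (cryc_int c (32 * C)).mono' (Measurable.aestronglyMeasurable (by fun_prop))
      (ae_of_all _ fun x => ?_)
    rw [Real.norm_eq_abs, abs_mul, abs_mul, abs_of_nonneg (by positivity)]
    have a1 := mul_le_mul (hP1 x) (hb _ (norm_nonneg x)).1 (abs_nonneg _) (by positivity)
    have a2 := mul_le_mul_of_nonneg_left (cryc_exp (norm_nonneg x)) hC
    refine (mul_le_mul (cryc_inv _) (a1.trans ((mul_left_comm _ _ _).trans_le a2)) (by positivity)
      (by positivity)).trans_eq (by ring)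
  have key : Tendsto (fun R : ℝ => ∫ x : E3, 1 / ‖x‖ * (P x *
      ((g ‖x + R • e3 2‖ + g ‖x - R • e3 2‖ - 2 * g ‖x‖) / R ^ 2))) (𝓝[>] 0)
      (𝓝 (∫ x : E3, 1 / ‖x‖ * (P x * cryD g' g'' x))) := by
    refine tendsto_integral_filter_of_dominated_convergence _
      (Eventually.of_forall fun R => Measurable.aestronglyMeasurable (by fun_prop)) ?_
      (cryc_int 0 (4 * C * Real.exp 1 * 32)) ?_
    · filter_upwards [Ioc_mem_nhdsGT (show (0 : ℝ) < 1 / 2 by norm_num)] with R hR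
      filter_upwards [ae_norm_ne 0] with x hx
      have a1 := cryc_bound h1 h2 hC hb hR.1 hR.2 ((norm_nonneg x).lt_of_ne' hx)
      have a2 := mul_le_mul_of_nonneg_left (cryc_exp (norm_nonneg x))
        (show 0 ≤ 4 * C * Real.exp 1 * (1 + 1 / ‖x‖ ^ 2) by positivity)
      rw [Real.norm_eq_abs, abs_mul, abs_mul, abs_of_nonneg (by positivity), mul_left_comm, sub_zero]
      refine (mul_le_mul (hP1 x) a1 (by positivity) (by positivity)).trans
        (((mul_left_comm _ _ _).trans_le a2).trans_eq (by ring))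
    · filter_upwards [ae_norm_ne 0] with x hx
      refine (Tendsto.const_mul _ (Metric.tendsto_nhds.2 fun ε hε => ?_)).const_mul _
      have c2 := (contDiff_coord 2).continuous
      have hc : ContinuousAt (cryD g' g'') x :=
        ((h3.comp continuous_norm).continuousAt.mul ((c2.pow 2).continuousAt.div
          (continuous_norm.pow 2).continuousAt (pow_ne_zero 2 hx))).add
        ((cg'.comp continuous_norm).continuousAt.mul (((continuous_norm.pow 2).sub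
          (c2.pow 2)).continuousAt.div (continuous_norm.pow 3).continuousAt (pow_ne_zero 3 hx)))
      obtain ⟨δ, hδ, hδ'⟩ := Metric.continuousAt_iff.1 hc ε hε
      filter_upwards [Ioo_mem_nhdsGT hδ, Ioo_mem_nhdsGT ((norm_nonneg x).lt_of_ne' hx)] with R a1 a2
      obtain ⟨s, hs, e⟩ := cry_rad2 (fun r _ => h1 r) (fun r _ => h2 r) a1.1 a2.2
      rw [e, mul_div_cancel_left₀ _ (pow_ne_zero 2 a1.1.ne')]
      refine hδ' ?_
      rw [dist_eq_norm, cryc_sub]
      exact (abs_le.2 hs).trans_lt a1.2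
  refine (key.const_mul _).congr fun R => ?_
  rw [cry_shift hρ, mul_div_assoc, ← integral_div]
  refine congrArg _ (integral_congr_ae (ae_of_all _ fun x => ?_))
  have a1 := hP2 x (-R)
  rw [neg_smul, ← sub_eq_add_neg] at a1
  simp only [hP2, a1]
  ring

end Vale.Agent.P363
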