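import Vale.Agent.P363.H.CryB
import Vale.Agent.P363.H.CryC

/-!
# P363 H/CryD  (TASK)

`cry_lim_rad`: `cry_lim` with `P = 1`; `1/r * cryD = g''/r³ z² + g'/r² - g'/r⁴ z²`, `cry_avg2`, `integral_radial`: the limit is `-(1/2) 4π ∫ (r g''/3 + 2 g'/3) = (2π/3) g 0`, antiderivative `r g' + g`
(`integral_Ioi_of_hasDerivAt_of_tendsto`; integrability from `cryG_le`, `integrable_radial`, `exp_neg_integrableOn_Ioi`, `Real.GammaIntegral_convergent` or `integrableOn_rpow_mul_exp_neg_mul_rpow`).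
`cry_lim_p`: `P = x_k²`, `g = e^(-r)`; `cry_avg2`, `cry_avg22`: the limit is `-(1/2) 4π ∫ (r³ g''/15 + 4 r² g'/15) = -(2π/15) ∫ (r³ - 4r²) e^(-r) = 4π/15`, antiderivative `-(r³ - r² - 2r - 2) e^(-r)`.
-/

open MeasureTheory Filter Topology Set
open scoped ContDiff

set_option linter.unusedSectionVars false

noncomputable section

namespace Vale.Agent.P363

/-- A quadratic polynomial times an exponential. -/
def cryG (a α β γ r : ℝ) : ℝ := (α + β * r + γ * r ^ 2) * Real.exp (-a * r)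

theorem cryG_deriv (a α β γ r : ℝ) :
    HasDerivAt (cryG a α β γ) (cryG a (β - a * α) (2 * γ - a * β) (-a * γ) r) r := by
  have h1 : HasDerivAt (fun r : ℝ => α + β * r + γ * r ^ 2) (β * 1 + γ * (2 * r)) r := by
    refine (((hasDerivAt_id r).const_mul β).const_add α).add (HasDerivAt.const_mul γ ?_)
    simpa using hasDerivAt_pow 2 r
  refine (h1.mul ((hasDerivAt_id r).const_mul (-a)).exp).congr_deriv ?_
  simp only [cryG, id]
  ring

theorem cryG_le {a : ℝ} (ha : 1 ≤ a) (α β γ : ℝ) :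
    ∃ C : ℝ, 0 < C ∧ ∀ r, 0 ≤ r → |cryG a α β γ r| ≤ C * Real.exp (-r / 2) := by
  refine ⟨|α| + 2 * |β| + 8 * |γ| + 1, by positivity, fun r hr => ?_⟩
  have h1 := Real.quadratic_le_exp_of_nonneg (x := r / 2) (by positivity)
  have h2 : Real.exp (-a * r) ≤ Real.exp (-r / 2) / Real.exp (r / 2) := by
    rw [← Real.exp_sub]
    exact Real.exp_le_exp.2 (by nlinarith)
  have hE := Real.exp_pos (r / 2)
  have h3 : |α + β * r + γ * r ^ 2| ≤ (|α| + 2 * |β| + 8 * |γ| + 1) * Real.exp (r / 2) := by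
    have h4 : |α + β * r + γ * r ^ 2| ≤ |α| + |β| * r + |γ| * r ^ 2 := by
      refine (abs_add_three _ _ _).trans (le_of_eq ?_)
      rw [abs_mul, abs_mul, abs_of_nonneg hr, abs_of_nonneg (sq_nonneg r)]
    have h5 : |α| * 1 ≤ |α| * Real.exp (r / 2) :=
      mul_le_mul_of_nonneg_left (by nlinarith) (abs_nonneg _)
    have h6 : |β| * r ≤ |β| * (2 * Real.exp (r / 2)) :=
      mul_le_mul_of_nonneg_left (by nlinarith) (abs_nonneg _)
    have h7 : |γ| * r ^ 2 ≤ |γ| * (8 * Real.exp (r / 2)) :=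
      mul_le_mul_of_nonneg_left (by nlinarith) (abs_nonneg _)
    nlinarith
  rw [cryG, abs_mul, abs_of_pos (Real.exp_pos _)]
  refine (mul_le_mul h3 h2 (Real.exp_pos _).le (by positivity)).trans (le_of_eq ?_)
  field_simp

theorem cryD_cont (a α β γ : ℝ) : Continuous (cryG a α β γ) := by
  unfold cryG
  fun_prop

theorem cryD_int {f : ℝ → ℝ} (hf : Continuous f) {C : ℝ}
    (h : ∀ r, 0 ≤ r → |f r| ≤ C * Real.exp (-r / 2)) (m : ℕ) :
    IntegrableOn (fun r => r ^ m * f r) (Ioi 0) ∧ Tendsto (fun r => r ^ m * f r) atTop (𝓝 0) := by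
  have h1 : f =O[atTop] fun r => Real.exp (-r / 2) :=
    Asymptotics.IsBigO.of_bound C ((eventually_ge_atTop 0).mono fun r hr => by
      rw [Real.norm_eq_abs, Real.norm_of_nonneg (Real.exp_pos _).le]
      exact h r hr)
  have h2 : (fun r : ℝ => r ^ m * f r) =O[atTop] fun r => Real.exp (-(1 / 4) * r) := by
    refine ((isLittleO_pow_exp_pos_mul_atTop m (b := 1 / 4) (by norm_num)).isBigO.mul h1).congr_right
      fun r => ?_
    rw [← Real.exp_add]
    congr 1
    ring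
  refine ⟨integrable_of_isBigO_exp_neg (by norm_num)
    ((continuous_pow m).mul hf).continuousOn h2, h2.trans_tendsto ?_⟩
  exact Real.tendsto_exp_atBot.comp (tendsto_id.const_mul_atTop_of_neg (by norm_num))

theorem cryD_rad {H f : ℝ → ℝ} (hf : IntegrableOn f (Ioi 0)) (h : ∀ r, 0 < r → r ^ 2 * H r = f r) :
    Integrable (fun x : E3 => H ‖x‖) ∧ ∫ x : E3, H ‖x‖ = 4 * Real.pi * ∫ r in Ioi (0 : ℝ), f r :=
  ⟨integrable_radial (hf.congr_fun (fun r hr => (h r hr).symm) measurableSet_Ioi), by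
    rw [integral_radial, setIntegral_congr_fun measurableSet_Ioi h]⟩

theorem cryD_fac (m : ℕ) : ∫ r in Ioi (0 : ℝ), r ^ m * Real.exp (-r) = m.factorial := by
  rw [← Real.Gamma_nat_eq_factorial, Real.Gamma_eq_integral (by positivity)]
  refine setIntegral_congr_fun measurableSet_Ioi fun r _ => ?_
  simp only [add_sub_cancel_right, Real.rpow_natCast, mul_comm]

theorem cry_lim_rad {a : ℝ} (ha : 1 ≤ a) (α β γ : ℝ) :
    Tendsto (fun R : ℝ => (∫ x, dV R x * cryG a α β γ ‖x‖) / R ^ 2) (𝓝[>] 0)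
      (𝓝 (2 * Real.pi / 3 * α)) := by
  set g := cryG a α β γ with hg
  set g' := cryG a (β - a * α) (2 * γ - a * β) (-a * γ) with hg'
  set g'' := cryG a (2 * γ - a * β - a * (β - a * α)) (2 * (-a * γ) - a * (2 * γ - a * β))
    (-a * (-a * γ)) with hg''
  have d1 : ∀ r, HasDerivAt g (g' r) r := fun r => cryG_deriv _ _ _ _ r
  have d2 : ∀ r, HasDerivAt g' (g'' r) r := fun r => cryG_deriv _ _ _ _ r
  have c0 : Continuous g := cryD_cont _ _ _ _
  have c1 : Continuous g' := cryD_cont _ _ _ _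
  have c2 : Continuous g'' := cryD_cont _ _ _ _
  obtain ⟨C0, p0, b0⟩ : ∃ C : ℝ, 0 < C ∧ ∀ r, 0 ≤ r → |g r| ≤ C * Real.exp (-r / 2) :=
    cryG_le ha _ _ _
  obtain ⟨C1, p1, b1⟩ : ∃ C : ℝ, 0 < C ∧ ∀ r, 0 ≤ r → |g' r| ≤ C * Real.exp (-r / 2) :=
    cryG_le ha _ _ _
  obtain ⟨C2, p2, b2⟩ : ∃ C : ℝ, 0 < C ∧ ∀ r, 0 ≤ r → |g'' r| ≤ C * Real.exp (-r / 2) :=
    cryG_le ha _ _ _
  have g0 : g 0 = α := by simp [hg, cryG]
  clear_value g g' g''
  have hl := cry_lim (P := fun _ => 1) continuous_const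
    (fun x => by rw [abs_one]; exact le_add_of_nonneg_right (sq_nonneg _)) (fun _ _ => rfl) d1 d2 c2
    (C := C0 + C1 + C2) fun r hr => by
      have := Real.exp_pos (-r / 2)
      exact ⟨(b0 r hr).trans (by nlinarith), (b1 r hr).trans (by nlinarith),
        (b2 r hr).trans (by nlinarith)⟩
  simp only [one_mul] at hl
  have i0 := cryD_int c0 b0 0
  have i1 := cryD_int c1 b1 0
  have i1' := cryD_int c1 b1 1
  have i2 := cryD_int c2 b2 1
  simp only [pow_zero, one_mul, pow_one] at i0 i1 i1' i2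
  have e1 : ∫ r in Ioi (0 : ℝ), g' r = -α := by
    rw [integral_Ioi_of_hasDerivAt_of_tendsto c0.continuousWithinAt (fun r _ => d1 r) i1.1 i0.2, g0,
      zero_sub]
  have e2 : ∫ r in Ioi (0 : ℝ), (r * g'' r - g' r) = 2 * α := by
    have d3 : ∀ r, HasDerivAt (fun r => r * g' r - 2 * g r) (r * g'' r - g' r) r := fun r => by
      refine (((hasDerivAt_id r).mul (d2 r)).sub ((d1 r).const_mul 2)).congr_deriv ?_
      simp only [id]
      ring
    rw [integral_Ioi_of_hasDerivAt_of_tendsto (d3 0).continuousAt.continuousWithinAt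
      (fun r _ => d3 r) (i2.1.sub i1.1) (i1'.2.sub (i0.2.const_mul 2)), g0]
    ring
  have r1 := cryD_rad (H := fun r => r ^ 2 * (g'' r / r ^ 3 - g' r / r ^ 4)) (i2.1.sub i1.1)
    fun r hr => by
      simp only [Pi.sub_apply]
      field_simp
  have r2 := cryD_rad (H := fun r => g' r / r ^ 2) i1.1 fun r hr => by field_simp
  have a1 := cry_avg2 (H := fun r => g'' r / r ^ 3 - g' r / r ^ 4)
    ((c2.measurable.div (measurable_id.pow_const 3)).sub
      (c1.measurable.div (measurable_id.pow_const 4))) r1.1 2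
  have e3 : ∀ x : E3, 1 / ‖x‖ * cryD g' g'' x =
      x 2 ^ 2 * (g'' ‖x‖ / ‖x‖ ^ 3 - g' ‖x‖ / ‖x‖ ^ 4) + g' ‖x‖ / ‖x‖ ^ 2 := by
    intro x
    rw [cryD]
    by_cases hx : ‖x‖ = 0
    · simp [hx]
    · field_simp
      ring
  simp only [e3] at hl
  rw [integral_add a1.1 r2.1, a1.2, r1.2, r2.2, e1] at hl
  simp only [Pi.sub_apply] at hl
  rw [e2] at hl
  exact hl.trans (le_of_eq (congrArg _ (by ring)))

theorem cry_lim_p {k : Fin 3} (hk : k ≠ 2) :
    Tendsto (fun R : ℝ => (∫ x, dV R x * (x k ^ 2 * Real.exp (-‖x‖))) / R ^ 2) (𝓝[>] 0)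
      (𝓝 (4 * Real.pi / 15)) := by
  have d0 : ∀ r : ℝ, HasDerivAt (fun r => Real.exp (-r)) (-Real.exp (-r)) r := fun r => by
    simpa using (hasDerivAt_neg r).exp
  have d1 : ∀ r : ℝ, HasDerivAt (fun r => -Real.exp (-r)) (Real.exp (-r)) r := fun r => by
    simpa using (d0 r).fun_neg
  have c0 : Continuous fun r : ℝ => Real.exp (-r) := by fun_prop
  have b0 : ∀ r : ℝ, 0 ≤ r → |Real.exp (-r)| ≤ 1 * Real.exp (-r / 2) := fun r hr => by
    rw [one_mul, abs_of_pos (Real.exp_pos _)]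
    exact Real.exp_le_exp.2 (by linarith)
  have hl := cry_lim (P := fun x => x k ^ 2) ((contDiff_coord k).continuous.pow 2)
    (fun x => by
      have := pow_le_pow_left₀ (abs_nonneg _) (abs_coord_le x k) 2
      rw [abs_pow]
      linarith)
    (fun x t => by simp [e3_apply, hk]) d0 d1 c0
    (C := 1) fun r hr => ⟨b0 r hr, by rw [abs_neg]; exact b0 r hr, b0 r hr⟩
  have i2 := (cryD_int c0 b0 2).1
  have i3 := (cryD_int c0 b0 3).1
  have r1 := cryD_rad (H := fun r => r ^ 4 * (Real.exp (-r) / r ^ 3 + Real.exp (-r) / r ^ 4))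
    (f := fun r => r ^ 3 * Real.exp (-r) + r ^ 2 * Real.exp (-r)) (i3.add i2)
    fun r hr => by field_simp
  have r2 := cryD_rad (H := fun r => r ^ 2 * (Real.exp (-r) / r ^ 2)) i2 fun r hr => by field_simp
  have a1 := cry_avg22 (H := fun r => Real.exp (-r) / r ^ 3 + Real.exp (-r) / r ^ 4)
    ((c0.measurable.div (measurable_id.pow_const 3)).add
      (c0.measurable.div (measurable_id.pow_const 4))) r1.1 hk
  have a2 := cry_avg2 (H := fun r => Real.exp (-r) / r ^ 2)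
    (c0.measurable.div (measurable_id.pow_const 2)) r2.1 k
  have e3 : ∀ x : E3, 1 / ‖x‖ *
      (x k ^ 2 * cryD (fun r => -Real.exp (-r)) (fun r => Real.exp (-r)) x) =
      x k ^ 2 * x 2 ^ 2 * (Real.exp (-‖x‖) / ‖x‖ ^ 3 + Real.exp (-‖x‖) / ‖x‖ ^ 4) -
        x k ^ 2 * (Real.exp (-‖x‖) / ‖x‖ ^ 2) := by
    intro x
    rw [cryD]
    by_cases hx : ‖x‖ = 0
    · simp [hx]
    · field_simp
      ring
  simp only [e3] at hl
  rw [integral_sub a1.1 a2.1, a1.2, a2.2, r1.2, r2.2, integral_add i3 i2, cryD_fac, cryD_fac] at hl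
  refine hl.trans (le_of_eq (congrArg _ ?_))
  norm_num [Nat.factorial]
  ring

end Vale.Agent.P363
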