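import Vale.Agent.P363.H.Orb

/-!
# P363 H/Defs

Definitions of block H (no task).
-/

open MeasureTheory Filter Topology Set
open scoped ContDiff

set_option linter.unusedSectionVars false

noncomputable section

namespace Vale.Agent.P363

/-- The regularised norm. -/
def hrho (ε : ℝ) (x : E3) : ℝ := √(‖x‖ ^ 2 + ε ^ 2)

/-- The regularised inverse. -/
def hu (ε t : ℝ) : ℝ := t / (t ^ 2 + ε ^ 2)

/-- `η` vanishes on the zone `|d| ≤ δ`. -/
def HVan (d : E3 → ℝ) (δ : ℝ) (η : S e3) : Prop := ∀ᵐ x, |d x| ≤ δ → η.f x = 0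

/-- The Dirichlet inequality for functions vanishing near the set `d = 0`. -/
def HDir (d : E3 → ℝ) (E : ℝ) : Prop :=
  ∀ δ : ℝ, 0 < δ → ∀ η : S e3, HVan d δ η → E * ip η η ≤ qf V0 η η

/-- `w` tends to zero uniformly as `d → 0`. -/
def HSmall (d : E3 → ℝ) (w : S e3) : Prop :=
  ∀ ε : ℝ, 0 < ε → ∃ δ : ℝ, 0 < δ ∧ ∀ᵐ x, |d x| ≤ δ → |w.f x| ≤ ε

/-- Weak eigenfunctions of the hydrogen operator. -/
def HEig (μ : ℝ) (a : S e3) : Prop := ∀ b, qf V0 a b = μ * ip a b

/-- The quadrupole kernel. -/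
def qd (k : Fin 3) (x : E3) : ℝ := (3 * x k ^ 2 - ‖x‖ ^ 2) / (2 * ‖x‖ ^ 5)

/-- The sum of the three Hardy weights. -/
def hK (R : ℝ) (x : E3) : ℝ :=
  1 / ‖x‖ ^ 2 + 1 / ‖x - R • e3 2‖ ^ 2 + 1 / ‖x + R • e3 2‖ ^ 2

/-- The quadrupole moments of the `p` densities. -/
def hI (k : Fin 3) : ℝ := ∫ x : E3, qd 2 x * (x k ^ 2 * Real.exp (-‖x‖))

/-- The functions that are small near `d = 0`. -/
def smallSub (d : E3 → ℝ) : Submodule ℝ (S e3) where
  carrier := {w | HSmall d w}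
  zero_mem' := fun ε hε => ⟨1, one_pos, Eventually.of_forall fun x _ => by simpa using hε.le⟩
  add_mem' := by
    intro a b ha hb ε hε
    obtain ⟨δ, hδ, h1⟩ := ha (ε / 2) (by linarith)
    obtain ⟨δ', hδ', h2⟩ := hb (ε / 2) (by linarith)
    refine ⟨min δ δ', lt_min hδ hδ', ?_⟩
    filter_upwards [h1, h2] with x h1 h2 hx
    have a1 := h1 (hx.trans (min_le_left _ _))
    have a2 := h2 (hx.trans (min_le_right _ _))
    rw [S.add_f]
    linarith [abs_add_le (a.f x) (b.f x)]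
  smul_mem' := by
    intro c a ha ε hε
    have hc : 0 < |c| + 1 := by positivity
    obtain ⟨δ, hδ, h1⟩ := ha (ε / (|c| + 1)) (by positivity)
    refine ⟨δ, hδ, ?_⟩
    filter_upwards [h1] with x h1 hx
    have a1 := h1 hx
    rw [S.smul_f, abs_mul]
    calc |c| * |a.f x| ≤ (|c| + 1) * (ε / (|c| + 1)) :=
          mul_le_mul (by linarith) a1 (abs_nonneg _) hc.le
      _ = ε := by field_simp

theorem mem_smallSub {d : E3 → ℝ} {w : S e3} : w ∈ smallSub d ↔ HSmall d w := Iff.rfl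

/-- The orthogonal complement of the five orbitals. -/
def orthSub : Submodule ℝ (S e3) where
  carrier := {a | ∀ j, ip (orb j) a = 0}
  zero_mem' := fun j => bil_ip.zero_right _
  add_mem' := by
    intro a b ha hb j
    rw [bil_ip.add_right, ha j, hb j, add_zero]
  smul_mem' := by
    intro c a ha j
    rw [bil_ip.smul_right, ha j, mul_zero]

theorem mem_orthSub {a : S e3} : a ∈ orthSub ↔ ∀ j, ip (orb j) a = 0 := Iff.rfl

end Vale.Agent.P363
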