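import Vale.Agent.P363.H.Defs

/-!
# P363 H/VfLim  (TASK)

`vf` gives `0 ≤ 2 kin η η + ∫ G m * η²`.  Dominated convergence (`tendsto_integral_of_dominated_convergence`, bound `|C| (1 + 1/‖x‖) η²`, integrable by `S.int_sq` and `coul_le η 0`;
`G m` is continuous because the fields are `C¹`; where `η x = 0` both sides vanish) gives `0 ≤ 2 kin η η + ∫ (-2E - 2/‖x‖) η² = 2 (qf V0 η η - E ip η η)`.
-/

open MeasureTheory Filter Topology Set
open scoped ContDiff

set_option linter.unusedSectionVars false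

noncomputable section

namespace Vale.Agent.P363

theorem vf_lim (η : S e3) {X : ℕ → Fin 3 → E3 → ℝ} (hX : ∀ m k, Mul1 (X m k)) {E C : ℝ}
    (hb : ∀ m, ∀ᵐ x, η.f x ≠ 0 →
      |∑ k, (fderiv ℝ (X m k) x (e3 k) + X m k x ^ 2)| ≤ C * (1 + 1 / ‖x‖))
    (hl : ∀ᵐ x, η.f x ≠ 0 →
      Tendsto (fun m => ∑ k, (fderiv ℝ (X m k) x (e3 k) + X m k x ^ 2)) atTop
        (𝓝 (-2 * E - 2 / ‖x‖))) :
    E * ip η η ≤ qf V0 η η := by
  have i1 : Integrable fun x : E3 => 1 / ‖x‖ * η.f x ^ 2 := by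
    simpa only [sub_zero] using (coul_le η 0 one_pos).1
  have i2 := η.int_sq
  have h0 : ∀ m, 0 ≤ 2 * kin η η +
      ∫ x, (∑ k, (fderiv ℝ (X m k) x (e3 k) + X m k x ^ 2)) * η.f x ^ 2 := fun m => by
    rw [← vf η (hX m)]
    exact integral_nonneg fun x => Finset.sum_nonneg fun _ _ => sq_nonneg _
  have hc : ∀ m, Continuous fun x => ∑ k, (fderiv ℝ (X m k) x (e3 k) + X m k x ^ 2) := fun m =>
    continuous_finsetSum _ fun k _ =>
      (((hX m k).1.continuous_fderiv one_ne_zero).clm_apply continuous_const).add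
        ((hX m k).1.continuous.pow 2)
  have ht : Tendsto (fun m => ∫ x, (∑ k, (fderiv ℝ (X m k) x (e3 k) + X m k x ^ 2)) * η.f x ^ 2)
      atTop (𝓝 (∫ x, (-2 * E - 2 / ‖x‖) * η.f x ^ 2)) := by
    refine tendsto_integral_of_dominated_convergence
      (fun x => C * (η.f x ^ 2 + 1 / ‖x‖ * η.f x ^ 2))
      (fun m => (hc m).aestronglyMeasurable.mul i2.1) ((i2.add i1).const_mul C) (fun m => ?_) ?_
    · filter_upwards [hb m] with x hx
      by_cases h : η.f x = 0
      · simp [h]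
      · rw [norm_mul, Real.norm_eq_abs, Real.norm_eq_abs, abs_of_nonneg (sq_nonneg (η.f x))]
        have := mul_le_mul_of_nonneg_right (hx h) (sq_nonneg (η.f x))
        linarith
    · filter_upwards [hl] with x hx
      by_cases h : η.f x = 0
      · simp [h]
      · exact (hx h).mul_const _
  have h1 := ge_of_tendsto' (ht.const_add (2 * kin η η)) h0
  have h2 : ∫ x, (-2 * E - 2 / ‖x‖) * η.f x ^ 2 =
      -2 * E * (∫ x, η.f x ^ 2) - 2 * ∫ x : E3, 1 / ‖x‖ * η.f x ^ 2 := by
    rw [← integral_const_mul, ← integral_const_mul,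
      ← integral_sub (i2.const_mul _) (i1.const_mul _)]
    congr 1
    funext x
    ring
  have h3 : pot V0 η η = -∫ x : E3, 1 / ‖x‖ * η.f x ^ 2 := by
    rw [← integral_neg, pot]
    congr 1
    funext x
    rw [V0]
    ring
  rw [qf, h3, ip_self]
  linarith

end Vale.Agent.P363
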