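import Vale.Agent.P363.H.Rho
import Vale.Agent.P363.H.VfLim

/-!
# P363 H/DirP  (TASK)

`vf_lim` with `ε = 1/(m+1)`, `ρ = hrho ε`, `X m j x = -(1/2) * (x j / ρ x) + (if j = k then hu ε (x k) else 0)` (`mul1_rad` with the constant `h = -1/2`, `h' = 0`; `mul1_coord`; `Mul1.add'`).
With `t = x k`, `r = ‖x‖`: `G = -(1/2) (3/ρ - r²/ρ³) + r²/(4ρ²) + ε²/(t²+ε²)² - t²/((t²+ε²) ρ)` (`dirP_formula`, from `div_rad` and `fderiv_add`).
Where `η x ≠ 0` we have `δ < |t|` and `x ≠ 0`, so `|G| ≤ 2/r + 1/4 + 1/δ⁴ + 1/r`, and `G → 1/4 - 2/r` (continuity in `ε` at `0`: `continuous_hrho`, `hrho_zero`).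
-/

open MeasureTheory Filter Topology Set
open scoped ContDiff

set_option linter.unusedSectionVars false

noncomputable section

namespace Vale.Agent.P363

theorem dirP_formula {ε : ℝ} (hε : 0 < ε) (k : Fin 3) (x : E3) :
    ∑ j, (fderiv ℝ (fun y : E3 => -(1 / 2) * (y j / hrho ε y) + if j = k then hu ε (y k) else 0) x (e3 j) +
        (-(1 / 2) * (x j / hrho ε x) + if j = k then hu ε (x k) else 0) ^ 2) =
      -(1 / 2) * (3 / hrho ε x - ‖x‖ ^ 2 / hrho ε x ^ 3) + 1 / 4 * (‖x‖ ^ 2 / hrho ε x ^ 2) +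
        ε ^ 2 / (x k ^ 2 + ε ^ 2) ^ 2 - x k ^ 2 / ((x k ^ 2 + ε ^ 2) * hrho ε x) := by
  have hb : ∀ t : ℝ, |(fun _ : ℝ => -(1 / 2 : ℝ)) t| ≤ 1 ∧ |(fun _ : ℝ => (0 : ℝ)) t| ≤ 1 :=
    fun _ => ⟨by norm_num [abs_le], by simp⟩
  have hd : ∀ t : ℝ, HasDerivAt (fun _ : ℝ => -(1 / 2 : ℝ)) ((fun _ : ℝ => (0 : ℝ)) t) t :=
    fun t => hasDerivAt_const t _
  have h1 := div_rad hε hd continuous_const hb x
  have d1 : ∀ j, DifferentiableAt ℝ (fun y : E3 => -(1 / 2 : ℝ) * (y j / hrho ε y)) x := fun j =>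
    (mul1_rad hε hd continuous_const hb j).1.1.differentiable (by simp) x
  have d2 : DifferentiableAt ℝ (fun y : E3 => hu ε (y k)) x :=
    (mul1_coord hε k).1.1.differentiable (by simp) x
  have e : ∀ j, fderiv ℝ (fun y : E3 => -(1 / 2) * (y j / hrho ε y) + if j = k then hu ε (y k) else 0) x
        (e3 j) + (-(1 / 2) * (x j / hrho ε x) + if j = k then hu ε (x k) else 0) ^ 2 =
      (fderiv ℝ (fun y : E3 => -(1 / 2 : ℝ) * (y j / hrho ε y)) x (e3 j) +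
        (-(1 / 2) * (x j / hrho ε x)) ^ 2) +
      if j = k then (ε ^ 2 - x k ^ 2) / (x k ^ 2 + ε ^ 2) ^ 2 - x k / hrho ε x * hu ε (x k) +
        hu ε (x k) ^ 2 else 0 := by
    intro j
    by_cases h : j = k
    · subst h
      simp only [if_true]
      rw [fderiv_fun_add (d1 j) d2, add_apply, (mul1_coord hε j).2 x]
      ring
    · simp only [if_neg h, add_zero]
  rw [Finset.sum_congr rfl fun j _ => e j, Finset.sum_add_distrib, Finset.sum_ite_eq',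
    if_pos (Finset.mem_univ k), h1]
  have p1 := hrho_pos hε x
  have p2 : 0 < x k ^ 2 + ε ^ 2 := by positivity
  unfold hu
  field_simp
  ring

theorem dirP_bound {ε δ r ρ t : ℝ} (hε : 0 < ε) (hε1 : ε ≤ 1) (hδ : 0 < δ) (ht : δ ≤ |t|) (hr : 0 < r)
    (hρ : r ≤ ρ) : |-(1 / 2) * (3 / ρ - r ^ 2 / ρ ^ 3) + 1 / 4 * (r ^ 2 / ρ ^ 2) +
      ε ^ 2 / (t ^ 2 + ε ^ 2) ^ 2 - t ^ 2 / ((t ^ 2 + ε ^ 2) * ρ)| ≤ (3 + 1 / δ ^ 4) * (1 + 1 / r) := by
  have h0 : 0 < ρ := hr.trans_le hρ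
  have a0 : 1 / ρ ≤ 1 / r := one_div_le_one_div_of_le hr hρ
  have a1 : r ^ 2 / ρ ^ 2 ≤ 1 := (div_le_one (by positivity)).2 (pow_le_pow_left₀ hr.le hρ 2)
  have a1' : 0 ≤ r ^ 2 / ρ ^ 2 := by positivity
  have a2 : r ^ 2 / ρ ^ 3 ≤ 1 / ρ := by
    have : r ^ 2 / ρ ^ 3 = r ^ 2 / ρ ^ 2 * (1 / ρ) := by field_simp
    rw [this]
    exact mul_le_of_le_one_left (by positivity) a1
  have a2' : 0 ≤ r ^ 2 / ρ ^ 3 := by positivity
  have b0 : δ ^ 2 ≤ t ^ 2 := by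
    rw [← sq_abs t]
    exact pow_le_pow_left₀ hδ.le ht 2
  have a3 : ε ^ 2 / (t ^ 2 + ε ^ 2) ^ 2 ≤ 1 / δ ^ 4 := by
    refine div_le_div₀ zero_le_one (pow_le_one₀ hε.le hε1) (by positivity) ?_
    have : δ ^ 4 = (δ ^ 2) ^ 2 := by ring
    rw [this]
    exact pow_le_pow_left₀ (sq_nonneg _) (by nlinarith [sq_nonneg ε]) 2
  have a3' : 0 ≤ ε ^ 2 / (t ^ 2 + ε ^ 2) ^ 2 := by positivity
  have a4 : t ^ 2 / ((t ^ 2 + ε ^ 2) * ρ) ≤ 1 / ρ := by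
    have : t ^ 2 / ((t ^ 2 + ε ^ 2) * ρ) = t ^ 2 / (t ^ 2 + ε ^ 2) * (1 / ρ) := by field_simp
    rw [this]
    exact mul_le_of_le_one_left (by positivity)
      ((div_le_one (by positivity)).2 (by nlinarith [sq_nonneg ε]))
  have a4' : 0 ≤ t ^ 2 / ((t ^ 2 + ε ^ 2) * ρ) := by positivity
  have a5 : 3 / ρ = 3 * (1 / ρ) := by ring
  have a6 : 0 < 1 / ρ := by positivity
  have a7 : 0 ≤ 1 / δ ^ 4 * (1 / r) := by positivity
  have a8 : 0 ≤ 1 / δ ^ 4 := by positivity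
  rw [abs_le]
  constructor <;> nlinarith

theorem dir_plane (k : Fin 3) : HDir (fun x => x k) (-(1 / 8)) := by
  intro δ hδ η hη
  have hb : ∀ t : ℝ, |(fun _ : ℝ => -(1 / 2 : ℝ)) t| ≤ 1 ∧ |(fun _ : ℝ => (0 : ℝ)) t| ≤ 1 :=
    fun _ => ⟨by norm_num [abs_le], by simp⟩
  have hd : ∀ t : ℝ, HasDerivAt (fun _ : ℝ => -(1 / 2 : ℝ)) ((fun _ : ℝ => (0 : ℝ)) t) t :=
    fun t => hasDerivAt_const t _
  have hp : ∀ m : ℕ, (0 : ℝ) < 1 / ((m : ℝ) + 1) := fun m => Nat.one_div_pos_of_nat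
  have hx : ∀ᵐ x : E3, η.f x ≠ 0 → δ < |x k| ∧ 0 < ‖x‖ := by
    filter_upwards [hη] with x h1 h2
    have h3 : δ < |x k| := not_le.1 fun h => h2 (h1 h)
    exact ⟨h3, (hδ.trans h3).trans_le (abs_coord_le x k)⟩
  refine vf_lim η (C := 3 + 1 / δ ^ 4) (X := fun m j y => -(1 / 2) * (y j / hrho (1 / ((m : ℝ) + 1)) y) +
    if j = k then hu (1 / ((m : ℝ) + 1)) (y k) else 0) (fun m j => ?_) (fun m => ?_) ?_
  · have h1 := (mul1_rad (hp m) hd continuous_const hb j).1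
    by_cases h : j = k
    · simp only [if_pos h]
      exact h1.add' (mul1_coord (hp m) k).1
    · simp only [if_neg h, add_zero]
      exact h1
  · filter_upwards [hx] with x h1 h2
    rw [dirP_formula (hp m) k x]
    refine dirP_bound (hp m) ?_ hδ (h1 h2).1.le (h1 h2).2 (norm_le_hrho _ x)
    rw [div_le_one (by positivity)]
    linarith [Nat.cast_nonneg (α := ℝ) m]
  · filter_upwards [hx] with x h1 h2
    obtain ⟨h3, h4⟩ := h1 h2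
    have h5 : x k ≠ 0 := abs_pos.1 (hδ.trans h3)
    simp only [dirP_formula (hp _) k x]
    have l0 : Tendsto (fun m : ℕ => 1 / ((m : ℝ) + 1)) atTop (𝓝 0) :=
      tendsto_one_div_add_atTop_nhds_zero_nat
    have l1 : Tendsto (fun m : ℕ => hrho (1 / ((m : ℝ) + 1)) x) atTop (𝓝 ‖x‖) := by
      have := ((continuous_hrho x).tendsto 0).comp l0
      rwa [hrho_zero] at this
    have l2 : Tendsto (fun m : ℕ => x k ^ 2 + (1 / ((m : ℝ) + 1)) ^ 2) atTop (𝓝 (x k ^ 2 + 0 ^ 2)) :=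
      (l0.pow 2).const_add _
    have n1 : x k ^ 2 + (0 : ℝ) ^ 2 ≠ 0 := by positivity
    have l3 := (((((tendsto_const_nhds (x := (3 : ℝ))).div l1 h4.ne').sub
      ((tendsto_const_nhds (x := ‖x‖ ^ 2)).div (l1.pow 3) (by positivity))).const_mul (-(1 / 2))).add
      (((tendsto_const_nhds (x := ‖x‖ ^ 2)).div (l1.pow 2) (by positivity)).const_mul (1 / 4))).add
      ((l0.pow 2).div (l2.pow 2) (by positivity))
    have l4 := l3.sub ((tendsto_const_nhds (x := x k ^ 2)).div (l2.mul l1) (by positivity))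
    have e : -(1 / 2) * (3 / ‖x‖ - ‖x‖ ^ 2 / ‖x‖ ^ 3) + 1 / 4 * (‖x‖ ^ 2 / ‖x‖ ^ 2) +
        (0 : ℝ) ^ 2 / (x k ^ 2 + 0 ^ 2) ^ 2 - x k ^ 2 / ((x k ^ 2 + 0 ^ 2) * ‖x‖) =
        -2 * -(1 / 8) - 2 / ‖x‖ := by
      field_simp
      ring
    rw [e] at l4
    exact l4

end Vale.Agent.P363
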