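import Vale.Agent.P363.H.Rho
import Vale.Agent.P363.H.VfLim

/-!
# P363 H/DirS  (TASK)

`vf_lim` with `ε = δ / 2 / (m+1)`, `ρ = hrho ε`, `X m j x = h (ρ x) * (x j / ρ x)`, `h t = -(1/2) + hu ε (t - 2)`, `h' t = (ε² - (t-2)²)/((t-2)² + ε²)²` (`mul1_rad`, `div_rad`, `hasDerivAt_hu`, `abs_hu_le`).
Where `η x ≠ 0` we have `δ < |r - 2|` (and `x ≠ 0` a.e., `ae_norm_ne 0`), `r ≤ ρ ≤ r + δ/2`, so `δ/2 ≤ |ρ - 2|` and `abs_hu_le'` bounds `h`, `h'`;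
`|3/ρ - r²/ρ³| ≤ 4/r`, `r²/ρ² ≤ 1`.  The limit is `-1/(r-2)² + (-1/2 + 1/(r-2)) (2/r) + (-1/2 + 1/(r-2))² = 1/4 - 2/r` (continuity in `ε` at `0`, `field_simp; ring`).
-/

open MeasureTheory Filter Topology Set
open scoped ContDiff

set_option linter.unusedSectionVars false

noncomputable section

namespace Vale.Agent.P363

/-- The value of the regularised expression. -/
def dirSG (ε ρ r : ℝ) : ℝ :=
  (ε ^ 2 - (ρ - 2) ^ 2) / ((ρ - 2) ^ 2 + ε ^ 2) ^ 2 * (r ^ 2 / ρ ^ 2) +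
    (-(1 / 2) + hu ε (ρ - 2)) * (3 / ρ - r ^ 2 / ρ ^ 3) +
    (-(1 / 2) + hu ε (ρ - 2)) ^ 2 * (r ^ 2 / ρ ^ 2)

theorem dirS_deriv {ε : ℝ} (hε : 0 < ε) (t : ℝ) :
    HasDerivAt (fun t => -(1 / 2) + hu ε (t - 2))
      ((ε ^ 2 - (t - 2) ^ 2) / ((t - 2) ^ 2 + ε ^ 2) ^ 2) t := by
  have h := ((hasDerivAt_hu hε (t - 2)).comp t ((hasDerivAt_id t).sub_const 2)).const_add (-(1 / 2))
  rw [mul_one] at h
  exact h

theorem dirS_cont {ε : ℝ} (hε : 0 < ε) :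
    Continuous fun t : ℝ => (ε ^ 2 - (t - 2) ^ 2) / ((t - 2) ^ 2 + ε ^ 2) ^ 2 := by
  refine Continuous.div (by fun_prop) (by fun_prop) fun t => ?_
  positivity

theorem dirS_bd {ε : ℝ} (hε : 0 < ε) (t : ℝ) :
    |-(1 / 2) + hu ε (t - 2)| ≤ 1 / 2 + 1 / ε + 1 / ε ^ 2 ∧
      |(ε ^ 2 - (t - 2) ^ 2) / ((t - 2) ^ 2 + ε ^ 2) ^ 2| ≤ 1 / 2 + 1 / ε + 1 / ε ^ 2 := by
  obtain ⟨a, b⟩ := abs_hu_le hε (t - 2)
  have c := abs_add_le (-(1 / 2) : ℝ) (hu ε (t - 2))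
  rw [abs_neg, abs_of_pos (by norm_num : (0 : ℝ) < 1 / 2)] at c
  have : 0 < 1 / ε := by positivity
  have : 0 < 1 / ε ^ 2 := by positivity
  constructor <;> linarith

theorem dirS_le {ε ρ r d : ℝ} (hr : 0 < r) (h1 : r ≤ ρ) (hd : 0 < d) (h2 : d ≤ |ρ - 2|) :
    |dirSG ε ρ r| ≤ (1 / d ^ 2 + 4 * (1 / 2 + 1 / d) + (1 / 2 + 1 / d) ^ 2) * (1 + 1 / r) := by
  obtain ⟨a, b⟩ := abs_hu_le' ε hd h2
  have hρ : 0 < ρ := hr.trans_le h1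
  have c : |-(1 / 2) + hu ε (ρ - 2)| ≤ 1 / 2 + 1 / d := by
    have c := abs_add_le (-(1 / 2) : ℝ) (hu ε (ρ - 2))
    rw [abs_neg, abs_of_pos (by norm_num : (0 : ℝ) < 1 / 2)] at c
    linarith
  have q0 : 0 ≤ r ^ 2 / ρ ^ 2 := by positivity
  have q1 : r ^ 2 / ρ ^ 2 ≤ 1 := by
    rw [div_le_one (by positivity)]
    gcongr
  have q2 : 1 / ρ ≤ 1 / r := one_div_le_one_div_of_le hr h1
  have q3 : |3 / ρ - r ^ 2 / ρ ^ 3| ≤ 4 * (1 / r) := by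
    have e : r ^ 2 / ρ ^ 3 = r ^ 2 / ρ ^ 2 * (1 / ρ) := by field_simp
    have e' : 3 / ρ = 3 * (1 / ρ) := by ring
    have p0 : 0 < 1 / ρ := by positivity
    rw [e, e', abs_le]
    constructor <;> nlinarith
  have t1 : |(ε ^ 2 - (ρ - 2) ^ 2) / ((ρ - 2) ^ 2 + ε ^ 2) ^ 2 * (r ^ 2 / ρ ^ 2)| ≤ 1 / d ^ 2 := by
    rw [abs_mul, abs_of_nonneg q0]
    exact (mul_le_of_le_one_right (abs_nonneg _) q1).trans b
  have t2 : |(-(1 / 2) + hu ε (ρ - 2)) * (3 / ρ - r ^ 2 / ρ ^ 3)| ≤ (1 / 2 + 1 / d) * (4 * (1 / r)) := by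
    rw [abs_mul]
    exact mul_le_mul c q3 (abs_nonneg _) (by positivity)
  have t3 : |(-(1 / 2) + hu ε (ρ - 2)) ^ 2 * (r ^ 2 / ρ ^ 2)| ≤ (1 / 2 + 1 / d) ^ 2 := by
    rw [abs_mul, abs_of_nonneg q0, abs_pow]
    exact (mul_le_of_le_one_right (by positivity) q1).trans
      (pow_le_pow_left₀ (abs_nonneg _) c 2)
  refine ((abs_add_three _ _ _).trans (add_le_add (add_le_add t1 t2) t3)).trans ?_
  have p1 : 0 < 1 / r := by positivity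
  have p2 : 0 < 1 / d ^ 2 := by positivity
  have p3 : 0 < 1 / 2 + 1 / d := by positivity
  nlinarith [mul_pos p1 p2, mul_pos p1 (pow_pos p3 2)]

theorem dirS_lim {x : E3} (h0 : ‖x‖ ≠ 0) (h2 : ‖x‖ - 2 ≠ 0) :
    Tendsto (fun ε => dirSG ε (hrho ε x) ‖x‖) (𝓝 0) (𝓝 (-2 * -(1 / 8) - 2 / ‖x‖)) := by
  have e : -2 * -(1 / 8) - 2 / ‖x‖ = dirSG 0 (hrho 0 x) ‖x‖ := by
    rw [hrho_zero]
    unfold dirSG hu
    field_simp
    ring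
  rw [e]
  have hc := (continuous_hrho x).continuousAt (x := 0)
  have n1 : hrho 0 x ≠ 0 := by rwa [hrho_zero]
  have n2 : (hrho 0 x - 2) ^ 2 + (0 : ℝ) ^ 2 ≠ 0 := by
    rw [hrho_zero]
    positivity
  refine ContinuousAt.tendsto ?_
  unfold dirSG hu
  fun_prop (disch := first | assumption | positivity)

theorem dir_sphere : HDir (fun x => ‖x‖ - 2) (-(1 / 8)) := by
  intro δ hδ η hη
  have hε : ∀ m : ℕ, 0 < δ / 2 / ((m : ℝ) + 1) := fun m => by positivity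
  have hG : ∀ (m : ℕ) (x : E3), ∑ k, (fderiv ℝ (fun x : E3 => (-(1 / 2) + hu (δ / 2 / ((m : ℝ) + 1))
      (hrho (δ / 2 / ((m : ℝ) + 1)) x - 2)) * (x k / hrho (δ / 2 / ((m : ℝ) + 1)) x)) x (e3 k) +
      ((-(1 / 2) + hu (δ / 2 / ((m : ℝ) + 1)) (hrho (δ / 2 / ((m : ℝ) + 1)) x - 2)) *
        (x k / hrho (δ / 2 / ((m : ℝ) + 1)) x)) ^ 2) =
      dirSG (δ / 2 / ((m : ℝ) + 1)) (hrho (δ / 2 / ((m : ℝ) + 1)) x) ‖x‖ := fun m x =>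
    div_rad (hε m) (dirS_deriv (hε m)) (dirS_cont (hε m)) (dirS_bd (hε m)) x
  refine vf_lim η (X := fun m k x => (-(1 / 2) + hu (δ / 2 / ((m : ℝ) + 1))
      (hrho (δ / 2 / ((m : ℝ) + 1)) x - 2)) * (x k / hrho (δ / 2 / ((m : ℝ) + 1)) x))
    (fun m k => (mul1_rad (hε m) (dirS_deriv (hε m)) (dirS_cont (hε m)) (dirS_bd (hε m)) k).1)
    (C := 1 / (δ / 2) ^ 2 + 4 * (1 / 2 + 1 / (δ / 2)) + (1 / 2 + 1 / (δ / 2)) ^ 2) (fun m => ?_) ?_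
  · filter_upwards [hη, ae_norm_ne 0] with x h1 h0 hx
    rw [hG]
    have a : δ < |‖x‖ - 2| := lt_of_not_ge fun h => hx (h1 h)
    have b := norm_le_hrho (δ / 2 / ((m : ℝ) + 1)) x
    have c := hrho_le (hε m).le x
    have d : δ / 2 / ((m : ℝ) + 1) ≤ δ / 2 :=
      div_le_self (by positivity) (by linarith [Nat.cast_nonneg (α := ℝ) m])
    refine dirS_le ((norm_nonneg x).lt_of_ne' h0) b (by positivity) ?_
    rw [lt_abs] at a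
    rw [le_abs]
    rcases a with a | a
    · left; linarith
    · right; linarith
  · filter_upwards [hη, ae_norm_ne 0] with x h1 h0 hx
    simp only [hG]
    have a : δ < |‖x‖ - 2| := lt_of_not_ge fun h => hx (h1 h)
    refine (dirS_lim h0 (abs_pos.1 (hδ.trans a))).comp ?_
    have := tendsto_one_div_add_atTop_nhds_zero_nat.const_mul (δ / 2)
    rw [mul_zero] at this
    refine this.congr fun m => ?_
    ring

end Vale.Agent.P363
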