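import Vale.Agent.P363.H.Defs
import Vale.Agent.P363.B.Duhamel

/-!
# P363 H/Eig  (TASK)

`HEig.cont`: `exists_cont` with `s = μ a - V0 a` (`memLp_V0`, `S.mem`; `kin a η = μ ip a η - pot V0 a η`, integrability from `S.int_mul`, `fb_V0.int`).
`HEig.sym`: `Sym.qf_swap`, `Sym.ip_swap`.  `small_plane`: the point `x - x k • e3 k` lies in the plane at distance `|x k|` (`Metric.uniformContinuous_iff`).
`zero_of_sign`: `integral_eq_zero_iff_of_nonneg`, `Continuous.ae_eq_iff_eq`.
-/

open MeasureTheory Filter Topology Set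
open scoped ContDiff

set_option linter.unusedSectionVars false

noncomputable section

namespace Vale.Agent.P363

variable {μ : ℝ} {a b : S e3}

theorem HEig.cont (h : HEig μ a) : ∃ F : E3 → ℝ, UniformContinuous F ∧ a.f =ᵐ[volume] F := by
  refine exists_cont a (s := fun x => μ * a.f x - V0 x * a.f x)
    ((a.mem.const_mul μ).sub (memLp_V0 a).1) fun η => ?_
  have h1 := h η
  simp only [sub_mul, mul_assoc]
  rw [integral_sub ((a.int_mul η).const_mul μ) (fb_V0.int a η), integral_const_mul]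
  exact eq_sub_of_add_eq h1
theorem HEig.sub (h : HEig μ a) (h' : HEig μ b) : HEig μ (a - b) := by
  intro c
  rw [fb_V0.bil_qf.sub_left, bil_ip.sub_left, h c, h' c, mul_sub]
theorem HEig.smul (h : HEig μ a) (c : ℝ) : HEig μ (c • a) := by
  intro b
  rw [fb_V0.bil_qf.smul, bil_ip.smul, h b, mul_left_comm]
theorem eig_orb (j : Fin 5) : HEig (lev j) (orb j) := by
  exact qf_orb j
theorem HEig.sym {τ : E3 → E3} {T : S e3 → S e3} (hT : Sym e3 τ T) (hτ : ∀ x, τ (τ x) = x)
    (hn : ∀ x, ‖τ x‖ = ‖x‖) (h : HEig μ a) : HEig μ (T a) := by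
  intro b
  rw [hT.qf_swap hτ (fun x => by simp only [V0, hn]), hT.ip_swap hτ, h]
theorem small_plane {F : E3 → ℝ} (hF : UniformContinuous F) (hf : a.f =ᵐ[volume] F) (k : Fin 3)
    (h0 : ∀ x : E3, x k = 0 → F x = 0) : HSmall (fun x => x k) a := by
  intro ε hε
  obtain ⟨δ, hδ, h1⟩ := Metric.uniformContinuous_iff.1 hF ε hε
  refine ⟨δ / 2, half_pos hδ, ?_⟩
  filter_upwards [hf] with x hx h2
  have h3 := h1 (a := x) (b := x - x k • e3 k) (by
    rw [dist_eq_norm, sub_sub_cancel, norm_smul, norm_e3, mul_one]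
    exact h2.trans_lt (half_lt_self hδ))
  rw [h0 (x - x k • e3 k) (by simp [e3]), dist_zero_right] at h3
  rw [hx]
  exact h3.le
theorem small_sphere {f : ℝ → ℝ} (hf : Continuous f) (h : a.f =ᵐ[volume] fun x => f ‖x‖)
    (h0 : f 2 = 0) : HSmall (fun x => ‖x‖ - 2) a := by
  intro ε hε
  obtain ⟨δ, hδ, h1⟩ := Metric.continuousAt_iff.1 (hf.continuousAt (x := 2)) ε hε
  refine ⟨δ / 2, half_pos hδ, ?_⟩
  filter_upwards [h] with x hx h2
  have h3 := h1 (x := ‖x‖) (h2.trans_lt (half_lt_self hδ))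
  rw [h0, dist_zero_right] at h3
  rw [hx]
  exact h3.le
theorem zero_of_sign {G : E3 → ℝ} (hG : Continuous G) (hi : Integrable G)
    (hs : (∀ x, 0 ≤ G x) ∨ ∀ x, G x ≤ 0) (h0 : ∫ x, G x = 0) (x : E3) : G x = 0 := by
  rcases hs with hs | hs
  · exact congrFun ((hG.ae_eq_iff_eq volume continuous_zero).1
      ((integral_eq_zero_iff_of_nonneg hs hi).1 h0)) x
  · have h1 := congrFun ((hG.neg.ae_eq_iff_eq volume continuous_zero).1
      ((integral_eq_zero_iff_of_nonneg (fun x => neg_nonneg.2 (hs x)) hi.neg).1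
        (by rw [integral_neg, h0, neg_zero]))) x
    exact neg_eq_zero.1 h1

end Vale.Agent.P363
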