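import Vale.Agent.P363.H.Defs
import Vale.Agent.P363.B.Rellich

/-!
# P363 H/ExA  (TASK)

`hn (b m)` is bounded (`kin_le_V0`, a convergent sequence is bounded); `rellich` gives `φ`.  `Q = qf V0 - μ ip ≥ 0` on `orthSub`, `Q (b m) (b m) → 0`, `Bil.two_on`; for `d = b (φ m) - b (φ l)`:
`kin d d - μ ip d d = Q d d + ∫ d²/‖x‖`, so `min 1 (-μ) * hn d ≤ Q d d + ∫ d²/‖x‖` is small: `S.complete` gives `a`.  `Bil.tendsto` for `ip` (against the constant sequence `orb j`, and diagonal) and for `qf V0`.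
-/

open MeasureTheory Filter Topology Set
open scoped ContDiff

set_option linter.unusedSectionVars false

noncomputable section

namespace Vale.Agent.P363

theorem exA_pot (d : S e3) : pot V0 d d = -∫ x, 1 / ‖x‖ * d.f x ^ 2 := by
  simp only [pot, V0, neg_mul, integral_neg, sq]

theorem ex_min {μ : ℝ} (hμ : μ < 0) (hl : ∀ a ∈ orthSub, μ * ip a a ≤ qf V0 a a) {b : ℕ → S e3}
    (hb : ∀ m, b m ∈ orthSub) (h1 : ∀ m, ip (b m) (b m) = 1)
    (hq : Tendsto (fun m => qf V0 (b m) (b m)) atTop (𝓝 μ)) :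
    ∃ a ∈ orthSub, ip a a = 1 ∧ qf V0 a a = μ := by
  obtain ⟨M, hM⟩ := hq.bddAbove_range
  obtain ⟨φ, hφ, hr⟩ := rellich (u := b) (C := 9 + 2 * M) fun m => by
    have h2 := kin_le_V0 (b m)
    have h3 : qf V0 (b m) (b m) ≤ M := hM ⟨m, rfl⟩
    rw [hn, h1] at *
    linarith
  have h0 : ∀ a ∈ orthSub, 0 ≤ qf V0 a a - μ * ip a a := fun a ha => sub_nonneg.2 (hl a ha)
  have hq2 := hq.comp hφ.tendsto_atTop
  have hc : 0 < min 1 (-μ) := lt_min one_pos (neg_pos.2 hμ)
  obtain ⟨a, ha⟩ := S.complete (h := fun m => b (φ m)) fun ε hε => by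
    have hδ : 0 < min 1 (-μ) * ε / 5 := by positivity
    obtain ⟨N, hN⟩ := hr _ hδ
    obtain ⟨N', hN'⟩ := eventually_atTop.1 (hq2.eventually (ge_mem_nhds (lt_add_of_pos_right μ hδ)))
    refine ⟨max N N', fun m hm l hl => le_of_mul_le_mul_left ?_ hc⟩
    have g1 := hN m (le_of_max_le_left hm) l (le_of_max_le_left hl)
    have g2 : qf V0 (b (φ m)) (b (φ m)) ≤ _ := hN' m (le_of_max_le_right hm)
    have g3 : qf V0 (b (φ l)) (b (φ l)) ≤ _ := hN' l (le_of_max_le_right hl)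
    have g4 := (fb_V0.bil_qf.minus bil_ip μ).two_on orthSub h0 (hb (φ m)) (hb (φ l))
    have g5 := exA_pot (b (φ m) - b (φ l))
    simp only [S.sub_f] at g5
    simp only [h1] at g4
    have g6 : qf V0 (b (φ m) - b (φ l)) (b (φ m) - b (φ l)) =
      kin (b (φ m) - b (φ l)) (b (φ m) - b (φ l)) +
        pot V0 (b (φ m) - b (φ l)) (b (φ m) - b (φ l)) := rfl
    have g7 := mul_le_mul_of_nonneg_right (min_le_left 1 (-μ)) (kin_nonneg (b (φ m) - b (φ l)))
    have g8 := mul_le_mul_of_nonneg_right (min_le_right 1 (-μ)) (ip_nonneg (b (φ m) - b (φ l)))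
    rw [hn, mul_add]
    linarith
  refine ⟨a, fun j => ?_, ?_, ?_⟩
  · have h3 := bil_ip.tendsto abs_ip_le (u := fun _ => orb j) (a := orb j) (by
      simp only [sub_self, hn, bil_ip.zero_left, bil_kin.zero_left, add_zero]
      exact tendsto_const_nhds) ha
    simp only [mem_orthSub.1 (hb _) j] at h3
    exact tendsto_nhds_unique h3 tendsto_const_nhds
  · have h3 := bil_ip.tendsto abs_ip_le ha ha
    simp only [h1] at h3
    exact tendsto_nhds_unique h3 tendsto_const_nhds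
  · obtain ⟨C2, -, hC2⟩ := fb_V0.abs_qf_le
    exact tendsto_nhds_unique (fb_V0.bil_qf.tendsto hC2 ha ha) hq2

end Vale.Agent.P363
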