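import Vale.Agent.P363.H.ExA

/-!
# P363 H/ExB  (TASK)

`inf_le`: if `ip a a = 0` then `a.f = (0 : S e3).f` a.e. (`ip_eq_zero`, `qf_congr`, `Bil.zero_left`); otherwise normalise by `(√(ip a a))⁻¹` (`Bil.smul_sq`).
`eig_of_min`: `Bil.null_on` on `orthSub` for `Q = qf V0 - μ ip`; for general `b = rem b + ∑ j, ip (orb j) b • orb j` use `ip_orb_rem`, `qf_orb`, symmetry.
`exists_eig`: `A = {qf V0 a a | a ∈ orthSub, ip a a = 1}` is bounded below by `-4` (`kin_le_V0`).  If `A` is empty use `inf_le` with `μ = 0`, `γ = 1/8`.  Otherwise `μ = sInf A`; if `μ > -1/8` take `γ = μ + 1/8`;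
otherwise `exists_seq_tendsto_sInf`, `ex_min`, `eig_of_min`.
-/

open MeasureTheory Filter Topology Set
open scoped ContDiff

set_option linter.unusedSectionVars false

noncomputable section

namespace Vale.Agent.P363

theorem inf_le {μ : ℝ} (h : ∀ a ∈ orthSub, ip a a = 1 → μ ≤ qf V0 a a) :
    ∀ a ∈ orthSub, μ * ip a a ≤ qf V0 a a := by
  intro a ha
  rcases (ip_nonneg a).eq_or_lt with h0 | h0
  · have h1 : a.f =ᵐ[volume] (0 : S e3).f := ip_eq_zero.1 h0.symm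
    rw [qf_congr V0 h1, fb_V0.bil_qf.zero_left, ← h0, mul_zero]
  · have h2 : (√(ip a a))⁻¹ ^ 2 = (ip a a)⁻¹ := by rw [inv_pow, Real.sq_sqrt h0.le]
    have h1 := h ((√(ip a a))⁻¹ • a) (orthSub.smul_mem _ ha)
      (by rw [bil_ip.smul_sq, h2, inv_mul_cancel₀ h0.ne'])
    rw [fb_V0.bil_qf.smul_sq, h2, ← div_eq_inv_mul, le_div_iff₀ h0] at h1
    exact h1
theorem eig_of_min {μ : ℝ} (hl : ∀ a ∈ orthSub, μ * ip a a ≤ qf V0 a a) {a : S e3} (ha : a ∈ orthSub)
    (hq : qf V0 a a = μ * ip a a) : HEig μ a := by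
  intro b
  have hQ := fb_V0.bil_qf.minus (bil_ip (e := e3)) μ
  have h1 := hQ.null_on orthSub (fun c hc => by linarith [hl c hc]) ha (b := rem b)
    (by linarith) fun j => ip_orb_rem j b
  have h2 : ∀ j, qf V0 a (orb j) - μ * ip a (orb j) = 0 := fun j => by
    rw [fb_V0.bil_qf.symm, qf_orb, bil_ip.symm a, ha j]
    ring
  have h3 : b = rem b + ∑ j, ip (orb j) b • orb j := by simp [rem]
  have h4 := hQ.add_right a (rem b) (∑ j, ip (orb j) b • orb j)
  rw [← h3, hQ.sum_right, h1, Finset.sum_eq_zero fun j _ => by rw [hQ.smul_right, h2, mul_zero]]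
    at h4
  linarith
theorem exists_eig :
    (∃ γ : ℝ, 0 < γ ∧ ∀ a ∈ orthSub, γ * ip a a ≤ qf V0 a a + 1 / 8 * ip a a) ∨
      ∃ (μ : ℝ) (a : S e3), μ ≤ -(1 / 8) ∧ ip a a = 1 ∧ a ∈ orthSub ∧ HEig μ a := by
  set A : Set ℝ := {t | ∃ a ∈ orthSub, ip a a = 1 ∧ qf V0 a a = t} with hA
  have hb : BddBelow A := by
    refine ⟨-4, ?_⟩
    rintro t ⟨a, _, h1, rfl⟩
    linarith [kin_le_V0 a, kin_nonneg a]
  rcases A.eq_empty_or_nonempty with he | hne
  · refine Or.inl ⟨1 / 8, by norm_num, fun a ha => ?_⟩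
    have := inf_le (μ := 0) (fun c hc h1 => by
      have : qf V0 c c ∈ A := ⟨c, hc, h1, rfl⟩
      rw [he] at this
      exact this.elim) a ha
    linarith
  have hl := inf_le (μ := sInf A) fun c hc h1 => csInf_le hb ⟨c, hc, h1, rfl⟩
  by_cases hm : -(1 / 8) < sInf A
  · exact Or.inl ⟨sInf A + 1 / 8, by linarith, fun a ha => by linarith [hl a ha]⟩
  push Not at hm
  obtain ⟨u, _, hu, hmem⟩ := exists_seq_tendsto_sInf hne hb
  choose b hb1 hb2 hb3 using hmem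
  obtain ⟨a, ha, h1, h2⟩ := ex_min (by linarith) hl hb1 hb2 (hu.congr fun m => (hb3 m).symm)
  exact Or.inr ⟨sInf A, a, hm, h1, ha, eig_of_min hl ha (by rw [h1, h2, mul_one])⟩

end Vale.Agent.P363
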