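import Vale.Agent.P363.H.Odd

/-!
# P363 H/Rad  (TASK)

`eig_even`: `b = a - T a` (`T` from `exists_sym_rf 0`) is an eigenfunction (`HEig.sym`, `HEig.sub`), odd in the coordinate `0` (`rf_rf`), and `ip (orb 2) (T a) = - ip (orb 2) a`
(`Sym.ip_swap`, `orb_rf`, `ip_congr`, `Bil.neg_left`); `eig_odd_zero` with `k = 0` (`(0 : Fin 3).addNat 2 = 2` by `rfl`).
`exists_refl`: `L = (ℝ ∙ (e3 0 - u))ᗮ.reflection`, `Submodule.reflection_sub`, `Submodule.reflection_reflection`.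
`eig_radial`: for `x ≠ y` with `‖x‖ = ‖y‖` put `u = ‖x - y‖⁻¹ • (x - y)`, `L` from `exists_refl`, `T` from `exists_sym_rot L`.  `T a` is an eigenfunction and
`ip (orb 2) (T a) = ip (T b) (T a) = ip b a = 0` for `b = ∑ l, u l • orb (l.addNat 2)` (`(T b).f = (orb 2).f` because `∑ l, u l * L z l = ⟪L (e3 0), L z⟫ = z 0`; `raw_p`, `nrm_p`).
So `F (L (rf 0 z)) = F (L z)` a.e., hence everywhere (continuity); for `z = L x`: `L z = x`, `z 0 = ⟪u, x⟫`, `L (rf 0 z) = x - 2 ⟪u, x⟫ u = y` since `2 ⟪x - y, x⟫ = ‖x - y‖²`.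
Finally `f t = F (t • e3 0)`.
-/

open MeasureTheory Filter Topology Set
open scoped ContDiff

set_option linter.unusedSectionVars false

noncomputable section

namespace Vale.Agent.P363

theorem eig_even {μ : ℝ} {a : S e3} (he : HEig μ a) (hμ : μ ≤ -(1 / 8)) (h0 : ip (orb 2) a = 0) :
    ∀ᵐ x, a.f (rf 0 x) = a.f x := by
  obtain ⟨T, hT⟩ := exists_sym_rf 0
  have hb : HEig μ (a - T a) := he.sub (he.sym hT (rf_rf 0) (norm_rf 0))
  have h1 : ip (orb 2) (T a) = 0 := by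
    have h2 : (T (orb 2)).f =ᵐ[volume] (-orb 2).f := Eventually.of_forall fun x => by
      rw [hT.f, orb_rf, S.neg_f, if_pos (by rfl)]
      ring
    rw [← hT.ip_swap (rf_rf 0), ip_congr h2, bil_ip.neg_left, h0, neg_zero]
  have h3 := eig_odd_zero hb hμ 0 (Eventually.of_forall fun x => by
    simp only [S.sub_f, hT.f, rf_rf]
    ring) (by
    rw [bil_ip.sub_right]
    exact sub_eq_zero.2 (h0.trans h1.symm))
  filter_upwards [h3] with x hx
  rw [S.sub_f, hT.f] at hx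
  linarith
theorem exists_refl {u : E3} (hu : ‖u‖ = 1) :
    ∃ L : E3 ≃ₗᵢ[ℝ] E3, L (e3 0) = u ∧ ∀ x, L (L x) = x :=
  ⟨(ℝ ∙ (e3 0 - u))ᗮ.reflection, Submodule.reflection_sub (by rw [norm_e3, hu]),
    Submodule.reflection_reflection _⟩

theorem rad_inner (u z : E3) : inner ℝ u z = ∑ l, u l * z l := by
  simp [PiLp.inner_apply, mul_comm]

theorem rad_inner_e3 (z : E3) : inner ℝ (e3 0) z = z 0 := by
  simp [e3, EuclideanSpace.inner_single_left]

theorem rad_step {μ : ℝ} {a : S e3} (he : HEig μ a) (hμ : μ ≤ -(1 / 8))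
    (h0 : ∀ j, ip (orb j) a = 0) {F : E3 → ℝ} (hF : Continuous F) (hf : a.f =ᵐ[volume] F)
    {u : E3} (hu : ‖u‖ = 1) (x : E3) : F (x - (2 * inner ℝ u x) • u) = F x := by
  obtain ⟨L, hL1, hL2⟩ := exists_refl hu
  obtain ⟨T, hT⟩ := exists_sym_rot L
  have hin : ∀ z, inner ℝ u (L z) = z 0 := fun z => by
    rw [← hL1, L.inner_map_map, rad_inner_e3]
  have h1 : ip (orb 2) (T a) = 0 := by
    have h2 : (orb 2).f =ᵐ[volume] (T (∑ l : Fin 3, u l • orb (l.addNat 2))).f :=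
      Eventually.of_forall fun z => by
        have h3 := hin z
        rw [rad_inner] at h3
        have h4 : (orb 2).f z = nrm 4 * (z 0 * Real.exp (-‖z‖ / 2)) := by
          rw [← nrm_p 0, ← raw_p 0 z]
          rfl
        rw [hT.f, S.sum_f, h4, ← h3, Finset.sum_mul, Finset.mul_sum]
        refine Finset.sum_congr rfl fun l _ => ?_
        rw [S.smul_f, orb_f, raw_p, nrm_p, L.norm_map]
        ring
    rw [ip_congr h2, hT.ip, bil_ip.sum_left]
    exact Finset.sum_eq_zero fun l _ => by rw [bil_ip.smul, h0, mul_zero]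
  have h5 := eig_even (he.sym hT hL2 L.norm_map) hμ h1
  obtain ⟨T', hT'⟩ := exists_sym_rf 0
  obtain ⟨L', hL'⟩ := exists_rfL 0
  have hrc : Continuous (rf 0) := L'.continuous.congr hL'
  have h6 : ∀ᵐ z, a.f (L z) = F (L z) := hT.mp.quasiMeasurePreserving.ae hf
  have h7 : (fun z => F (L (rf 0 z))) =ᵐ[volume] fun z => F (L z) := by
    filter_upwards [h5, h6, hT'.mp.quasiMeasurePreserving.ae h6] with z a1 a2 a3
    rw [hT.f, hT.f] at a1
    rw [← a3, a1, a2]
  have h8 := congrFun (((hF.comp (L.continuous.comp hrc)).ae_eq_iff_eq volume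
    (hF.comp L.continuous)).1 h7) (L x)
  have h9 : L x 0 = inner ℝ u x := by rw [← hin (L x), hL2]
  simp only [Function.comp_apply, hL2] at h8
  rw [rf, map_sub, map_smul, hL1, hL2, h9] at h8
  exact h8
theorem eig_radial {μ : ℝ} {a : S e3} (he : HEig μ a) (hμ : μ ≤ -(1 / 8))
    (h0 : ∀ j, ip (orb j) a = 0) :
    ∃ f : ℝ → ℝ, Continuous f ∧ a.f =ᵐ[volume] fun x => f ‖x‖ := by
  obtain ⟨F, hFu, hf⟩ := he.cont
  have hF := hFu.continuous
  have key : ∀ x y : E3, ‖x‖ = ‖y‖ → F y = F x := by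
    intro x y hxy
    by_cases h : x = y
    · rw [h]
    have hn : ‖x - y‖ ≠ 0 := norm_ne_zero_iff.2 (sub_ne_zero.2 h)
    have h1 := rad_step he hμ h0 hF hf (u := ‖x - y‖⁻¹ • (x - y))
      (by rw [norm_smul, norm_inv, norm_norm, inv_mul_cancel₀ hn]) x
    have h2 : 2 * inner ℝ (x - y) x = ‖x - y‖ ^ 2 := by
      rw [norm_sub_sq_real, inner_sub_left, real_inner_self_eq_norm_sq, real_inner_comm, ← hxy]
      ring
    have h3 : (2 * inner ℝ (‖x - y‖⁻¹ • (x - y)) x) * ‖x - y‖⁻¹ = 1 := by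
      rw [real_inner_smul_left, mul_left_comm, h2]
      field_simp
    rw [smul_smul, h3, one_smul, sub_sub_cancel] at h1
    exact h1
  refine ⟨fun t => F (t • e3 0), hF.comp (continuous_id.smul continuous_const), ?_⟩
  filter_upwards [hf] with x hx
  rw [hx]
  exact key _ _ (by rw [norm_smul, norm_norm, norm_e3, mul_one])

end Vale.Agent.P363
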