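import Vale.Agent.P363.H.RadA

/-!
# P363 H/RadZ  (TASK)

`ball_pos`: the integrand is positive on the ball (`setIntegral_pos_iff_support_of_nonneg_ae`, `Metric.measure_ball_pos`).
`eig_radial_zero`: by `rad_two` either `ip a a = 0` (`ip_eq_zero`) or `μ = -(1/8)`.  With `c₁`, `c₂` from `rad_in`, `rad_out`, `w = a - c₂ • orb 1` satisfies `w.f = 1_{ball 0 2} (c₁ - c₂) orb 1` a.e.
(`ae_norm_ne 2`), so `0 = ip (orb 0) w = (c₁ - c₂) ∫_{ball} orb 0 * orb 1` (`integral_indicator`), `c₁ = c₂`, `w = 0` a.e., `0 = ip (orb 1) a = c₂` (`ip_congr`, `ip_orb`).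
-/

open MeasureTheory Filter Topology Set
open scoped ContDiff

set_option linter.unusedSectionVars false

noncomputable section

namespace Vale.Agent.P363

theorem radZ_pos {x : E3} (hx : x ∈ Metric.ball (0 : E3) 2) : 0 < (orb 0).f x * (orb 1).f x := by
  have n0 := nrm_pos 0
  have n1 := nrm_pos 1
  rw [mem_ball_zero_iff] at hx
  have : 0 < 1 - ‖x‖ / 2 := by linarith
  rw [orb_f, orb_f, raw_zero, raw_one]
  positivity

theorem ball_pos : 0 < ∫ x in Metric.ball (0 : E3) 2, (orb 0).f x * (orb 1).f x := by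
  rw [setIntegral_pos_iff_support_of_nonneg_ae
    ((ae_restrict_iff' measurableSet_ball).2 (ae_of_all _ fun x hx => (radZ_pos hx).le))
    (S.int_mul _ _).integrableOn]
  refine (Metric.measure_ball_pos volume (0 : E3) two_pos).trans_le (measure_mono fun x hx => ?_)
  exact ⟨(radZ_pos hx).ne', hx⟩

theorem eig_radial_zero {μ : ℝ} {a : S e3} (he : HEig μ a) (hμ : μ ≤ -(1 / 8))
    (h0 : ip (orb 0) a = 0) (h1 : ip (orb 1) a = 0) {f : ℝ → ℝ} (hf : Continuous f)
    (ha : a.f =ᵐ[volume] fun x => f ‖x‖) : ∀ᵐ x, a.f x = 0 := by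
  obtain ⟨h2, h3⟩ := rad_two he hμ h0 hf ha
  rcases hμ.lt_or_eq with hlt | heq
  · refine ip_eq_zero.1 (le_antisymm ?_ (ip_nonneg a))
    by_contra hc
    have := mul_neg_of_neg_of_pos (show μ + 1 / 8 < 0 by linarith) (not_le.1 hc)
    linarith
  subst heq
  obtain ⟨c₁, hc₁⟩ := rad_in he hf ha h2
  obtain ⟨c₂, hc₂⟩ := rad_out he hf ha h2
  have hw : ∀ᵐ x, (a - c₂ • orb 1).f x =
      (Metric.ball (0 : E3) 2).indicator (fun x => (c₁ - c₂) * (orb 1).f x) x := by
    filter_upwards [ha, ae_norm_ne 2] with x hx hne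
    rw [S.sub_f, S.smul_f, hx]
    rcases hne.lt_or_gt with h | h
    · rw [indicator_of_mem (mem_ball_zero_iff.2 h), hc₁ _ ⟨norm_nonneg _, h⟩, orb_f, raw_one]
      ring
    · rw [indicator_of_notMem (fun hh => absurd (mem_ball_zero_iff.1 hh) (not_lt.2 h.le)),
        hc₂ _ h, orb_f, raw_one]
      ring
  have e1 : ip (orb 0) (a - c₂ • orb 1) = 0 := by
    rw [bil_ip.sub_right, bil_ip.smul_right, h0, ip_orb, if_neg (by decide)]
    ring
  have e2 : ip (orb 0) (a - c₂ • orb 1) =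
      (c₁ - c₂) * ∫ x in Metric.ball (0 : E3) 2, (orb 0).f x * (orb 1).f x := by
    rw [← integral_const_mul, ← integral_indicator measurableSet_ball]
    refine integral_congr_ae ?_
    filter_upwards [hw] with x hx
    rw [hx]
    by_cases hb : x ∈ Metric.ball (0 : E3) 2
    · rw [indicator_of_mem hb, indicator_of_mem hb]
      ring
    · rw [indicator_of_notMem hb, indicator_of_notMem hb, mul_zero]
  have e3 : c₁ - c₂ = 0 := (mul_eq_zero.1 (e2.symm.trans e1)).resolve_right ball_pos.ne'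
  have hz : ∀ᵐ x, (a - c₂ • orb 1).f x = 0 := by
    filter_upwards [hw] with x hx
    rw [hx, e3]
    simp
  have e4 : ip (a - c₂ • orb 1) (orb 1) = 0 := by
    rw [ip_congr (a' := 0) hz, bil_ip.zero_left]
  rw [bil_ip.sub_left, bil_ip.smul, bil_ip.symm a, h1, ip_orb, if_pos rfl] at e4
  have e5 : c₂ = 0 := by linarith
  filter_upwards [hz] with x hx
  rw [S.sub_f, S.smul_f, e5, zero_mul, sub_zero] at hx
  exact hx

end Vale.Agent.P363
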