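import Vale.Agent.P363.H.ExB
import Vale.Agent.P363.H.Rad
import Vale.Agent.P363.H.RadZ

/-!
# P363 H/Gap

The spectral gap above the first two hydrogen levels.
-/

open MeasureTheory Filter Topology Set
open scoped ContDiff

set_option linter.unusedSectionVars false

noncomputable section

namespace Vale.Agent.P363

theorem hyd_gap' : ∃ γ : ℝ, 0 < γ ∧ ∀ a : S e3, (∀ j, ip (orb j) a = 0) →
    γ * hn a ≤ qf V0 a a + 1 / 8 * ip a a := by
  rcases exists_eig with ⟨γ, hγ, h⟩ | ⟨μ, a, hμ, h1, ha, he⟩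
  · refine ⟨γ / (2 * γ + 9), by positivity, fun a ha => ?_⟩
    have a1 := h a ha
    have a2 := kin_le_V0 a
    have a3 := ip_nonneg a
    have a4 : γ * hn a ≤ (2 * γ + 9) * (qf V0 a a + 1 / 8 * ip a a) := by
      unfold hn
      nlinarith
    rw [div_mul_eq_mul_div, div_le_iff₀ (by positivity)]
    linarith
  · obtain ⟨f, hf, hfa⟩ := eig_radial he hμ ha
    have := ip_eq_zero.2 (eig_radial_zero he hμ (ha 0) (ha 1) hf hfa)
    linarith

theorem hyd_lower' : ∃ γ : ℝ, 0 < γ ∧ ∀ a : S e3,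
    γ * hn (rem a) ≤ qf V0 a a + 1 / 8 * ip a a + 3 / 8 * ip (orb 0) a ^ 2 := by
  obtain ⟨γ, hγ, h⟩ := hyd_gap'
  refine ⟨γ, hγ, fun a => ?_⟩
  have a1 := h (rem a) fun j => ip_orb_rem j a
  rw [qf_rem, ip_rem] at a1
  simp only [Fin.sum_univ_five, lev] at a1
  norm_num at a1
  simp only [show ¬((2 : Fin 5) = 0) by decide, show ¬((3 : Fin 5) = 0) by decide,
    show ¬((4 : Fin 5) = 0) by decide, if_false] at a1
  linarith

end Vale.Agent.P363
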