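import Vale.Agent.P363.H.Orb

/-!
# P363 H/One: one-body inequalities from the hydrogen gap and the crystal field (helper10)
-/

open MeasureTheory Filter Topology Set
open scoped ContDiff

set_option linter.unusedSectionVars false

noncomputable section

namespace Vale.Agent.P363

/-- The statement of `hyd_gap`. -/
def HydGap : Prop := ∃ γ : ℝ, 0 < γ ∧ ∀ a : S e3, (∀ j, ip (orb j) a = 0) →
    γ * hn a ≤ qf V0 a a + 1 / 8 * ip a a

/-- The statement of `crystal`. -/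
def Crystal : Prop := ∃ c C R₀ : ℝ, 0 < c ∧ 0 < C ∧ 0 < R₀ ∧ ∀ R : ℝ, 0 < R → R ≤ R₀ →
    (∀ i j, |pot (dV R) (orb i) (orb j)| ≤ C * R ^ 2) ∧
    (∀ j : Fin 5, j = 1 ∨ j = 2 ∨ j = 3 →
      pot (dV R) (orb 4) (orb 4) + c * R ^ 2 ≤ pot (dV R) (orb j) (orb j)) ∧
    (∀ i j : Fin 5, i ≠ j → 2 ≤ i ∨ 2 ≤ j → pot (dV R) (orb i) (orb j) = 0) ∧
    (∀ j b, pot (dV R) (orb j) b ^ 2 ≤ C * R ^ 3 * hn b) ∧
    ∀ b : S e3, |pot (dV R) b b| ≤ C * R * hn b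

theorem one_lev (α : Fin 5 → ℝ) :
    ∑ j, lev j * α j ^ 2 = -(1 / 8) * ∑ j, α j ^ 2 - 3 / 8 * α 0 ^ 2 := by
  simp [Fin.sum_univ_five, lev]
  ring

theorem hyd_lower_of (H : HydGap) : ∃ γ : ℝ, 0 < γ ∧ ∀ a : S e3,
    γ * hn (rem a) ≤ qf V0 a a + 1 / 8 * ip a a + 3 / 8 * ip (orb 0) a ^ 2 := by
  obtain ⟨γ, hγ, h⟩ := H
  refine ⟨γ, hγ, fun a => ?_⟩
  have h1 := h (rem a) fun j => ip_orb_rem j a
  rw [qf_rem, ip_rem, one_lev fun j => ip (orb j) a] at h1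
  linarith

theorem one_qf (R : ℝ) (a b : S e3) : qf (VR R) a b = qf V0 a b + pot (dV R) a b := by
  have h : pot (dV R) a b = pot (VR R) a b - pot V0 a b := pot_sub (fb_VR R) fb_V0 a b
  rw [h, qf, qf]
  ring

theorem one_amgm {w K h δ : ℝ} (α : ℝ) (hw : w ^ 2 ≤ K * h) (hK : 0 ≤ K) (hh : 0 ≤ h)
    (hδ : 0 < δ) : -(δ * h + K / δ * α ^ 2) ≤ 2 * (α * w) := by
  refine (abs_le_of_sq_le_sq' ?_ (by positivity)).1
  have e : 4 * (δ * h) * (K / δ * α ^ 2) = 4 * α ^ 2 * (K * h) := by field_simp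
  nlinarith [sq_nonneg (δ * h - K / δ * α ^ 2), mul_le_mul_of_nonneg_left hw (sq_nonneg α)]

/-- The expansion in the five orbitals and the remainder. -/
theorem one_low {γ C R : ℝ} (hγ : 0 < γ) (hC : 0 < C) (hR : 0 < R)
    (hgap : ∀ a : S e3, (∀ j, ip (orb j) a = 0) → γ * hn a ≤ qf V0 a a + 1 / 8 * ip a a)
    (h4 : ∀ j b, pot (dV R) (orb j) b ^ 2 ≤ C * R ^ 3 * hn b)
    (h5 : ∀ b : S e3, |pot (dV R) b b| ≤ C * R * hn b) (hs : C * R ≤ γ / 4) (a : S e3) :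
    ∑ j, lev j * ip (orb j) a ^ 2 +
      ∑ i, ∑ j, ip (orb i) a * (ip (orb j) a * pot (dV R) (orb i) (orb j)) -
      C * R ^ 3 / (γ / 20) * ∑ j, ip (orb j) a ^ 2 + γ / 2 * hn (rem a) -
      1 / 8 * ip (rem a) (rem a) ≤ qf (VR R) a a := by
  have hB := (fb_dV R).bil_pot
  have e : (∑ j, ip (orb j) a • orb j) + rem a = a := by rw [rem, add_sub_cancel]
  have h1 := hB.add_sq (∑ j, ip (orb j) a • orb j) (rem a)
  rw [e] at h1
  simp only [hB.sum_left, hB.sum_right, hB.smul, hB.smul_right, Finset.mul_sum] at h1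
  have h2 := hgap (rem a) fun j => ip_orb_rem j a
  have h3 := (abs_le.1 (h5 (rem a))).1
  have h6 := Finset.sum_le_sum fun j (_ : j ∈ Finset.univ) =>
    one_amgm (ip (orb j) a) (h4 j (rem a)) (by positivity) (hn_nonneg _)
      (show 0 < γ / 20 by positivity)
  have h7 := mul_le_mul_of_nonneg_right hs (hn_nonneg (rem a))
  rw [Finset.sum_neg_distrib, Finset.sum_add_distrib, ← Finset.mul_sum, ← Finset.mul_sum,
    Finset.sum_const, Finset.card_univ, Fintype.card_fin] at h6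
  rw [qf_rem] at h2
  rw [one_qf, h1]
  simp only [nsmul_eq_mul, Nat.cast_ofNat] at h6
  linarith

theorem one_sum_le (a : S e3) : ∑ j, ip (orb j) a ^ 2 ≤ ip a a := by
  linarith [ip_rem a, ip_nonneg (rem a)]

theorem one_body_rem_of (H : HydGap) (H' : Crystal) :
    ∃ γ C R₀ : ℝ, 0 < γ ∧ 0 < C ∧ 0 < R₀ ∧ ∀ R : ℝ, 0 < R → R ≤ R₀ → ∀ a : S e3,
    γ * hn (rem a) ≤
      qf (VR R) a a + (1 / 8 + C * R ^ 2) * ip a a + 3 / 8 * ip (orb 0) a ^ 2 := by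
  obtain ⟨γ, hγ, hgap⟩ := H
  obtain ⟨c, C, R₀, -, hC, hR₀, h⟩ := H'
  refine ⟨γ / 2, 5 * C + 5, min R₀ (γ / (4 * C)), by positivity, by positivity, by positivity,
    fun R hR hle a => ?_⟩
  obtain ⟨h1, -, -, h4, h5⟩ := h R hR (hle.trans (min_le_left _ _))
  have hs : C * R ≤ γ / 4 := by
    have := (le_div_iff₀ (by positivity)).1 (hle.trans (min_le_right _ _))
    linarith
  have h6 := one_low hγ hC hR hgap h4 h5 hs a
  have h7 : ∀ i j, -(C * R ^ 2 / 2 * (ip (orb i) a ^ 2 + ip (orb j) a ^ 2)) ≤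
      ip (orb i) a * (ip (orb j) a * pot (dV R) (orb i) (orb j)) := fun i j => by
    obtain ⟨p1, p2⟩ := abs_le.1 (h1 i j)
    nlinarith [mul_nonneg (sub_nonneg.2 p1) (sq_nonneg (ip (orb i) a + ip (orb j) a)),
      mul_nonneg (sub_nonneg.2 p2) (sq_nonneg (ip (orb i) a - ip (orb j) a))]
  have h8 := Finset.sum_le_sum fun i (_ : i ∈ Finset.univ) =>
    Finset.sum_le_sum fun j (_ : j ∈ Finset.univ) => h7 i j
  have h9 : ∑ i : Fin 5, ∑ j : Fin 5, -(C * R ^ 2 / 2 * (ip (orb i) a ^ 2 + ip (orb j) a ^ 2)) =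
      -(5 * C * R ^ 2 * ∑ j, ip (orb j) a ^ 2) := by
    simp only [Fin.sum_univ_five]
    ring
  have h10 : C * R ^ 3 / (γ / 20) ≤ 5 * R ^ 2 := by
    rw [div_le_iff₀ (by positivity)]
    nlinarith [mul_le_mul_of_nonneg_right hs (sq_nonneg R)]
  have h11 : 0 ≤ ∑ j, ip (orb j) a ^ 2 := Finset.sum_nonneg fun _ _ => sq_nonneg _
  have h12 := mul_le_mul_of_nonneg_right h10 h11
  have h13 := mul_le_mul_of_nonneg_left (one_sum_le a)
    (show 0 ≤ (5 * C + 5) * R ^ 2 by positivity)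
  rw [one_lev fun j => ip (orb j) a, ip_rem] at h6
  linarith

/-- The two by two block. -/
theorem one_alg {B d t p : ℝ} (hd : 0 ≤ d) (hd1 : d ≤ 1) (hp : p ^ 2 * (1 + t ^ 2) = 1)
    (x y : ℝ) : (B - d - d * t ^ 2 * p ^ 2 - t ^ 2) * (p * x - p * t * y) ^ 2 +
      B * (x ^ 2 + y ^ 2 - (p * x - p * t * y) ^ 2) ≤
      (B - d) * x ^ 2 + 2 * (t * d) * x * y + B * y ^ 2 := by
  have h1 : d * (t ^ 2 * p ^ 2) ≤ 1 :=
    mul_le_one₀ hd1 (by positivity) (by nlinarith [sq_nonneg p])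
  have h2 := mul_nonneg (sub_nonneg.2 h1) (sq_nonneg (t * (p * x - p * t * y)))
  have h3 : 0 ≤ d * (t * y) ^ 2 := by positivity
  have e : (B - d) * x ^ 2 + 2 * (t * d) * x * y + B * y ^ 2 -
      ((B - d - d * t ^ 2 * p ^ 2 - t ^ 2) * (p * x - p * t * y) ^ 2 +
      B * (x ^ 2 + y ^ 2 - (p * x - p * t * y) ^ 2)) =
      (1 - d * (t ^ 2 * p ^ 2)) * (t * (p * x - p * t * y)) ^ 2 + d * (t * y) ^ 2 := by
    linear_combination (d * (x - t * y) ^ 2 * (1 + t ^ 2 * p ^ 2)) * hp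
  linarith

theorem one_sm (K : ℝ) {ε : ℝ} (hε : 0 < ε) : ∀ᶠ R in 𝓝 (0 : ℝ), K * R ≤ ε := by
  have h : Tendsto (fun R : ℝ => K * R) (𝓝 0) (𝓝 (K * 0)) := tendsto_const_nhds.mul tendsto_id
  exact h.eventually (ge_mem_nhds (by rwa [mul_zero]))

theorem one_diag (R : ℝ) (i j : Fin 5) : qf (VR R) (orb i) (orb j) =
    lev i * (if i = j then 1 else 0) + pot (dV R) (orb i) (orb j) := by
  rw [one_qf, qf_orb, ip_orb]

theorem one_rot (t : ℝ) :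
    ∃ p : ℝ, p ^ 2 * (1 + t ^ 2) = 1 ∧ (1 - p) ≤ t ^ 2 ∧ p ≤ 1 ∧ (p * t) ^ 2 ≤ t ^ 2 := by
  have h0 : 0 < 1 + t ^ 2 := by positivity
  have h1 : (√(1 + t ^ 2))⁻¹ ^ 2 * (1 + t ^ 2) = 1 := by
    rw [inv_pow, Real.sq_sqrt h0.le, inv_mul_cancel₀ h0.ne']
  have h2 : 0 < (√(1 + t ^ 2))⁻¹ := by positivity
  generalize (√(1 + t ^ 2))⁻¹ = p at h1 h2
  have h3 : p ^ 2 ≤ 1 := by nlinarith [mul_nonneg (sq_nonneg p) (sq_nonneg t)]
  have h4 : p ≤ 1 := by nlinarith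
  have h5 : (p * t) ^ 2 ≤ t ^ 2 := by nlinarith [mul_le_mul_of_nonneg_right h3 (sq_nonneg t)]
  exact ⟨p, h1, by nlinarith, h4, h5⟩

theorem one_ineq {γ K c η d t p R : ℝ} (hγ : 0 < γ) (hd0 : 0 ≤ d) (hd1 : d ≤ 1)
    (hp : p ^ 2 * (1 + t ^ 2) = 1)
    (hW : pot (dV R) (orb 0) (orb 0) = 3 / 8 + pot (dV R) (orb 1) (orb 1) - d)
    (ht : pot (dV R) (orb 0) (orb 1) = t * d)
    (h3 : ∀ i j : Fin 5, i ≠ j → 2 ≤ i ∨ 2 ≤ j → pot (dV R) (orb i) (orb j) = 0)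
    (k1 : t ^ 2 + K ≤ η) (k3 : pot (dV R) (orb 4) (orb 4) + c ≤ γ / 2)
    (k5 : ∀ j : Fin 5, j = 1 ∨ j = 2 ∨ j = 3 →
      pot (dV R) (orb 4) (orb 4) + c + K ≤ pot (dV R) (orb j) (orb j)) (a : S e3)
    (h6 : ∑ j, lev j * ip (orb j) a ^ 2 +
      ∑ i, ∑ j, ip (orb i) a * (ip (orb j) a * pot (dV R) (orb i) (orb j)) -
      K * ∑ j, ip (orb j) a ^ 2 + γ / 2 * hn (rem a) -
      1 / 8 * ip (rem a) (rem a) ≤ qf (VR R) a a) :
    (-(1 / 8) + pot (dV R) (orb 1) (orb 1) - d - d * t ^ 2 * p ^ 2 - η) *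
        (p * ip (orb 0) a - p * t * ip (orb 1) a) ^ 2 +
      (-(1 / 8) + pot (dV R) (orb 4) (orb 4) - η) * ip (orb 4) a ^ 2 +
      (-(1 / 8) + pot (dV R) (orb 4) (orb 4) + c) *
        (ip a a - (p * ip (orb 0) a - p * t * ip (orb 1) a) ^ 2 - ip (orb 4) a ^ 2) ≤
      qf (VR R) a a := by
  have h7 := one_alg (B := -(1 / 8) + pot (dV R) (orb 1) (orb 1)) hd0 hd1 hp
    (ip (orb 0) a) (ip (orb 1) a)
  have h8 := ip_rem a
  have h10 : pot (dV R) (orb 1) (orb 0) = t * d := by rw [(fb_dV R).bil_pot.symm, ht]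
  rw [one_lev fun j => ip (orb j) a] at h6
  simp only [Fin.sum_univ_five, h3 0 2 (by decide) (by decide), h3 0 3 (by decide) (by decide),
    h3 0 4 (by decide) (by decide), h3 1 2 (by decide) (by decide), h3 1 3 (by decide) (by decide),
    h3 1 4 (by decide) (by decide), h3 2 0 (by decide) (by decide), h3 2 1 (by decide) (by decide),
    h3 2 3 (by decide) (by decide), h3 2 4 (by decide) (by decide), h3 3 0 (by decide) (by decide),
    h3 3 1 (by decide) (by decide), h3 3 2 (by decide) (by decide), h3 3 4 (by decide) (by decide),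
    h3 4 0 (by decide) (by decide), h3 4 1 (by decide) (by decide), h3 4 2 (by decide) (by decide),
    h3 4 3 (by decide) (by decide), ht, h10, hW] at h6 h8
  have k4 : 0 ≤ ip (orb 0) a ^ 2 + ip (orb 1) a ^ 2 -
      (p * ip (orb 0) a - p * t * ip (orb 1) a) ^ 2 := by
    have e : ip (orb 0) a ^ 2 + ip (orb 1) a ^ 2 - (p * ip (orb 0) a - p * t * ip (orb 1) a) ^ 2 =
        (p * t * ip (orb 0) a + p * ip (orb 1) a) ^ 2 := by
      linear_combination (-(ip (orb 0) a ^ 2 + ip (orb 1) a ^ 2)) * hp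
    rw [e]
    positivity
  have k6 : K ≤ η := by linarith [sq_nonneg t]
  have hA : ip a a = ip (rem a) (rem a) + (ip (orb 0) a ^ 2 + ip (orb 1) a ^ 2 + ip (orb 2) a ^ 2 +
      ip (orb 3) a ^ 2 + ip (orb 4) a ^ 2) := by linarith
  rw [hA]
  linarith [mul_le_mul_of_nonneg_right k1 (sq_nonneg (p * ip (orb 0) a - p * t * ip (orb 1) a)),
    mul_le_mul_of_nonneg_right (k5 1 (by decide)) k4,
    mul_le_mul_of_nonneg_right (k5 2 (by decide)) (sq_nonneg (ip (orb 2) a)),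
    mul_le_mul_of_nonneg_right (k5 3 (by decide)) (sq_nonneg (ip (orb 3) a)),
    mul_le_mul_of_nonneg_right k6 (sq_nonneg (ip (orb 4) a)),
    mul_le_mul_of_nonneg_right k3 (ip_nonneg (rem a)),
    mul_le_mul_of_nonneg_left (ip_le_hn (rem a)) (half_pos hγ).le]

theorem one_t {C R d t : ℝ} (hC : 0 < C) (hR : 0 < R) (hR1 : R ≤ 1) (hs : C * R ≤ 1 / 16)
    (hd : 1 / 4 ≤ d) (h : |t * d| ≤ C * R ^ 2) :
    t ^ 2 ≤ 16 * C ^ 2 * R * R ^ 2 ∧ t ^ 2 ≤ R ^ 2 := by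
  rw [abs_mul, abs_of_pos (show 0 < d by linarith)] at h
  have h1 : |t| ≤ 4 * (C * R ^ 2) := by nlinarith [abs_nonneg t]
  have h2 := pow_le_pow_left₀ (abs_nonneg t) h1 2
  rw [sq_abs] at h2
  have h3 : 16 * (C * R) ^ 2 ≤ 1 := by nlinarith [mul_pos hC hR]
  have h4 := mul_le_mul_of_nonneg_left hR1 (show 0 ≤ 16 * C ^ 2 * R * R ^ 2 by positivity)
  exact ⟨by linarith, by linarith [mul_le_mul_of_nonneg_right h3 (sq_nonneg R)]⟩

theorem one_g {p t : ℝ} (hp : p ^ 2 * (1 + t ^ 2) = 1) :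
    ∃ g : S e3, ip g g = 1 ∧ ip g (orb 4) = 0 ∧ (∀ k x, g.f (rf k x) = g.f x) ∧
      hn (g - orb 0) ≤ 2 * ((1 - p) ^ 2 * hn (orb 0)) + 2 * ((p * t) ^ 2 * hn (orb 1)) ∧
      (∀ a, ip g a = p * ip (orb 0) a - p * t * ip (orb 1) a) ∧
      ∀ R d, pot (dV R) (orb 0) (orb 0) = 3 / 8 + pot (dV R) (orb 1) (orb 1) - d →
        pot (dV R) (orb 0) (orb 1) = t * d →
        qf (VR R) g g = -(1 / 8) + pot (dV R) (orb 1) (orb 1) - d - d * t ^ 2 * p ^ 2 := by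
  have hg : ∀ a, ip (p • orb 0 + (-(p * t)) • orb 1) a =
      p * ip (orb 0) a - p * t * ip (orb 1) a := fun a => by
    rw [bil_ip.add, bil_ip.smul, bil_ip.smul]
    ring
  refine ⟨p • orb 0 + (-(p * t)) • orb 1, ?_, ?_, fun k x => ?_, ?_, hg, fun R d hd ht => ?_⟩
  · rw [bil_ip.comb_sq, ip_orb, ip_orb, ip_orb]
    simp only [if_true, show (0 : Fin 5) ≠ 1 by decide, if_false]
    linear_combination hp
  · rw [hg, ip_orb, ip_orb, if_neg (by decide), if_neg (by decide)]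
    ring
  · simp only [S.add_f, S.smul_f]
    rw [orb_rf, orb_rf, if_neg (by revert k; decide), if_neg (by revert k; decide), one_mul,
      one_mul]
  · have e : p • orb 0 + (-(p * t)) • orb 1 - orb 0 = (p - 1) • orb 0 + (-(p * t)) • orb 1 := by
      rw [sub_smul, one_smul]
      abel
    have h6 := hn_add_le ((p - 1) • orb 0) ((-(p * t)) • orb 1)
    rw [hn_smul, hn_smul] at h6
    rw [e]
    linarith
  · rw [(fb_VR R).bil_qf.comb_sq, one_diag, one_diag, one_diag, ht, hd]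
    simp only [lev, if_true, show (1 : Fin 5) ≠ 0 by decide, show (0 : Fin 5) ≠ 1 by decide,
      if_false]
    linear_combination (-(1 / 8) + pot (dV R) (orb 1) (orb 1) - d) * hp

theorem one_body_of (H : HydGap) (H' : Crystal) :
    ∃ c C : ℝ, 0 < c ∧ 0 < C ∧ ∀ η : ℝ, 0 < η → ∃ R₀ : ℝ, 0 < R₀ ∧ ∀ R : ℝ, 0 < R →
    R ≤ R₀ → ∃ g : S e3, ip g g = 1 ∧ ip g (orb 4) = 0 ∧ (∀ k x, g.f (rf k x) = g.f x) ∧
      hn (g - orb 0) ≤ η ∧ |qf (VR R) g g + 1 / 2| ≤ C * R ^ 2 ∧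
      |qf (VR R) (orb 4) (orb 4) + 1 / 8| ≤ C * R ^ 2 ∧ ∀ a : S e3,
        (qf (VR R) g g - η * R ^ 2) * ip g a ^ 2 +
          (qf (VR R) (orb 4) (orb 4) - η * R ^ 2) * ip (orb 4) a ^ 2 +
          (qf (VR R) (orb 4) (orb 4) + c * R ^ 2) * (ip a a - ip g a ^ 2 - ip (orb 4) a ^ 2) ≤
        qf (VR R) a a := by
  obtain ⟨γ, hγ, hgap⟩ := H
  obtain ⟨c, C, R₀, hc, hC, hR₀, h⟩ := H'
  refine ⟨c / 2, C + 1, by positivity, by positivity, fun η hη => ?_⟩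
  obtain ⟨R₁, hR₁, hs⟩ := Metric.eventually_nhds_iff.1 ((one_sm 1 hR₀).and ((one_sm 1 one_pos).and
    ((one_sm C (show 0 < γ / 4 by positivity)).and
    ((one_sm C (show (0 : ℝ) < 1 / 16 by norm_num)).and
    ((one_sm (16 * C ^ 2 + C / (γ / 20)) hη).and ((one_sm (C / (γ / 20)) (half_pos hc)).and
    ((one_sm (c / 2) (show 0 < γ / 4 by positivity)).and
    (one_sm (2 * (hn (orb 0) + hn (orb 1))) hη))))))))
  refine ⟨R₁ / 2, half_pos hR₁, fun R hR hle => ?_⟩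
  obtain ⟨s1, s2, s3, s4, s5, s6, s7, s8⟩ := hs (y := R)
    (by rw [Real.dist_eq, sub_zero, abs_of_pos hR]; linarith)
  rw [one_mul] at s1 s2
  obtain ⟨h1, h2, h3, h4, h5⟩ := h R hR s1
  have hR2 : R ^ 2 ≤ R := by rw [sq]; exact mul_le_of_le_one_left hR.le s2
  have hC2 : C * R ^ 2 ≤ C * R := mul_le_mul_of_nonneg_left hR2 hC.le
  obtain ⟨a1, a2⟩ := abs_le.1 (h1 0 0)
  obtain ⟨b1, b2⟩ := abs_le.1 (h1 1 1)
  obtain ⟨d, hd⟩ : ∃ d, pot (dV R) (orb 0) (orb 0) = 3 / 8 + pot (dV R) (orb 1) (orb 1) - d :=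
    ⟨_, (sub_sub_cancel _ _).symm⟩
  have hd0 : 1 / 4 ≤ d := by linarith
  have hd1 : d ≤ 1 := by linarith
  obtain ⟨t, ht⟩ : ∃ t, pot (dV R) (orb 0) (orb 1) = t * d :=
    ⟨_, (div_mul_cancel₀ _ (by linarith)).symm⟩
  obtain ⟨t1, t2⟩ := one_t hC hR s2 s4 hd0 (ht ▸ h1 0 1)
  obtain ⟨p, hp, p1, p2, p3⟩ := one_rot t
  obtain ⟨g, g1, g2, g3, g4, g5, g6⟩ := one_g hp
  have hZ : qf (VR R) (orb 4) (orb 4) = -(1 / 8) + pot (dV R) (orb 4) (orb 4) := by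
    rw [one_diag]
    simp [lev]
  have e : C * R ^ 3 / (γ / 20) = C / (γ / 20) * R * R ^ 2 := by ring
  refine ⟨g, g1, g2, g3, ?_, ?_, ?_, fun a => ?_⟩
  · have p4 : (1 - p) ^ 2 ≤ R := by
      rw [sq]
      exact (mul_le_of_le_one_left (by linarith) (by linarith)).trans (by linarith)
    linarith [mul_le_mul_of_nonneg_right p4 (hn_nonneg (orb 0)),
      mul_le_mul_of_nonneg_right (p3.trans (t2.trans hR2)) (hn_nonneg (orb 1))]
  · have h6 : d * (p * t) ^ 2 ≤ 1 * R ^ 2 :=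
      mul_le_mul hd1 (p3.trans t2) (sq_nonneg _) zero_le_one
    have h7 : 0 ≤ d * (p * t) ^ 2 := by positivity
    rw [g6 R d hd ht, abs_le]
    constructor <;> linarith [sq_nonneg R]
  · rw [hZ, abs_le]
    obtain ⟨z1, z2⟩ := abs_le.1 (h1 4 4)
    constructor <;> linarith [sq_nonneg R]
  rw [g6 R d hd ht, hZ, g5]
  refine one_ineq hγ (by linarith) hd1 hp hd ht h3 ?_ ?_ (fun j hj => ?_) a
    (one_low hγ hC hR hgap h4 h5 s3 a)
  · linarith [mul_le_mul_of_nonneg_right s5 (sq_nonneg R)]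
  · linarith [(abs_le.1 (h1 4 4)).2, mul_le_mul_of_nonneg_left hR2 (half_pos hc).le]
  · linarith [h2 j hj, mul_le_mul_of_nonneg_right s6 (sq_nonneg R)]

end Vale.Agent.P363
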