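import Vale.Agent.P363.H.Gap
import Vale.Agent.P363.H.Cry
import Vale.Agent.P363.H.One

/-!
# P363 H/Main

Block H (sub-lead helper38), see `notes/P363.md`.
-/

open MeasureTheory Filter Topology Set
open scoped ContDiff

set_option linter.unusedSectionVars false

noncomputable section

namespace Vale.Agent.P363

theorem hyd_gap : ∃ γ : ℝ, 0 < γ ∧ ∀ a : S e3, (∀ j, ip (orb j) a = 0) →
    γ * hn a ≤ qf V0 a a + 1 / 8 * ip a a := hyd_gap'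

theorem hyd_lower : ∃ γ : ℝ, 0 < γ ∧ ∀ a : S e3,
    γ * hn (rem a) ≤ qf V0 a a + 1 / 8 * ip a a + 3 / 8 * ip (orb 0) a ^ 2 := hyd_lower'

theorem crystal : ∃ c C R₀ : ℝ, 0 < c ∧ 0 < C ∧ 0 < R₀ ∧ ∀ R : ℝ, 0 < R → R ≤ R₀ →
    (∀ i j, |pot (dV R) (orb i) (orb j)| ≤ C * R ^ 2) ∧
    (∀ j : Fin 5, j = 1 ∨ j = 2 ∨ j = 3 →
      pot (dV R) (orb 4) (orb 4) + c * R ^ 2 ≤ pot (dV R) (orb j) (orb j)) ∧
    (∀ i j : Fin 5, i ≠ j → 2 ≤ i ∨ 2 ≤ j → pot (dV R) (orb i) (orb j) = 0) ∧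
    (∀ j b, pot (dV R) (orb j) b ^ 2 ≤ C * R ^ 3 * hn b) ∧
    ∀ b : S e3, |pot (dV R) b b| ≤ C * R * hn b := crystal_main

theorem one_body : ∃ c C : ℝ, 0 < c ∧ 0 < C ∧ ∀ η : ℝ, 0 < η → ∃ R₀ : ℝ, 0 < R₀ ∧ ∀ R : ℝ, 0 < R →
    R ≤ R₀ → ∃ g : S e3, ip g g = 1 ∧ ip g (orb 4) = 0 ∧ (∀ k x, g.f (rf k x) = g.f x) ∧
      hn (g - orb 0) ≤ η ∧ |qf (VR R) g g + 1 / 2| ≤ C * R ^ 2 ∧
      |qf (VR R) (orb 4) (orb 4) + 1 / 8| ≤ C * R ^ 2 ∧ ∀ a : S e3,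
        (qf (VR R) g g - η * R ^ 2) * ip g a ^ 2 +
          (qf (VR R) (orb 4) (orb 4) - η * R ^ 2) * ip (orb 4) a ^ 2 +
          (qf (VR R) (orb 4) (orb 4) + c * R ^ 2) * (ip a a - ip g a ^ 2 - ip (orb 4) a ^ 2) ≤
        qf (VR R) a a := one_body_of hyd_gap crystal

theorem one_body_rem : ∃ γ C R₀ : ℝ, 0 < γ ∧ 0 < C ∧ 0 < R₀ ∧ ∀ R : ℝ, 0 < R → R ≤ R₀ → ∀ a : S e3,
    γ * hn (rem a) ≤
      qf (VR R) a a + (1 / 8 + C * R ^ 2) * ip a a + 3 / 8 * ip (orb 0) a ^ 2 :=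
  one_body_rem_of hyd_gap crystal

end Vale.Agent.P363
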