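import Vale.Agent.P363.H.Defs
import Vale.Agent.P363.A.Log

/-!
# P363 H/Nodal  (TASK)

`HSmall.approx`: `tendsto_posPart` for `w` and for `-w`; `u m = h m - h' m` vanishes where `|w| ≤ 1/(m+1)`; the limit `p - p'` equals `w` (`hn_congr`, `hn_sub_le`/`hn_add_le`).
`nod_ge`: `Bil.tendsto` for `ip` (`abs_ip_le`) and `qf V0` (`fb_V0.abs_qf_le`), `le_of_tendsto_of_tendsto'`.
`nod_sign`: `exists_pos` gives `p`, `m`; `p` is small; `qf V0 p p = qf V0 a p = μ ip a p = μ ip p p`; `Q = qf V0 - E ip ≥ 0` on `smallSub d` (`nod_ge`), `Q p p ≤ 0`, so `Q p η = 0` for small `η`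
(`Bil.null_on`, `Bil.minus`); a function vanishing off `O` is `HVan d δ`.  `pos_of_super` with `U = V0 - E` (`qf_sub_const`, `FB.sub`, `fb_const`).
`nod_nosign`: both alternatives fail on a nonempty open subset of `O` (`IsOpen.measure_pos`, `Measure.eventually...`; e.g. `ae_iff`/`measure_mono`).
-/

open MeasureTheory Filter Topology Set
open scoped ContDiff

set_option linter.unusedSectionVars false

noncomputable section

namespace Vale.Agent.P363

variable {d : E3 → ℝ} {E μ δ : ℝ}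

theorem nodal_open {P : E3 → Prop} {U : Set E3} (hU : IsOpen U) {x : E3} (hx : x ∈ U)
    (h : ∀ᵐ z, P z) : ∃ z ∈ U, P z := by
  by_contra hne
  push Not at hne
  have h1 : volume U = 0 := measure_mono_null (fun z hz => hne z hz) (ae_iff.1 h)
  exact (hU.measure_pos volume ⟨x, hx⟩).ne' h1

theorem HVan.small {η : S e3} (hδ : 0 < δ) (h : HVan d δ η) : HSmall d η := by
  intro ε hε
  refine ⟨δ, hδ, ?_⟩
  filter_upwards [h] with x hx h1
  rw [hx h1, abs_zero]
  exact hε.le
theorem HSmall.approx {w : S e3} (h : HSmall d w) : ∃ u : ℕ → S e3,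
    (∀ m, ∃ δ : ℝ, 0 < δ ∧ HVan d δ (u m)) ∧ Tendsto (fun m => hn (u m - w)) atTop (𝓝 0) := by
  obtain ⟨u, p, hp, hu, hl⟩ := tendsto_posPart w
  obtain ⟨v, q, hq, hv, hl'⟩ := tendsto_posPart (-w)
  refine ⟨fun m => u m - v m, fun m => ?_, ?_⟩
  · obtain ⟨δ, hδ, h1⟩ := h (1 / ((m : ℝ) + 1)) (by positivity)
    refine ⟨δ, hδ, ?_⟩
    filter_upwards [h1] with x hx h2
    have h3 := abs_le.1 (hx h2)
    rw [S.sub_f, hu, hv, S.neg_f, max_eq_right (by linarith [h3.2]),
      max_eq_right (by linarith [h3.1]), sub_zero]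
  · have key : ∀ m, hn (u m - v m - w) ≤ 2 * hn (u m - p) + 2 * hn (v m - q) := by
      intro m
      have e1 : hn (u m - v m - w) = hn ((u m - p) - (v m - q)) := by
        apply hn_congr
        refine Eventually.of_forall fun x => ?_
        simp only [S.sub_f, hp, hq, S.neg_f]
        rcases le_total (w.f x) 0 with h0 | h0
        · rw [max_eq_right h0, max_eq_left (by linarith)]; ring
        · rw [max_eq_left h0, max_eq_right (by linarith)]; ring
      rw [e1]
      exact hn_sub_le _ _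
    have lim : Tendsto (fun m => 2 * hn (u m - p) + 2 * hn (v m - q)) atTop (𝓝 0) := by
      simpa using (hl.const_mul 2).add (hl'.const_mul 2)
    exact squeeze_zero (fun m => hn_nonneg _) key lim
theorem nod_ge (hD : HDir d E) {w : S e3} (h : HSmall d w) : E * ip w w ≤ qf V0 w w := by
  obtain ⟨u, hu, hl⟩ := h.approx
  obtain ⟨C, -, hC⟩ := fb_V0.abs_qf_le
  have l1 := bil_ip.tendsto abs_ip_le hl hl
  have l2 := fb_V0.bil_qf.tendsto hC hl hl
  refine le_of_tendsto_of_tendsto' (l1.const_mul E) l2 fun m => ?_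
  obtain ⟨δ, hδ, h1⟩ := hu m
  exact hD δ hδ _ h1
theorem nod_sign (hD : HDir d E) {a : S e3} (h : HSmall d a) (he : HEig μ a) (hμ : μ ≤ E)
    {O : Set E3} (hO : IsOpen O) (hc : Convex ℝ O) (hδ : 0 < δ) (hd : ∀ x ∈ O, δ < |d x|) :
    (∀ᵐ x, x ∈ O → a.f x ≤ 0) ∨ ∀ᵐ x, x ∈ O → 0 < a.f x := by
  obtain ⟨p, m, hp, -, h1, h2, -⟩ := exists_pos a
  have ps : HSmall d p := by
    intro ε hε
    obtain ⟨δ', hδ', h3⟩ := h ε hε
    refine ⟨δ', hδ', ?_⟩
    filter_upwards [h3] with x hx h4
    have h5 := abs_le.1 (hx h4)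
    rw [hp, abs_of_nonneg (le_max_right _ _)]
    exact max_le h5.2 hε.le
  have e1 : qf V0 a p = qf V0 p p := by
    rw [h1 V0 p fb_V0, fb_V0.bil_qf.symm m p, h2, sub_zero]
  have e2 : ip a p = ip p p := by
    unfold ip
    refine integral_congr_ae (Eventually.of_forall fun x => ?_)
    simp only [hp]
    rcases le_total (a.f x) 0 with h0 | h0
    · rw [max_eq_right h0]; ring
    · rw [max_eq_left h0]
  have hQ := fb_V0.bil_qf.minus bil_ip E
  have hz : qf V0 p p - E * ip p p ≤ 0 := by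
    rw [← e1, he p, e2]
    nlinarith [ip_nonneg p]
  have hn0 : ∀ η : S e3, HSmall d η → qf V0 p η - E * ip p η = 0 := fun η hη =>
    hQ.null_on (smallSub d) (fun b hb => sub_nonneg.2 (nod_ge hD hb)) ps hz hη
  have := pos_of_super (fb_V0.sub (fb_const E)) (a := p)
    (Eventually.of_forall fun x => by rw [hp]; exact le_max_right _ _) hO hc (fun η _ hη => by
      rw [qf_sub_const fb_V0, hn0 η]
      refine HVan.small hδ ?_
      filter_upwards [hη] with x hx h3
      exact hx fun h4 => absurd (hd x h4) (not_lt.2 h3))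
  rcases this with h3 | h3
  · left
    filter_upwards [h3] with x hx h4
    have := hx h4
    rw [hp] at this
    exact this ▸ le_max_left _ _
  · right
    filter_upwards [h3] with x hx h4
    have := hx h4
    rw [hp] at this
    rcases lt_max_iff.1 this with h5 | h5
    · exact h5
    · exact absurd h5 (lt_irrefl _)
theorem nod_nosign (hD : HDir d E) {a : S e3} (h : HSmall d a) (he : HEig μ a) (hμ : μ ≤ E)
    {O : Set E3} (hO : IsOpen O) (hc : Convex ℝ O) (hδ : 0 < δ) (hd : ∀ x ∈ O, δ < |d x|)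
    {F : E3 → ℝ} (hF : Continuous F) (hf : a.f =ᵐ[volume] F) {x y : E3} (hx : x ∈ O) (hy : y ∈ O)
    (h1 : 0 < F x) (h2 : F y < 0) : False := by
  rcases nod_sign hD h he hμ hO hc hδ hd with h3 | h3
  · obtain ⟨z, hz, h4, h5⟩ := nodal_open (hO.inter (isOpen_lt continuous_const hF))
      (show x ∈ O ∩ {z | 0 < F z} from ⟨hx, h1⟩) (h3.and hf)
    have := h4 hz.1
    have h6 : 0 < F z := hz.2
    linarith
  · obtain ⟨z, hz, h4, h5⟩ := nodal_open (hO.inter (isOpen_lt hF continuous_const))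
      (show y ∈ O ∩ {z | F z < 0} from ⟨hy, h2⟩) (h3.and hf)
    have := h4 hz.1
    have h6 : F z < 0 := hz.2
    linarith

end Vale.Agent.P363
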