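import Vale.Agent.P363.H.DirP
import Vale.Agent.P363.H.Nodal
import Vale.Agent.P363.H.Eig

/-!
# P363 H/Odd  (TASK)

`F` from `HEig.cont`.  `F ∘ rf k = -F` everywhere (a.e. by `hf`, the measure preserving `rf k` (`exists_sym_rf`, `Sym.mp`, `QuasiMeasurePreserving.ae_eq_comp` or `.ae`), then `Continuous.ae_eq_iff_eq`);
on the plane `rf k x = x`, so `F = 0` there and `a` is small (`small_plane`).  For `x, y` with `x k, y k > 0` use `nod_nosign` with `O = {z | δ < z k}`, `δ = min (x k) (y k) / 2` (`dir_plane`):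
`F ≥ 0` on the half space or `F ≤ 0` on it.  Then `G x = orb x * F x = nrm * (x k * exp (-‖x‖/2)) * F x` has one sign everywhere (`rf_apply`, oddness), is continuous and integrable
(`S.int_mul`, `Integrable.congr`) with integral `ip (orb _) a = 0`; `zero_of_sign`, `ae_coord_ne k 0`, `nrm_pos`, `raw_p`.
-/

open MeasureTheory Filter Topology Set
open scoped ContDiff

set_option linter.unusedSectionVars false

noncomputable section

namespace Vale.Agent.P363

theorem eig_odd_zero {μ : ℝ} {a : S e3} (he : HEig μ a) (hμ : μ ≤ -(1 / 8)) (k : Fin 3)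
    (ho : ∀ᵐ x, a.f (rf k x) = -a.f x) (h0 : ip (orb (k.addNat 2)) a = 0) : ∀ᵐ x, a.f x = 0 := by
  obtain ⟨F, hFu, hf⟩ := he.cont
  have hF := hFu.continuous
  obtain ⟨T, hT⟩ := exists_sym_rf k
  obtain ⟨L, hL⟩ := exists_rfL k
  have hrc : Continuous (rf k) := L.continuous.congr hL
  have hodd : ∀ x, F (rf k x) = -F x := by
    have h1 : (fun x => F (rf k x)) =ᵐ[volume] fun x => -F x := by
      filter_upwards [ho, hf, hT.mp.quasiMeasurePreserving.ae hf] with x h1 h2 h3
      rw [← h3, h1, h2]
    exact congrFun (((hF.comp hrc).ae_eq_iff_eq volume hF.neg).1 h1)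
  have hpl : ∀ x : E3, x k = 0 → F x = 0 := fun x hx => by
    have h1 := hodd x
    have h2 : rf k x = x := by simp [rf, hx]
    rw [h2] at h1
    linarith
  have hsm := small_plane hFu hf k hpl
  have hns : ∀ x y : E3, 0 < x k → 0 < y k → 0 < F x → F y < 0 → False := by
    intro x y hx hy h1 h2
    have hm : 0 < min (x k) (y k) := lt_min hx hy
    refine nod_nosign (dir_plane k) hsm he hμ (O := {z : E3 | min (x k) (y k) / 2 < z k})
      (isOpen_lt continuous_const (contDiff_coord k).continuous)
      (convex_halfSpace_gt (EuclideanSpace.proj k : E3 →L[ℝ] ℝ).toLinearMap.isLinear _)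
      (half_pos hm) (fun z hz => lt_of_lt_of_le hz (le_abs_self _)) hF hf (x := x) (y := y) ?_ ?_ h1 h2
    · change min (x k) (y k) / 2 < x k
      linarith [min_le_left (x k) (y k)]
    · change min (x k) (y k) / 2 < y k
      linarith [min_le_right (x k) (y k)]
  have hrk : ∀ x : E3, rf k x k = -x k := fun x => by rw [rf_apply, if_pos rfl]
  have key : ∀ s : ℝ, (∀ x : E3, 0 < x k → 0 ≤ s * F x) → ∀ x : E3, 0 ≤ s * (x k * F x) := by
    intro s hs x
    rcases lt_trichotomy (x k) 0 with h | h | h
    · have h1 := hs (rf k x) (by rw [hrk]; linarith)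
      rw [hodd] at h1
      nlinarith
    · simp [h]
    · have h1 := hs x h
      nlinarith
  have hsg : (∀ x : E3, 0 ≤ x k * F x) ∨ ∀ x : E3, x k * F x ≤ 0 := by
    by_cases h : ∃ x : E3, 0 < x k ∧ 0 < F x
    · obtain ⟨x, hx, h1⟩ := h
      refine Or.inl fun y => ?_
      have := key 1 (fun z hz => by
        by_contra hn
        exact hns x z hx hz h1 (by linarith)) y
      linarith
    · push Not at h
      refine Or.inr fun y => ?_
      have := key (-1) (fun z hz => by linarith [h z hz]) y
      linarith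
  have hG : ∀ x : E3, (orb (k.addNat 2)).f x * F x =
      nrm (k.addNat 2) * Real.exp (-‖x‖ / 2) * (x k * F x) := fun x => by
    rw [orb_f, raw_p]
    ring
  have hp : ∀ x : E3, 0 < nrm (k.addNat 2) * Real.exp (-‖x‖ / 2) := fun x =>
    mul_pos (nrm_pos _) (Real.exp_pos _)
  have hae : (fun x => (orb (k.addNat 2)).f x * a.f x) =ᵐ[volume]
      fun x => (orb (k.addNat 2)).f x * F x := by
    filter_upwards [hf] with x hx
    rw [hx]
  have hz := zero_of_sign (G := fun x => (orb (k.addNat 2)).f x * F x)
    ((continuous_const.mul (continuous_raw _)).mul hF) ((S.int_mul _ a).congr hae)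
    (hsg.imp (fun h x => by rw [hG]; exact mul_nonneg (hp x).le (h x))
      fun h x => by rw [hG]; exact mul_nonpos_of_nonneg_of_nonpos (hp x).le (h x))
    (by rw [← integral_congr_ae hae]; exact h0)
  filter_upwards [hf, ae_coord_ne k 0] with x h1 h2
  have h3 := hz x
  rw [hG] at h3
  rw [h1]
  exact (mul_eq_zero.1 ((mul_eq_zero.1 h3).resolve_left (hp x).ne')).resolve_left h2

end Vale.Agent.P363
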