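import Vale.Agent.P363.H.OrbB

/-!
# P363 H/Orb  (TASK)

`orb_mem`: replace `‖x‖` by `√(‖x‖² + ε²)` (smooth, `of_C1`) and let `ε → 0` with `mem_of_dom` (everything is dominated by `C e^{-‖x‖/4}`; convergence off the origin).
`qf_orb`: enough for `Sm b` (`S.approx`, `Bil.tendsto`).  Put `X k = fderiv (raw j) · (e3 k)`; off the origin `∑ₖ ∂ₖ X k = 2 (V0 - lev j) raw j`.  Either test with `(1 - β(‖x‖/ε)) b` and let `ε → 0`
(boundary term `O(ε²)`), or regularise the norm as above.  Orthogonality: `0 ⟂ 1` from `qf_orb` (different levels), the rest by parity (`Sym.qf_odd`).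
-/

open MeasureTheory Filter Topology Set
open scoped ContDiff

set_option linter.unusedSectionVars false

noncomputable section

namespace Vale.Agent.P363

theorem orb_mem (j : Fin 5) :
    ((fun x => nrm j * raw j x), fun k x => nrm j * fderiv ℝ (raw j) x (e3 k)) ∈ Sob e3 := by
  exact (Sob e3).smul_mem (nrm j) (orbB_mem j)


/-- The normalised hydrogen orbitals. -/
def orb (j : Fin 5) : S e3 := S.of (orb_mem j)

/-- The component orthogonal to the five orbitals. -/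
def rem (a : S e3) : S e3 := a - ∑ j, ip (orb j) a • orb j

/-- The perturbation caused by splitting the nucleus. -/
def dV (R : ℝ) (x : E3) : ℝ := VR R x - V0 x

theorem orb_f (j : Fin 5) (x : E3) : (orb j).f x = nrm j * raw j x := rfl
theorem orb_g (j : Fin 5) (k : Fin 3) (x : E3) :
    (orb j).g k x = nrm j * fderiv ℝ (raw j) x (e3 k) := rfl
theorem raw_zero (x : E3) : raw 0 x = Real.exp (-‖x‖) := rfl
theorem raw_one (x : E3) : raw 1 x = (1 - ‖x‖ / 2) * Real.exp (-‖x‖ / 2) := rfl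
theorem raw_p (k : Fin 3) (x : E3) : raw (k.addNat 2) x = x k * Real.exp (-‖x‖ / 2) := by
  exact orbB_p k x

theorem continuous_raw (j : Fin 5) : Continuous (raw j) := by
  exact (orbB_facts j).1

theorem nrm_pos (j : Fin 5) : 0 < nrm j := by
  refine inv_pos.2 (Real.sqrt_pos.2 ?_)
  obtain ⟨x, hx⟩ : ∃ x, raw j x ≠ 0 := by
    rcases orbB_cases j with rfl | rfl | ⟨l, rfl⟩
    · exact ⟨0, by simp [raw_zero]⟩
    · exact ⟨0, by simp [raw_one]⟩
    · exact ⟨e3 l, by simp [raw_p, e3_apply]⟩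
  exact integral_pos_of_integrable_nonneg_nonzero (x := x) ((continuous_raw j).pow 2)
    (S.of (orbB_mem j)).int_sq (fun _ => sq_nonneg _) (pow_ne_zero 2 hx)

theorem nrm_p (k : Fin 3) : nrm (k.addNat 2) = nrm 4 := by
  let L : E3 ≃ₗᵢ[ℝ] E3 := LinearIsometryEquiv.piLpCongrLeft 2 ℝ ℝ (Equiv.swap k 2)
  obtain ⟨T, hT⟩ := exists_sym_rot L
  have := hT.integral fun x => raw 4 x ^ 2
  unfold nrm
  rw [← this]
  congr 3
  funext x
  rw [raw_p, show (4 : Fin 5) = (2 : Fin 3).addNat 2 from rfl, raw_p, L.norm_map]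
  simp [L]

theorem abs_orb_le : ∃ C : ℝ, 0 < C ∧ ∀ j x, |(orb j).f x| ≤ C * Real.exp (-‖x‖ / 4) ∧
    ∀ k, |(orb j).g k x| ≤ C * Real.exp (-‖x‖ / 4) := by
  refine ⟨∑ j, nrm j * (4 + ‖fderiv ℝ (raw j) 0‖), Finset.sum_pos (fun j _ => ?_)
    Finset.univ_nonempty, fun j x => ?_⟩
  · have := nrm_pos j
    positivity
  have h0 := nrm_pos j
  have h1 : nrm j * (4 + ‖fderiv ℝ (raw j) 0‖) ≤ ∑ j, nrm j * (4 + ‖fderiv ℝ (raw j) 0‖) :=
    Finset.single_le_sum (f := fun j => nrm j * (4 + ‖fderiv ℝ (raw j) 0‖))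
      (fun j _ => by have := nrm_pos j; positivity) (Finset.mem_univ j)
  have key : ∀ t, |t| ≤ (4 + ‖fderiv ℝ (raw j) 0‖) * Real.exp (-‖x‖ / 4) → |nrm j * t| ≤
      (∑ j, nrm j * (4 + ‖fderiv ℝ (raw j) 0‖)) * Real.exp (-‖x‖ / 4) := fun t ht => by
    rw [abs_mul, abs_of_pos h0]
    refine (mul_le_mul_of_nonneg_left ht h0.le).trans ?_
    rw [← mul_assoc]
    exact mul_le_mul_of_nonneg_right h1 (Real.exp_pos _).le
  obtain ⟨-, -, -, h4, h5⟩ := orbB_facts j
  have h6 : 4 * Real.exp (-‖x‖ / 4) ≤ (4 + ‖fderiv ℝ (raw j) 0‖) * Real.exp (-‖x‖ / 4) :=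
    mul_le_mul_of_nonneg_right (le_add_of_nonneg_right (norm_nonneg _)) (Real.exp_pos _).le
  refine ⟨key _ ((h4 x).trans h6), fun k => key _ ?_⟩
  by_cases hx : x = 0
  · have := (fderiv ℝ (raw j) 0).le_opNorm (e3 k)
    rw [norm_e3, mul_one, Real.norm_eq_abs] at this
    rw [hx, norm_zero, neg_zero, zero_div, Real.exp_zero]
    linarith
  · exact (h5 x k hx).trans h6

theorem orb_rf (j : Fin 5) (k : Fin 3) (x : E3) :
    (orb j).f (rf k x) = (if j = k.addNat 2 then -1 else 1) * (orb j).f x := by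
  rw [orb_f, orb_f]
  rcases orbB_cases j with rfl | rfl | ⟨l, rfl⟩
  · rw [if_neg (by revert k; decide), raw_zero, raw_zero, norm_rf, one_mul]
  · rw [if_neg (by revert k; decide), raw_one, raw_one, norm_rf, one_mul]
  · rw [raw_p, raw_p, norm_rf, rf_apply]
    by_cases c : l = k
    · simp [c]
    · rw [if_neg c, if_neg (by revert l k; decide), one_mul]

theorem qf_orb (j : Fin 5) (b : S e3) : qf V0 (orb j) b = lev j * ip (orb j) b := by
  have e : orb j = nrm j • S.of (orbB_mem j) := rfl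
  rw [e, fb_V0.bil_qf.smul, bil_ip.smul, orbB_qf]
  ring

theorem ip_orb (i j : Fin 5) : ip (orb i) (orb j) = if i = j then 1 else 0 := by
  have odd : ∀ (i : Fin 5) (k : Fin 3), i ≠ k.addNat 2 → ip (orb i) (orb (k.addNat 2)) = 0 := by
    intro i k hi
    obtain ⟨T, hT⟩ := exists_sym_rf k
    refine hT.integral_odd (ae_of_all _ fun x => ?_)
    rw [orb_rf, orb_rf, if_neg hi, if_pos rfl]
    ring
  have h01 : ip (orb 0) (orb 1) = 0 := by
    have h1 := qf_orb 0 (orb 1)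
    have h2 := qf_orb 1 (orb 0)
    rw [fb_V0.bil_qf.symm, h1, bil_ip.symm (orb 1)] at h2
    simp only [lev, if_true, show (1 : Fin 5) ≠ 0 by decide, if_false] at h2
    linarith
  split_ifs with c
  · rw [c, ip_self]
    have h0 := nrm_pos j
    simp only [orb_f, mul_pow]
    rw [integral_const_mul]
    have h1 : 0 < ∫ x, raw j x ^ 2 := Real.sqrt_pos.1 (inv_pos.1 h0)
    rw [nrm, inv_pow, Real.sq_sqrt h1.le, inv_mul_cancel₀ h1.ne']
  rcases orbB_cases j with rfl | rfl | ⟨l, rfl⟩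
  · rcases orbB_cases i with rfl | rfl | ⟨l, rfl⟩
    · exact absurd rfl c
    · rw [bil_ip.symm, h01]
    · rw [bil_ip.symm, odd _ _ (Ne.symm c)]
  · rcases orbB_cases i with rfl | rfl | ⟨l, rfl⟩
    · exact h01
    · exact absurd rfl c
    · rw [bil_ip.symm, odd _ _ (Ne.symm c)]
  · exact odd _ _ c

theorem fb_dV (R : ℝ) : FB e3 (dV R) := by
  exact (fb_VR R).sub fb_V0

theorem ip_orb_rem (j : Fin 5) (a : S e3) : ip (orb j) (rem a) = 0 := by
  exact (bil_ip.bessel ip_orb a).1 j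

theorem ip_rem (a : S e3) : ip (rem a) (rem a) = ip a a - ∑ j, ip (orb j) a ^ 2 := by
  exact (bil_ip.bessel ip_orb a).2

theorem qf_rem (a : S e3) :
    qf V0 (rem a) (rem a) = qf V0 a a - ∑ j, lev j * ip (orb j) a ^ 2 := by
  have hB := fb_V0.bil_qf
  have h1 : ∀ b, qf V0 (rem a) b = qf V0 a b - ∑ j, ip (orb j) a * (lev j * ip (orb j) b) :=
    fun b => by simp only [rem, hB.sub_left, hB.sum_left, hB.smul, qf_orb]
  rw [h1, hB.symm a, h1]
  simp only [ip_orb_rem, mul_zero, Finset.sum_const_zero, sub_zero]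
  congr 1
  exact Finset.sum_congr rfl fun j _ => by ring


end Vale.Agent.P363
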