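import Vale.Agent.P363.A.Hardy
import Vale.Agent.P363.A.Iso

/-!
# P363 H/OrbB: integration by parts off the origin, derivatives of the orbitals
-/

open MeasureTheory Filter Topology Set
open scoped ContDiff

noncomputable section

namespace Vale.Agent.P363

theorem orbB_zero {G : E3 → ℝ} (h1 : ContDiff ℝ 1 G) (h2 : HasCompactSupport G) (w : E3) :
    Integrable (fun x => fderiv ℝ G x w) ∧ ∫ x, fderiv ℝ G x w = 0 := by
  have i1 : Integrable (fun x => fderiv ℝ G x w) :=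
    ((h1.continuous_fderiv one_ne_zero).clm_apply continuous_const).integrable_of_hasCompactSupport
      (h2.fderiv_apply ℝ w)
  have := integral_mul_fderiv_eq_neg_fderiv_mul_of_integrable (μ := volume) (v := w)
    (f := fun _ : E3 => (1 : ℝ)) (g := G) (by simp) (by simpa using i1)
    (by simpa using h1.continuous.integrable_of_hasCompactSupport h2)
    (fun _ _ => differentiableAt_const _) (fun x _ => h1.differentiable one_ne_zero x)
  exact ⟨i1, by simpa using this⟩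

theorem orbB_div (s : Finset (Fin 3)) {X : Fin 3 → E3 → ℝ} {D φ : E3 → ℝ}
    (hX : ∀ k x, x ≠ 0 → ContDiffAt ℝ 1 (X k) x) (mX : ∀ k, MemLp (X k) 2 volume)
    (hD : ∀ x, x ≠ 0 → ∑ k ∈ s, fderiv ℝ (X k) x (e3 k) = D x) (mD : MemLp D 2 volume)
    (h1 : ContDiff ℝ 1 φ) (h2 : HasCompactSupport φ) :
    ∫ x, ∑ k ∈ s, X k x * fderiv ℝ φ x (e3 k) = -∫ x, D x * φ x := by
  obtain ⟨K, hK, hc⟩ := exists_cut
  choose β b1 b2 b3 b4 b5 b6 b7 b8 b9 b10 b11 b12 using fun m : ℕ =>
    hc (1 / ((m : ℝ) + 1)) (2 * (1 / ((m : ℝ) + 1))) (by positivity)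
      (by linarith [show 0 < 1 / ((m : ℝ) + 1) by positivity])
  let b : S e3 := S.of (of_C1c h1 h2)
  have i1 : Integrable fun x => D x * φ x := mD.integrable_mul b.mem
  have i2 : Integrable fun x => ∑ k ∈ s, X k x * fderiv ℝ φ x (e3 k) :=
    integrable_finsetSum _ fun k _ => (mX k).integrable_mul (b.gmem k)
  have i3 : ∀ k, Integrable fun x => X k x * (1 / ‖x‖ * φ x) := fun k =>
    (mX k).integrable_mul (by simpa [b] using memLp_coul b 0)
  have hG : ∀ m k, ContDiff ℝ 1 fun x => X k x * (φ x * (1 - β m ‖x‖)) := fun m k => by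
    refine contDiff_iff_contDiffAt.2 fun x => ?_
    by_cases hx : x = 0
    · refine (contDiffAt_const (c := (0 : ℝ))).congr_of_eventuallyEq ?_
      filter_upwards [Metric.ball_mem_nhds x (show 0 < 1 / ((m : ℝ) + 1) by positivity)] with y hy
      rw [hx, mem_ball_zero_iff] at hy
      rw [b4 m _ hy.le]
      simp
    · exact (hX k x hx).mul (h1.contDiffAt.mul
        (contDiffAt_const.sub ((b9 m).of_le (by simp)).contDiffAt))
  have hz := fun m k => orbB_zero (hG m k) (h2.mul_right.mul_left) (e3 k)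
  have hf : ∀ m x, x ≠ 0 → ∑ k ∈ s, fderiv ℝ (fun x => X k x * (φ x * (1 - β m ‖x‖))) x (e3 k) =
      (1 - β m ‖x‖) * (D x * φ x + ∑ k ∈ s, X k x * fderiv ℝ φ x (e3 k)) -
        ∑ k ∈ s, deriv (β m) ‖x‖ * x k * (X k x * (1 / ‖x‖ * φ x)) := fun m x hx => by
    rw [← hD x hx, Finset.sum_mul, ← Finset.sum_add_distrib, Finset.mul_sum,
      ← Finset.sum_sub_distrib]
    refine Finset.sum_congr rfl fun k _ => ?_
    have d1 := ((hX k x hx).differentiableAt one_ne_zero).hasFDerivAt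
    have d2 := (h1.differentiable one_ne_zero x).hasFDerivAt
    have d3 := ((b9 m).differentiable (by simp) x).hasFDerivAt
    have d4 := (d1.mul (d2.mul (d3.const_sub 1))).fderiv
    rw [show (fun x => X k x * (φ x * (1 - β m ‖x‖))) = X k * (φ * fun x => 1 - β m ‖x‖) from rfl,
      d4]
    simp only [add_apply, smul_apply,
      neg_apply, smul_eq_mul, b12, Pi.mul_apply]
    ring
  have n0 : ∀ᵐ x : E3, x ≠ 0 := by
    filter_upwards [ae_norm_ne 0] with x hx using norm_ne_zero_iff.1 hx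
  have key := tendsto_integral_of_dominated_convergence (μ := volume)
    (F := fun m x => ∑ k ∈ s, fderiv ℝ (fun x => X k x * (φ x * (1 - β m ‖x‖))) x (e3 k))
    (f := fun x => D x * φ x + ∑ k ∈ s, X k x * fderiv ℝ φ x (e3 k))
    (fun x => |D x * φ x + ∑ k ∈ s, X k x * fderiv ℝ φ x (e3 k)| +
      ∑ k ∈ s, 2 * K * |X k x * (1 / ‖x‖ * φ x)|)
    (fun m => (integrable_finsetSum _ fun k _ => (hz m k).1).aestronglyMeasurable)
    ((i1.add i2).abs.add (integrable_finsetSum _ fun k _ => (i3 k).abs.const_mul _))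
    (fun m => by
      filter_upwards [n0] with x hx
      rw [hf m x hx, Real.norm_eq_abs]
      refine (abs_sub _ _).trans (add_le_add ?_ ((Finset.abs_sum_le_sum_abs _ _).trans
        (Finset.sum_le_sum fun k _ => ?_)))
      · rw [abs_mul]
        exact mul_le_of_le_one_left (abs_nonneg _)
          (abs_le.2 ⟨by linarith [(b3 m ‖x‖).2], by linarith [(b3 m ‖x‖).1]⟩)
      · rw [abs_mul]
        refine mul_le_mul_of_nonneg_right ?_ (abs_nonneg _)
        rcases le_total (2 * (1 / ((m : ℝ) + 1))) ‖x‖ with c | c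
        · rw [(b8 m _ (Or.inr c)).1, zero_mul, abs_zero]
          positivity
        · have := b6 m ‖x‖
          rw [show 2 * (1 / ((m : ℝ) + 1)) - 1 / ((m : ℝ) + 1) = 1 / ((m : ℝ) + 1) by ring] at this
          rw [abs_mul]
          refine (mul_le_mul this ((abs_coord_le x k).trans c) (abs_nonneg _)
            (by positivity)).trans (le_of_eq ?_)
          field_simp)
    (by
      filter_upwards [n0] with x hx
      have := tendsto_one_div_add_atTop_nhds_zero_nat (𝕜 := ℝ).const_mul 2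
      rw [mul_zero] at this
      refine tendsto_const_nhds.congr' ?_
      filter_upwards [this.eventually_le_const (norm_pos_iff.2 hx)] with m hm
      rw [hf m x hx, b5 m _ hm, (b8 m _ (Or.inr hm)).1]
      simp)
  have e0 : ∀ m, ∫ x, ∑ k ∈ s, fderiv ℝ (fun x => X k x * (φ x * (1 - β m ‖x‖))) x (e3 k) = 0 :=
    fun m => by
      rw [integral_finsetSum _ fun k _ => (hz m k).1]
      exact Finset.sum_eq_zero fun k _ => (hz m k).2
  simp only [e0] at key
  have := tendsto_nhds_unique key tendsto_const_nhds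
  rw [integral_add i1 i2] at this
  linarith

theorem orbB_d1 {P : E3 → ℝ} {P' : E3 →L[ℝ] ℝ} {h g : ℝ → ℝ} (hP : ∀ x, HasFDerivAt P P' x)
    (hh : ∀ r, 0 < r → HasDerivAt h (r * g r) r) {x : E3} (hx : x ≠ 0) (k : Fin 3) :
    fderiv ℝ (fun y => P y * h ‖y‖) x (e3 k) = P' (e3 k) * h ‖x‖ + P x * (g ‖x‖ * x k) := by
  have h0 := norm_pos_iff.2 hx
  obtain ⟨d1, d2⟩ := fderiv_radial hx (hh _ h0) k
  rw [fderiv_fun_mul (hP x).differentiableAt d1, (hP x).fderiv]
  simp only [add_apply, smul_apply, smul_eq_mul, d2]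
  field_simp
  ring

theorem orbB_d2 {P : E3 → ℝ} {P' : E3 →L[ℝ] ℝ} {h g g' : ℝ → ℝ} (hP : ∀ x, HasFDerivAt P P' x)
    (hh : ∀ r, 0 < r → HasDerivAt h (r * g r) r) (hg : ∀ r, 0 < r → HasDerivAt g (g' r) r)
    {x : E3} (hx : x ≠ 0) :
    ∑ k, fderiv ℝ (fun z => fderiv ℝ (fun y => P y * h ‖y‖) z (e3 k)) x (e3 k) =
      2 * g ‖x‖ * P' x + P x * (g' ‖x‖ * ‖x‖ + 3 * g ‖x‖) := by
  have h0 := norm_pos_iff.2 hx
  have e1 : ∀ k, fderiv ℝ (fun z => fderiv ℝ (fun y => P y * h ‖y‖) z (e3 k)) x (e3 k) =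
      2 * g ‖x‖ * P' (x k • e3 k) + P x * (g' ‖x‖ / ‖x‖ * x k ^ 2 + g ‖x‖) := fun k => by
    have : (fun z => fderiv ℝ (fun y => P y * h ‖y‖) z (e3 k)) =ᶠ[𝓝 x]
        fun z => P' (e3 k) * h ‖z‖ + P z * (g ‖z‖ * z k) := by
      filter_upwards [isOpen_ne.mem_nhds hx] with z hz using orbB_d1 hP hh hz k
    obtain ⟨d1, d2⟩ := fderiv_radial hx (hh _ h0) k
    obtain ⟨d3, d4⟩ := fderiv_radial hx (hg _ h0) k
    have d5 := ((d1.hasFDerivAt.const_mul (P' (e3 k))).fun_add ((hP x).fun_mul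
      (d3.hasFDerivAt.fun_mul (hasFDerivAt_coord k x)))).fderiv
    rw [this.fderiv_eq, d5]
    simp only [add_apply, smul_apply, smul_eq_mul, d2, d4,
      map_smul, EuclideanSpace.coe_proj, e3_apply, if_true]
    field_simp
    ring
  simp only [e1, Finset.sum_add_distrib, ← Finset.mul_sum, ← map_sum, sum_smul_e3, sum_sq_coord]
  simp only [Finset.sum_const, Finset.card_univ, Fintype.card_fin, nsmul_eq_mul]
  field_simp
  ring

theorem orbB_exp (c r : ℝ) : HasDerivAt (fun r => Real.exp (-r / c)) (-1 / c * Real.exp (-r / c)) r := by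
  simpa [mul_comm] using ((hasDerivAt_id r).neg.div_const c).exp

theorem orbB_p (k : Fin 3) (x : E3) : raw (k.addNat 2) x = x k * Real.exp (-‖x‖ / 2) := by
  fin_cases k <;> rfl

theorem orbB_cases (j : Fin 5) : j = 0 ∨ j = 1 ∨ ∃ k : Fin 3, j = k.addNat 2 := by
  revert j
  decide

theorem orbB_data (j : Fin 5) : ∃ (P : E3 → ℝ) (P' : E3 →L[ℝ] ℝ) (h g g' : ℝ → ℝ),
    (∀ x, HasFDerivAt P P' x) ∧ ContDiff ℝ 2 P ∧ ContDiff ℝ 2 h ∧ (raw j = fun y => P y * h ‖y‖) ∧
    (∀ r, 0 < r → HasDerivAt h (r * g r) r) ∧ (∀ r, 0 < r → HasDerivAt g (g' r) r) ∧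
    (∀ x, x ≠ 0 → 2 * g ‖x‖ * P' x + P x * (g' ‖x‖ * ‖x‖ + 3 * g ‖x‖) =
      2 * (V0 x * (P x * h ‖x‖) - lev j * (P x * h ‖x‖))) ∧
    (∀ x, |P x * h ‖x‖| ≤ 4 * Real.exp (-‖x‖ / 4)) ∧
    ∀ x k, x ≠ 0 → |P' (e3 k) * h ‖x‖ + P x * (g ‖x‖ * x k)| ≤ 4 * Real.exp (-‖x‖ / 4) := by
  have hE : ∀ x : E3, 0 < Real.exp (-‖x‖ / 4) ∧ Real.exp (-‖x‖ / 4) ≤ 1 ∧
      ‖x‖ * Real.exp (-‖x‖ / 4) ≤ 4 ∧ Real.exp (-‖x‖ / 2) = Real.exp (-‖x‖ / 4) ^ 2 ∧
      Real.exp (-‖x‖ / 1) ≤ Real.exp (-‖x‖ / 4) := fun x => by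
    have h0 := norm_nonneg x
    refine ⟨Real.exp_pos _, Real.exp_le_one_iff.2 (by linarith), ?_, ?_,
      Real.exp_le_exp.2 (by linarith)⟩
    · have := Real.add_one_le_exp (‖x‖ / 4)
      rw [neg_div, Real.exp_neg, ← div_eq_mul_inv, div_le_iff₀ (Real.exp_pos _)]
      linarith
    · rw [← Real.exp_nat_mul]
      congr 1
      push_cast
      ring
  have hq : ∀ (x : E3) k, x ≠ 0 → |x k / ‖x‖| ≤ 1 := fun x k hx => by
    rw [abs_div, abs_norm, div_le_one (norm_pos_iff.2 hx)]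
    exact abs_coord_le x k
  rcases orbB_cases j with rfl | rfl | ⟨l, rfl⟩
  · refine ⟨fun _ => 1, 0, fun r => Real.exp (-r / 1), fun r => -Real.exp (-r / 1) / r,
      fun r => Real.exp (-r / 1) / r + Real.exp (-r / 1) / r ^ 2, fun x => hasFDerivAt_const _ _,
      contDiff_const, by fun_prop, funext fun x => by simp [raw], fun r hr => ?_, fun r hr => ?_,
      fun x hx => ?_, fun x => ?_, fun x k hx => ?_⟩ <;> beta_reduce
    · refine (orbB_exp 1 r).congr_deriv ?_
      field_simp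
    · refine ((orbB_exp 1 r).fun_neg.fun_div (hasDerivAt_id' r) hr.ne').congr_deriv ?_
      field_simp
      ring
    · have := norm_ne_zero_iff.2 hx
      simp only [V0, lev, if_true, zero_apply]
      field_simp
      ring
    · obtain ⟨e0, -, -, -, e4⟩ := hE x
      rw [one_mul, abs_of_pos (Real.exp_pos _)]
      linarith
    · obtain ⟨e0, -, -, -, e4⟩ := hE x
      have := abs_le.1 (hq x k hx)
      have e5 := Real.exp_pos (-‖x‖ / 1)
      rw [show (0 : E3 →L[ℝ] ℝ) (e3 k) * Real.exp (-‖x‖ / 1) + 1 * (-Real.exp (-‖x‖ / 1) / ‖x‖ * x k)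
        = -(Real.exp (-‖x‖ / 1) * (x k / ‖x‖)) by simp only [zero_apply]; ring, abs_le]
      constructor <;> nlinarith
  · refine ⟨fun _ => 1, 0, fun r => (1 - r / 2) * Real.exp (-r / 2),
      fun r => (1 / 4 - r⁻¹) * Real.exp (-r / 2),
      fun r => (1 / r ^ 2 + 1 / (2 * r) - 1 / 8) * Real.exp (-r / 2), fun x => hasFDerivAt_const _ _,
      contDiff_const, by fun_prop, funext fun x => by simp [raw], fun r hr => ?_, fun r hr => ?_,
      fun x hx => ?_, fun x => ?_, fun x k hx => ?_⟩ <;> beta_reduce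
    · refine ((((hasDerivAt_id' r).div_const 2).const_sub 1).fun_mul (orbB_exp 2 r)).congr_deriv ?_
      field_simp
      ring
    · refine (((hasDerivAt_inv hr.ne').const_sub (1 / 4)).fun_mul (orbB_exp 2 r)).congr_deriv ?_
      field_simp
      ring
    · have := norm_ne_zero_iff.2 hx
      simp only [V0, lev, zero_apply, show (1 : Fin 5) ≠ 0 by decide, if_false]
      field_simp
      ring
    · obtain ⟨e0, e1, e2, e3, -⟩ := hE x
      have := norm_nonneg x
      rw [one_mul, e3, abs_le]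
      constructor <;> nlinarith [mul_nonneg this e0.le]
    · obtain ⟨e0, e1, e2, e4, -⟩ := hE x
      have a1 := abs_le.1 (hq x k hx)
      have a2 := abs_le.1 (abs_coord_le x k)
      rw [e4, show (0 : E3 →L[ℝ] ℝ) (e3 k) * ((1 - ‖x‖ / 2) * Real.exp (-‖x‖ / 4) ^ 2) +
        1 * ((1 / 4 - ‖x‖⁻¹) * Real.exp (-‖x‖ / 4) ^ 2 * x k) = Real.exp (-‖x‖ / 4) *
        (x k * Real.exp (-‖x‖ / 4) / 4 - x k / ‖x‖ * Real.exp (-‖x‖ / 4)) by
          simp only [zero_apply]; ring, abs_mul, abs_of_pos e0, mul_comm]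
      refine mul_le_mul_of_nonneg_right (abs_le.2 ⟨?_, ?_⟩) e0.le <;> nlinarith
  · refine ⟨fun x => x l, EuclideanSpace.proj l, fun r => Real.exp (-r / 2),
      fun r => -Real.exp (-r / 2) / (2 * r),
      fun r => Real.exp (-r / 2) / (4 * r) + Real.exp (-r / 2) / (2 * r ^ 2), hasFDerivAt_coord l,
      (contDiff_coord l).of_le (by norm_cast), by fun_prop, funext (orbB_p l), fun r hr => ?_,
      fun r hr => ?_, fun x hx => ?_, fun x => ?_, fun x k hx => ?_⟩ <;> beta_reduce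
    · refine (orbB_exp 2 r).congr_deriv ?_
      field_simp
    · refine ((orbB_exp 2 r).fun_neg.fun_div ((hasDerivAt_id' r).const_mul 2)
        (by simpa using hr.ne')).congr_deriv ?_
      field_simp
      ring
    · have := norm_ne_zero_iff.2 hx
      have hl : l.addNat 2 ≠ 0 := by
        revert l
        decide
      simp only [V0, lev, hl, if_false, EuclideanSpace.coe_proj]
      field_simp
      ring
    · obtain ⟨e0, e1, e2, e3, -⟩ := hE x
      have a2 := abs_le.1 (abs_coord_le x l)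
      rw [e3, sq, ← mul_assoc, abs_mul, abs_of_pos e0]
      refine mul_le_mul_of_nonneg_right (abs_le.2 ⟨?_, ?_⟩) e0.le <;> nlinarith
    · obtain ⟨e0, e1, e2, e4, -⟩ := hE x
      have a1 := hq x k hx
      have a2 := abs_coord_le x l
      have a3 : |e3 k l| ≤ 1 := (abs_coord_le _ l).trans (norm_e3 k).le
      rw [e4, show (EuclideanSpace.proj l : E3 →L[ℝ] ℝ) (e3 k) * Real.exp (-‖x‖ / 4) ^ 2 +
        x l * (-Real.exp (-‖x‖ / 4) ^ 2 / (2 * ‖x‖) * x k) = Real.exp (-‖x‖ / 4) *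
        (Real.exp (-‖x‖ / 4) * (e3 k l - x l * (x k / ‖x‖) / 2)) by
          simp only [EuclideanSpace.coe_proj]; ring, abs_mul, abs_of_pos e0, mul_comm]
      refine mul_le_mul_of_nonneg_right ?_ e0.le
      have a4 := abs_sub (e3 k l) (x l * (x k / ‖x‖) / 2)
      have a5 := mul_le_mul a2 a1 (abs_nonneg _) (norm_nonneg _)
      rw [abs_div, abs_mul, abs_two] at a4
      rw [abs_mul, abs_of_pos e0]
      nlinarith [mul_le_mul_of_nonneg_left a4 e0.le, mul_le_mul_of_nonneg_left a3 e0.le,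
        mul_le_mul_of_nonneg_left a5 e0.le]

theorem orbB_facts (j : Fin 5) : Continuous (raw j) ∧ (∀ x, x ≠ 0 → ContDiffAt ℝ 2 (raw j) x) ∧
    (∀ x, x ≠ 0 → ∑ k, fderiv ℝ (fun z => fderiv ℝ (raw j) z (e3 k)) x (e3 k) =
      2 * (V0 x * raw j x - lev j * raw j x)) ∧ (∀ x, |raw j x| ≤ 4 * Real.exp (-‖x‖ / 4)) ∧
    ∀ x k, x ≠ 0 → |fderiv ℝ (raw j) x (e3 k)| ≤ 4 * Real.exp (-‖x‖ / 4) := by
  obtain ⟨P, P', h, g, g', h1, h2, h3, h4, h5, h6, h7, h8, h9⟩ := orbB_data j
  rw [h4]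
  exact ⟨h2.continuous.mul (h3.continuous.comp continuous_norm),
    fun x hx => h2.contDiffAt.mul (h3.contDiffAt.comp x (contDiffAt_norm ℝ hx)),
    fun x hx => (orbB_d2 h1 h5 h6 hx).trans (h7 x hx), h8,
    fun x k hx => by rw [orbB_d1 h1 h5 hx]; exact h9 x k hx⟩

theorem orbB_mem (j : Fin 5) : (raw j, fun k x => fderiv ℝ (raw j) x (e3 k)) ∈ Sob e3 := by
  obtain ⟨h1, h2, -, h4, h5⟩ := orbB_facts j
  have hE : MemLp (fun x : E3 => 4 * Real.exp (-‖x‖ / 4)) 2 volume := by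
    refine MemLp.const_mul ((memLp_two_iff_integrable_sq (by fun_prop)).2 ?_) 4
    refine (integrable_pow_exp 0 (c := 1 / 2) (by norm_num)).congr (ae_of_all _ fun x => ?_)
    simp only [pow_zero, one_mul, ← Real.exp_nat_mul]
    congr 1
    push_cast
    ring
  have m0 : MemLp (raw j) 2 volume := hE.mono' h1.aestronglyMeasurable (ae_of_all _ h4)
  have m1 : ∀ k, MemLp (fun x => fderiv ℝ (raw j) x (e3 k)) 2 volume := fun k =>
    hE.mono' (measurable_fderiv_apply_const ℝ _ _).aestronglyMeasurable (by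
      filter_upwards [ae_norm_ne 0] with x hx using h5 x k (norm_ne_zero_iff.1 hx))
  refine ⟨m0, m1, fun k φ f1 f2 => ?_⟩
  have := orbB_div {k} (X := fun _ => raw j) (fun _ x hx => (h2 x hx).of_le (by norm_num))
    (fun _ => m0) (fun x _ => Finset.sum_singleton _ _) (m1 k) (f1.of_le (by simp)) f2
  simpa only [Finset.sum_singleton, mul_comm] using this

theorem orbB_qf (j : Fin 5) (b : S e3) :
    qf V0 (S.of (orbB_mem j)) b = lev j * ip (S.of (orbB_mem j)) b := by
  obtain ⟨a, ha⟩ : ∃ a, a = S.of (orbB_mem j) := ⟨_, rfl⟩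
  have key : ∀ b : S e3, Sm b → qf V0 a b = lev j * ip a b := fun b hb => by
    obtain ⟨-, h2, h3, -, -⟩ := orbB_facts j
    have m1 := (memLp_V0 a).1
    have := orbB_div Finset.univ (X := a.g) (D := fun x => 2 * (V0 x * a.f x - lev j * a.f x))
      (fun k x hx => by
        rw [ha]
        exact ((h2 x hx).fderiv_right (m := 1) (by norm_num)).clm_apply contDiffAt_const)
      a.gmem (fun x hx => by rw [ha]; exact h3 x hx)
      ((m1.sub (a.mem.const_mul _)).const_mul 2) (hb.1.of_le (by simp)) hb.2.1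
    have e : ∀ x, 2 * (V0 x * a.f x - lev j * a.f x) * b.f x =
        2 * (V0 x * (a.f x * b.f x) - lev j * (a.f x * b.f x)) := fun x => by ring
    simp only [e] at this
    rw [integral_const_mul, integral_sub (fb_V0.int a b) ((a.int_mul b).const_mul _),
      integral_const_mul] at this
    simp only [qf, kin_eq, hb.2.2, this, pot, ip]
    ring
  rw [← ha]
  obtain ⟨u, u1, u2⟩ := b.approx
  obtain ⟨C, -, hC⟩ := fb_V0.abs_qf_le
  have t0 : Tendsto (fun _ : ℕ => hn (a - a)) atTop (𝓝 0) := by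
    rw [sub_self, ← zero_smul ℝ (0 : S e3), hn_smul]
    simp
  have t1 := fb_V0.bil_qf.tendsto hC t0 u2
  simp only [key _ (u1 _)] at t1
  exact tendsto_nhds_unique t1 ((bil_ip.tendsto abs_ip_le t0 u2).const_mul _)

end Vale.Agent.P363
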