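import Vale.Agent.P363.H.DirS
import Vale.Agent.P363.H.Nodal
import Vale.Agent.P363.H.Eig

/-!
# P363 H/RadA  (TASK)

`rad_two`: `w = a - t • orb 0` with `t = f 2 / (nrm 0 * exp (-2))` has the radial representative `f r - t nrm 0 exp (-r)`, zero at `r = 2`, so it is small (`small_sphere`); `nod_ge dir_sphere` and
`Bil.sub_sq`, `qf_orb`, `ip_orb` give `0 ≤ (μ + 1/8) ip a a - (3/8) t²`; hence `t = 0`.
`ratio_const`: if `f r / φ r ≠ f r' / φ r'` take `s` the mean of the two ratios.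
`rad_in`, `rad_out`: for every `s`, `a - s • orb 1` is an eigenfunction (`eig_orb 1`, `lev 1 = -(1/8)`), small, with representative `x ↦ f ‖x‖ - s φ ‖x‖`, `φ r = nrm 1 * ((1 - r/2) exp (-r/2))`.
`nod_nosign` at the points `r • e3 0`, `r' • e3 0` with `O = ball 0 (2 - δ)`, resp. `O = {z | 2 + δ < z 0}` (`abs_coord_le`).
-/

open MeasureTheory Filter Topology Set
open scoped ContDiff

set_option linter.unusedSectionVars false

noncomputable section

namespace Vale.Agent.P363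

theorem rad_two {μ : ℝ} {a : S e3} (he : HEig μ a) (hμ : μ ≤ -(1 / 8)) (h0 : ip (orb 0) a = 0)
    {f : ℝ → ℝ} (hf : Continuous f) (ha : a.f =ᵐ[volume] fun x => f ‖x‖) :
    f 2 = 0 ∧ 0 ≤ (μ + 1 / 8) * ip a a := by
  have n0 := nrm_pos 0
  have hp : 0 < nrm 0 * Real.exp (-2) := by positivity
  obtain ⟨t, ht⟩ : ∃ t : ℝ, t = f 2 / (nrm 0 * Real.exp (-2)) := ⟨_, rfl⟩
  have ht' : f 2 = t * (nrm 0 * Real.exp (-2)) := by
    rw [ht]
    field_simp
  have hs : HSmall (fun x => ‖x‖ - 2) (a - t • orb 0) := by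
    refine small_sphere (f := fun r => f r - t * (nrm 0 * Real.exp (-r))) (by fun_prop) ?_ ?_
    · filter_upwards [ha] with x hx
      rw [S.sub_f, S.smul_f, hx, orb_f, raw_zero]
    · rw [ht', sub_self]
  have h1 := nod_ge dir_sphere hs
  have h2 : ip a (orb 0) = 0 := by rw [bil_ip.symm, h0]
  have h3 : ip (orb 0) (orb 0) = 1 := by rw [ip_orb, if_pos rfl]
  have h4 : lev 0 = -(1 / 2) := by simp [lev]
  rw [bil_ip.sub_sq, fb_V0.bil_qf.sub_sq, bil_ip.smul_sq, fb_V0.bil_qf.smul_sq, bil_ip.smul_right,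
    fb_V0.bil_qf.smul_right, he a, he (orb 0), qf_orb, h2, h3, h4] at h1
  have h5 : (μ + 1 / 8) * ip a a ≤ 0 := mul_nonpos_of_nonpos_of_nonneg (by linarith) (ip_nonneg a)
  have h6 : t ^ 2 ≤ 0 := by linarith
  have h7 : t = 0 := pow_eq_zero_iff two_ne_zero |>.1 (le_antisymm h6 (sq_nonneg t))
  refine ⟨by rw [ht', h7, zero_mul], ?_⟩
  rw [h7] at h1
  linarith

theorem ratio_const {I : Set ℝ} {f φ : ℝ → ℝ} (hφ : (∀ r ∈ I, 0 < φ r) ∨ ∀ r ∈ I, φ r < 0)
    (h : ∀ s : ℝ, ∀ r ∈ I, ∀ r' ∈ I, 0 < f r - s * φ r → f r' - s * φ r' < 0 → False) :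
    ∃ c : ℝ, ∀ r ∈ I, f r = c * φ r := by
  have hne : ∀ r ∈ I, φ r ≠ 0 := fun r hr => hφ.elim (fun h => (h r hr).ne') fun h => (h r hr).ne
  have key : ∀ r ∈ I, ∀ r' ∈ I, f r / φ r ≤ f r' / φ r' := by
    intro r hr r' hr'
    by_contra hc
    have hlt := not_le.1 hc
    obtain ⟨s, hs⟩ : ∃ s, s = (f r / φ r + f r' / φ r') / 2 := ⟨_, rfl⟩
    have e1 : f r - s * φ r = (f r / φ r - s) * φ r := by
      have := hne r hr
      field_simp
    have e2 : f r' - s * φ r' = (f r' / φ r' - s) * φ r' := by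
      have := hne r' hr'
      field_simp
    have p1 : 0 < f r / φ r - s := by linarith
    have p2 : f r' / φ r' - s < 0 := by linarith
    rcases hφ with hφ | hφ
    · exact h s r hr r' hr' (e1 ▸ mul_pos p1 (hφ r hr)) (e2 ▸ mul_neg_of_neg_of_pos p2 (hφ r' hr'))
    · exact h s r' hr' r hr (e2 ▸ mul_pos_of_neg_of_neg p2 (hφ r' hr'))
        (e1 ▸ mul_neg_of_pos_of_neg p1 (hφ r hr))
  rcases I.eq_empty_or_nonempty with hI | ⟨r₀, hr₀⟩
  · exact ⟨0, fun r hr => absurd (hI ▸ hr) (notMem_empty r)⟩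
  · refine ⟨f r₀ / φ r₀, fun r hr => ?_⟩
    rw [← le_antisymm (key r hr r₀ hr₀) (key r₀ hr₀ r hr), div_mul_cancel₀ _ (hne r hr)]

theorem radA_no {a : S e3} (he : HEig (-(1 / 8)) a) {f : ℝ → ℝ} (hf : Continuous f)
    (ha : a.f =ᵐ[volume] fun x => f ‖x‖) (h2 : f 2 = 0) (s : ℝ) {O : Set E3} (hO : IsOpen O)
    (hc : Convex ℝ O) {δ : ℝ} (hδ : 0 < δ) (hd : ∀ x ∈ O, δ < |‖x‖ - 2|) {r r' : ℝ} (hr : 0 ≤ r)
    (hr' : 0 ≤ r') (hx : r • e3 0 ∈ O) (hy : r' • e3 0 ∈ O)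
    (p1 : 0 < f r - s * (nrm 1 * ((1 - r / 2) * Real.exp (-r / 2))))
    (p2 : f r' - s * (nrm 1 * ((1 - r' / 2) * Real.exp (-r' / 2))) < 0) : False := by
  have hl : lev 1 = -(1 / 8) := by
    simp only [lev, if_neg (show (1 : Fin 5) ≠ 0 by decide)]
  have e1 : HEig (-(1 / 8)) (a - s • orb 1) := he.sub ((hl ▸ eig_orb 1).smul s)
  have hg : Continuous fun t : ℝ => f t - s * (nrm 1 * ((1 - t / 2) * Real.exp (-t / 2))) := by
    fun_prop
  have hw : (a - s • orb 1).f =ᵐ[volume] fun x =>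
      (fun t : ℝ => f t - s * (nrm 1 * ((1 - t / 2) * Real.exp (-t / 2)))) ‖x‖ := by
    filter_upwards [ha] with x hx
    rw [S.sub_f, S.smul_f, hx, orb_f, raw_one]
  have hs : HSmall (fun x => ‖x‖ - 2) (a - s • orb 1) := small_sphere hg hw (by simp [h2])
  have hn : ∀ t : ℝ, 0 ≤ t → ‖t • e3 0‖ = t := fun t ht => by
    rw [norm_smul, norm_e3, mul_one, Real.norm_of_nonneg ht]
  refine nod_nosign dir_sphere hs e1 le_rfl hO hc hδ hd (hg.comp continuous_norm) hw hx hy ?_ ?_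
  · simpa only [Function.comp, hn r hr] using p1
  · simpa only [Function.comp, hn r' hr'] using p2

theorem rad_in {a : S e3} (he : HEig (-(1 / 8)) a) {f : ℝ → ℝ} (hf : Continuous f)
    (ha : a.f =ᵐ[volume] fun x => f ‖x‖) (h2 : f 2 = 0) :
    ∃ c : ℝ, ∀ r ∈ Ico (0 : ℝ) 2, f r = c * (nrm 1 * ((1 - r / 2) * Real.exp (-r / 2))) := by
  have n1 := nrm_pos 1
  refine ratio_const (φ := fun r => nrm 1 * ((1 - r / 2) * Real.exp (-r / 2)))
    (Or.inl fun r hr => ?_) fun s r hr r' hr' p1 p2 => ?_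
  · have : 0 < 1 - r / 2 := by linarith [hr.2]
    positivity
  · have hm : max r r' < 2 := max_lt hr.2 hr'.2
    have hn : ∀ t : ℝ, 0 ≤ t → t ≤ max r r' →
        t • e3 0 ∈ Metric.ball (0 : E3) (2 - (2 - max r r') / 2) := fun t ht ht' => by
      rw [mem_ball_zero_iff, norm_smul, norm_e3, mul_one, Real.norm_of_nonneg ht]
      linarith
    refine radA_no he hf ha h2 s Metric.isOpen_ball (convex_ball _ _)
      (δ := (2 - max r r') / 2) (by linarith) (fun x hx => ?_) hr.1 hr'.1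
      (hn r hr.1 (le_max_left _ _)) (hn r' hr'.1 (le_max_right _ _)) p1 p2
    rw [mem_ball_zero_iff] at hx
    exact lt_abs.2 (Or.inr (by linarith))

theorem rad_out {a : S e3} (he : HEig (-(1 / 8)) a) {f : ℝ → ℝ} (hf : Continuous f)
    (ha : a.f =ᵐ[volume] fun x => f ‖x‖) (h2 : f 2 = 0) :
    ∃ c : ℝ, ∀ r ∈ Ioi (2 : ℝ), f r = c * (nrm 1 * ((1 - r / 2) * Real.exp (-r / 2))) := by
  have n1 := nrm_pos 1
  refine ratio_const (φ := fun r => nrm 1 * ((1 - r / 2) * Real.exp (-r / 2)))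
    (Or.inr fun r hr => ?_) fun s r hr r' hr' p1 p2 => ?_
  · have : 1 - r / 2 < 0 := by linarith [mem_Ioi.1 hr]
    exact mul_neg_of_pos_of_neg n1 (mul_neg_of_neg_of_pos this (Real.exp_pos _))
  · have hm : 2 < min r r' := lt_min hr hr'
    have hn : ∀ t : ℝ, min r r' ≤ t →
        t • e3 0 ∈ {z : E3 | 2 + (min r r' - 2) / 2 < z 0} := fun t ht => by
      have e : (t • e3 0 : E3) 0 = t := by simp [e3]
      rw [mem_ofPred_eq, e]
      linarith
    refine radA_no he hf ha h2 s (O := {z : E3 | 2 + (min r r' - 2) / 2 < z 0})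
      (isOpen_lt continuous_const (contDiff_coord 0).continuous)
      (convex_halfSpace_gt (EuclideanSpace.proj (0 : Fin 3) : E3 →L[ℝ] ℝ).toLinearMap.isLinear _)
      (δ := (min r r' - 2) / 2) (by linarith) (fun x hx => ?_) (by linarith [mem_Ioi.1 hr])
      (by linarith [mem_Ioi.1 hr']) (hn r (min_le_left _ _)) (hn r' (min_le_right _ _)) p1 p2
    have h1 : 2 + (min r r' - 2) / 2 < x 0 := hx
    have h3 := (le_abs_self _).trans (abs_coord_le x 0)
    exact lt_abs.2 (Or.inl (by linarith))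

end Vale.Agent.P363
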