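import Vale.Agent.P363.H.Defs

/-!
# P363 H/Rho  (TASK)

Calculus of `hrho ε x = √(‖x‖² + ε²)` and `hu ε t = t / (t² + ε²)`.  `contDiff_norm_sq`, `ContDiff.sqrt`, `HasFDerivAt.sqrt`, `hasFDerivAt_coord`, `sum_sq_coord`.
`mul1_rad`: the field is `h (ρ x) * (x k * (ρ x)⁻¹)`; bound the derivative with `Mul1.mul` (each of `x ↦ h (ρ x)`, `x ↦ x k / ρ x` is `Mul1`:
the derivative of `x k / ρ` is `ρ⁻¹ proj k - x k ρ⁻² Dρ`, of norm `≤ 2 / ε`).  `div_rad`: sum the formula of `mul1_rad` over `k` (`Fin.sum_univ_three` or `sum_sq_coord`).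
-/

open MeasureTheory Filter Topology Set
open scoped ContDiff

set_option linter.unusedSectionVars false

noncomputable section

namespace Vale.Agent.P363

theorem hrho_pos {ε : ℝ} (hε : 0 < ε) (x : E3) : 0 < hrho ε x :=
  Real.sqrt_pos.2 (by positivity)

theorem hrho_sq (ε : ℝ) (x : E3) : hrho ε x ^ 2 = ‖x‖ ^ 2 + ε ^ 2 :=
  Real.sq_sqrt (by positivity)

theorem norm_le_hrho (ε : ℝ) (x : E3) : ‖x‖ ≤ hrho ε x :=
  Real.le_sqrt_of_sq_le (by nlinarith [sq_nonneg ε])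

theorem le_hrho (ε : ℝ) (x : E3) : ε ≤ hrho ε x :=
  Real.le_sqrt_of_sq_le (by nlinarith [sq_nonneg ‖x‖])

theorem hrho_le {ε : ℝ} (hε : 0 ≤ ε) (x : E3) : hrho ε x ≤ ‖x‖ + ε :=
  Real.sqrt_le_iff.2 ⟨by positivity, by nlinarith [mul_nonneg (norm_nonneg x) hε]⟩

theorem hrho_zero (x : E3) : hrho 0 x = ‖x‖ := by
  simp [hrho]

theorem continuous_hrho (x : E3) : Continuous fun ε => hrho ε x := by
  unfold hrho
  fun_prop

theorem contDiff_hrho {ε : ℝ} (hε : 0 < ε) : ContDiff ℝ ∞ (hrho ε) :=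
  ((contDiff_norm_sq ℝ).add contDiff_const).sqrt fun x => by positivity

theorem rho_hasFDerivAt {ε : ℝ} (hε : 0 < ε) (x : E3) :
    HasFDerivAt (hrho ε) ((hrho ε x)⁻¹ • innerSL ℝ x) x := by
  have h := ((hasStrictFDerivAt_norm_sq x).hasFDerivAt.add_const (ε ^ 2)).sqrt (by positivity)
  refine h.congr_fderiv ?_
  have := (hrho_pos hε x).ne'
  ext v
  simp only [hrho] at this ⊢
  simp
  field_simp

theorem fderiv_hrho {ε : ℝ} (hε : 0 < ε) (x : E3) (k : Fin 3) :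
    fderiv ℝ (hrho ε) x (e3 k) = x k / hrho ε x := by
  rw [(rho_hasFDerivAt hε x).fderiv]
  simp [e3, div_eq_inv_mul, EuclideanSpace.inner_single_right]

theorem norm_fderiv_hrho {ε : ℝ} (hε : 0 < ε) (x : E3) : ‖fderiv ℝ (hrho ε) x‖ ≤ 1 := by
  have h := hrho_pos hε x
  rw [(rho_hasFDerivAt hε x).fderiv, norm_smul, innerSL_apply_norm, norm_inv,
    Real.norm_of_nonneg h.le, inv_mul_le_iff₀ h, mul_one]
  exact norm_le_hrho ε x

theorem Mul1.add' {θ θ' : E3 → ℝ} (h : Mul1 θ) (h' : Mul1 θ') : Mul1 fun x => θ x + θ' x := by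
  obtain ⟨h1, C, hC⟩ := h
  obtain ⟨h2, D, hD⟩ := h'
  refine ⟨h1.add h2, C + D, fun x => ⟨(abs_add_le _ _).trans (add_le_add (hC x).1 (hD x).1), ?_⟩⟩
  rw [fderiv_fun_add (h1.differentiable one_ne_zero x) (h2.differentiable one_ne_zero x)]
  exact (norm_add_le _ _).trans (add_le_add (hC x).2 (hD x).2)

theorem rho_proj (k : Fin 3) : ‖(EuclideanSpace.proj k : E3 →L[ℝ] ℝ)‖ ≤ 1 :=
  ContinuousLinearMap.opNorm_le_bound _ zero_le_one fun y => by simpa using abs_coord_le y k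

theorem rho_comp {g : E3 → ℝ} (hg : ContDiff ℝ 1 g) (hg' : ∀ x, ‖fderiv ℝ g x‖ ≤ 1) {h h' : ℝ → ℝ}
    (hd : ∀ t, HasDerivAt h (h' t) t) (hc : Continuous h') {C : ℝ}
    (hb : ∀ t, |h t| ≤ C ∧ |h' t| ≤ C) :
    Mul1 (fun x => h (g x)) ∧ ∀ x v, fderiv ℝ (fun x => h (g x)) x v = h' (g x) * fderiv ℝ g x v := by
  have h1 : ContDiff ℝ 1 h := contDiff_one_iff_deriv.2 ⟨fun t => (hd t).differentiableAt, by
    rw [show deriv h = h' from funext fun t => (hd t).deriv]; exact hc⟩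
  have h2 : ∀ x, fderiv ℝ (fun x => h (g x)) x = h' (g x) • fderiv ℝ g x := fun x =>
    ((hd (g x)).comp_hasFDerivAt x (hg.differentiable one_ne_zero x).hasFDerivAt).fderiv
  refine ⟨⟨h1.comp hg, C, fun x => ⟨(hb _).1, ?_⟩⟩, fun x v => by rw [h2]; rfl⟩
  rw [h2, norm_smul]
  exact (mul_le_of_le_one_right (norm_nonneg _) (hg' x)).trans (hb _).2

theorem rho_quot {ε : ℝ} (hε : 0 < ε) (k : Fin 3) :
    Mul1 (fun x : E3 => x k / hrho ε x) ∧ ∀ x : E3,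
      fderiv ℝ (fun x : E3 => x k / hrho ε x) x (e3 k) = 1 / hrho ε x - x k ^ 2 / hrho ε x ^ 3 := by
  have h2 : ∀ x : E3, fderiv ℝ (fun x : E3 => x k / hrho ε x) x =
      x k • (-(hrho ε x ^ 2)⁻¹ • fderiv ℝ (hrho ε) x) +
        (hrho ε x)⁻¹ • (EuclideanSpace.proj k : E3 →L[ℝ] ℝ) := fun x => by
    have h := (hasFDerivAt_coord k x).fun_mul ((hasDerivAt_inv (hrho_pos hε x).ne').comp_hasFDerivAt x
      (rho_hasFDerivAt hε x).differentiableAt.hasFDerivAt)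
    simp only [div_eq_mul_inv]
    exact h.fderiv
  refine ⟨⟨((contDiff_coord k).div (contDiff_hrho hε) fun x => (hrho_pos hε x).ne').of_le (by simp),
    max 1 (2 / ε), fun x => ?_⟩, fun x => ?_⟩
  · have h := hrho_pos hε x
    have h1 : |x k| ≤ hrho ε x := (abs_coord_le x k).trans (norm_le_hrho ε x)
    refine ⟨le_max_of_le_left ?_, le_max_of_le_right ?_⟩
    · rw [abs_div, abs_of_pos h, div_le_one h]
      exact h1
    · rw [h2]
      refine (norm_add_le _ _).trans ?_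
      rw [norm_smul, norm_smul, norm_smul, norm_neg, norm_inv, norm_inv, Real.norm_of_nonneg h.le,
        Real.norm_of_nonneg (sq_nonneg _), Real.norm_eq_abs]
      calc _ ≤ hrho ε x * ((hrho ε x ^ 2)⁻¹ * 1) + (hrho ε x)⁻¹ * 1 := by
            gcongr
            · exact norm_fderiv_hrho hε x
            · exact rho_proj k
        _ = 2 / hrho ε x := by field_simp; ring
        _ ≤ 2 / ε := by gcongr; exact le_hrho ε x
  · have h := (hrho_pos hε x).ne'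
    rw [h2]
    simp only [add_apply, smul_apply, smul_eq_mul,
      fderiv_hrho hε]
    simp [e3]
    field_simp
    ring

theorem mul1_rad {ε : ℝ} (hε : 0 < ε) {h h' : ℝ → ℝ} (hd : ∀ t, HasDerivAt h (h' t) t)
    (hc : Continuous h') {C : ℝ} (hb : ∀ t, |h t| ≤ C ∧ |h' t| ≤ C) (k : Fin 3) :
    Mul1 (fun x : E3 => h (hrho ε x) * (x k / hrho ε x)) ∧ ∀ x : E3,
      fderiv ℝ (fun x : E3 => h (hrho ε x) * (x k / hrho ε x)) x (e3 k) =
        h' (hrho ε x) * (x k ^ 2 / hrho ε x ^ 2) +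
          h (hrho ε x) * (1 / hrho ε x - x k ^ 2 / hrho ε x ^ 3) := by
  have c1 : ContDiff ℝ 1 (hrho ε) := (contDiff_hrho hε).of_le (by simp)
  obtain ⟨m1, f1⟩ := rho_comp c1 (norm_fderiv_hrho hε) hd hc hb
  obtain ⟨m2, f2⟩ := rho_quot hε k
  refine ⟨m1.mul m2, fun x => ?_⟩
  rw [fderiv_fun_mul (m1.1.differentiable one_ne_zero x) (m2.1.differentiable one_ne_zero x)]
  simp only [add_apply, smul_apply, smul_eq_mul, f1, f2,
    fderiv_hrho hε]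
  ring

theorem div_rad {ε : ℝ} (hε : 0 < ε) {h h' : ℝ → ℝ} (hd : ∀ t, HasDerivAt h (h' t) t)
    (hc : Continuous h') {C : ℝ} (hb : ∀ t, |h t| ≤ C ∧ |h' t| ≤ C) (x : E3) :
    ∑ k, (fderiv ℝ (fun x : E3 => h (hrho ε x) * (x k / hrho ε x)) x (e3 k) +
        (h (hrho ε x) * (x k / hrho ε x)) ^ 2) =
      h' (hrho ε x) * (‖x‖ ^ 2 / hrho ε x ^ 2) +
        h (hrho ε x) * (3 / hrho ε x - ‖x‖ ^ 2 / hrho ε x ^ 3) +
        h (hrho ε x) ^ 2 * (‖x‖ ^ 2 / hrho ε x ^ 2) := by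
  simp only [(mul1_rad hε hd hc hb _).2, ← sum_sq_coord, Fin.sum_univ_three]
  ring

theorem hasDerivAt_hu {ε : ℝ} (hε : 0 < ε) (t : ℝ) :
    HasDerivAt (hu ε) ((ε ^ 2 - t ^ 2) / (t ^ 2 + ε ^ 2) ^ 2) t := by
  have h := (hasDerivAt_id' t).fun_div ((hasDerivAt_pow 2 t).add_const (ε ^ 2)) (by positivity)
  refine h.congr_deriv ?_
  congr 1
  push_cast
  ring

theorem rho_hu {ε t δ : ℝ} (h : 0 < t ^ 2 + ε ^ 2) (hδ : 0 < δ) (h1 : δ ^ 2 ≤ t ^ 2 + ε ^ 2)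
    (h2 : |t| * δ ≤ t ^ 2 + ε ^ 2) :
    |hu ε t| ≤ 1 / δ ∧ |(ε ^ 2 - t ^ 2) / (t ^ 2 + ε ^ 2) ^ 2| ≤ 1 / δ ^ 2 := by
  constructor
  · rw [hu, abs_div, abs_of_pos h, div_le_div_iff₀ h hδ]
    linarith
  · rw [abs_div, abs_of_pos (pow_pos h 2), div_le_div_iff₀ (pow_pos h 2) (pow_pos hδ 2)]
    have : |ε ^ 2 - t ^ 2| ≤ t ^ 2 + ε ^ 2 :=
      abs_le.2 ⟨by nlinarith [sq_nonneg ε], by nlinarith [sq_nonneg t]⟩
    nlinarith [mul_le_mul this h1 (sq_nonneg δ) h.le]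

theorem abs_hu_le {ε : ℝ} (hε : 0 < ε) (t : ℝ) :
    |hu ε t| ≤ 1 / ε ∧ |(ε ^ 2 - t ^ 2) / (t ^ 2 + ε ^ 2) ^ 2| ≤ 1 / ε ^ 2 := by
  have h : 0 < t ^ 2 + ε ^ 2 := by positivity
  refine rho_hu h hε (by nlinarith [sq_nonneg t]) ?_
  nlinarith [sq_nonneg (|t| - ε), sq_abs t, mul_nonneg (abs_nonneg t) hε.le]

theorem abs_hu_le' (ε : ℝ) {t δ : ℝ} (hδ : 0 < δ) (ht : δ ≤ |t|) :
    |hu ε t| ≤ 1 / δ ∧ |(ε ^ 2 - t ^ 2) / (t ^ 2 + ε ^ 2) ^ 2| ≤ 1 / δ ^ 2 := by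
  have h0 : δ ^ 2 ≤ t ^ 2 := by nlinarith [sq_abs t]
  have h : 0 < t ^ 2 + ε ^ 2 := by nlinarith [sq_nonneg ε, pow_pos hδ 2]
  refine rho_hu h hδ (by nlinarith [sq_nonneg ε]) ?_
  nlinarith [sq_nonneg ε, sq_abs t, mul_le_mul_of_nonneg_left ht (abs_nonneg t)]

theorem mul1_coord {ε : ℝ} (hε : 0 < ε) (k : Fin 3) :
    Mul1 (fun x : E3 => hu ε (x k)) ∧ ∀ x : E3,
      fderiv ℝ (fun x : E3 => hu ε (x k)) x (e3 k) =
        (ε ^ 2 - x k ^ 2) / (x k ^ 2 + ε ^ 2) ^ 2 := by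
  obtain ⟨m1, f1⟩ := rho_comp (g := fun x : E3 => x k) ((contDiff_coord k).of_le (by simp))
    (fun x => by rw [(hasFDerivAt_coord k x).fderiv]; exact rho_proj k) (hasDerivAt_hu hε)
    (Continuous.div (by fun_prop) (by fun_prop) fun t => by positivity) (C := max (1 / ε) (1 / ε ^ 2))
    fun t => ⟨le_max_of_le_left (abs_hu_le hε t).1, le_max_of_le_right (abs_hu_le hε t).2⟩
  refine ⟨m1, fun x => ?_⟩
  rw [f1, (hasFDerivAt_coord k x).fderiv]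
  simp [e3]


end Vale.Agent.P363
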